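import Vale.Agent.P143.Dart

set_option autoImplicit false

namespace Vale.Agent.P143

open Filter Topology Set MeasureTheory
open scoped InnerProductSpace

universe u w

variable {V : Type u} {Ω : Type w} [MeasurableSpace Ω]

/-- Sums over a countable index of measurable real functions are measurable. -/
lemma measurable_of_hasSum {ι : Type*} [Countable ι] {f : ι → Ω → ℝ} {g : Ω → ℝ}
    (hf : ∀ i, Measurable (f i)) (h : ∀ ω, HasSum (fun i => f i ω) (g ω)) : Measurable g := by
  refine measurable_of_tendsto_metrizable' (atTop : Filter (Finset ι))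
    (f := fun s ω => ∑ i ∈ s, f i ω) (fun s => Finset.measurable_fun_sum s fun i _ => hf i) ?_
  rw [tendsto_pi_nhds]
  intro ω
  exact h ω

/-- Random operators: measurable and equivariant families of bounded operators. -/
structure Adm (act : Equiv.Perm V → Ω → Ω) (T : Ω → Hd V →L[ℝ] Hd V) : Prop where
  meas : ∀ x y, Measurable fun ω => ⟪T ω x, y⟫_ℝ
  equi : ∀ σ ω x, T (act σ ω) (permL σ x) = permL σ (T ω x)

variable {act : Equiv.Perm V → Ω → Ω}

lemma hasSum_dl (x : Hd V) : HasSum (fun p => x p • (dl p : Hd V)) x := by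
  classical
  have h := lp.hasSum_single (E := fun _ : V × V => ℝ) (p := 2) (by norm_num) x
  convert h using 2 with p
  unfold dl
  rw [← lp.single_smul]
  simp

/-- criterion for measurability by coefficients -/
lemma meas_of_coef [Countable V] {T : Ω → Hd V →L[ℝ] Hd V}
    (h : ∀ p q, Measurable fun ω => T ω (dl p) q) (x y : Hd V) :
    Measurable fun ω => ⟪T ω x, y⟫_ℝ := by
  have h1 : ∀ p, Measurable fun ω => ⟪T ω (dl p), y⟫_ℝ := by
    intro p
    refine measurable_of_hasSum (f := fun q ω => T ω (dl p) q * y q) (fun q => ?_)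
      fun ω => hasSum_inner' _ _
    exact (h p q).mul_const _
  refine measurable_of_hasSum (f := fun p ω => x p * ⟪T ω (dl p), y⟫_ℝ) (fun p => ?_) fun ω => ?_
  · exact (h1 p).const_mul _
  · have h2 : HasSum (fun p => T ω (x p • (dl p : Hd V))) (T ω x) :=
      (T ω).hasSum (hasSum_dl x)
    have h3 := (innerSL ℝ y).hasSum h2
    simp only [innerSL_apply_apply] at h3
    have h4 : (fun p => ⟪y, (T ω) (x p • (dl p : Hd V))⟫_ℝ)
        = fun p => x p * ⟪T ω (dl p), y⟫_ℝ := by
      funext p
      rw [map_smul, inner_smul_right, real_inner_comm]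
    rw [h4, real_inner_comm] at h3
    exact h3

namespace Adm

lemma coef {T : Ω → Hd V →L[ℝ] Hd V} (hT : Adm act T) (p q : V × V) :
    Measurable fun ω => T ω (dl p) q := by
  have h := hT.meas (dl p) (dl q)
  simpa [inner_dl_right] using h

lemma const {T : Hd V →L[ℝ] Hd V} (h : ∀ σ x, T (permL σ x) = permL σ (T x)) :
    Adm act (fun _ : Ω => T) :=
  ⟨fun _ _ => measurable_const, fun σ _ x => h σ x⟩

lemma one : Adm act (fun _ : Ω => (1 : Hd V →L[ℝ] Hd V)) := const fun _ _ => rfl

lemma add {S T : Ω → Hd V →L[ℝ] Hd V} (hS : Adm act S) (hT : Adm act T) :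
    Adm act (fun ω => S ω + T ω) := by
  refine ⟨fun x y => ?_, fun σ ω x => ?_⟩
  · simp only [add_apply, inner_add_left]
    exact (hS.meas x y).add (hT.meas x y)
  · simp [hS.equi, hT.equi]

lemma sub {S T : Ω → Hd V →L[ℝ] Hd V} (hS : Adm act S) (hT : Adm act T) :
    Adm act (fun ω => S ω - T ω) := by
  refine ⟨fun x y => ?_, fun σ ω x => ?_⟩
  · simp only [sub_apply, inner_sub_left]
    exact (hS.meas x y).sub (hT.meas x y)
  · simp [hS.equi, hT.equi]

lemma smul {T : Ω → Hd V →L[ℝ] Hd V} (c : ℝ) (hT : Adm act T) :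
    Adm act (fun ω => c • T ω) := by
  refine ⟨fun x y => ?_, fun σ ω x => ?_⟩
  · simpa [inner_smul_left] using (hT.meas x y).const_mul c
  · simp [hT.equi]

lemma adjoint {T : Ω → Hd V →L[ℝ] Hd V} (hT : Adm act T) :
    Adm act (fun ω => ContinuousLinearMap.adjoint (T ω)) := by
  refine ⟨fun x y => ?_, fun σ ω x => ?_⟩
  · have h : (fun ω => ⟪ContinuousLinearMap.adjoint (T ω) x, y⟫_ℝ) = fun ω => ⟪T ω y, x⟫_ℝ := by
      funext ω
      rw [ContinuousLinearMap.adjoint_inner_left, real_inner_comm]
    rw [h]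
    exact hT.meas y x
  · refine ext_inner_right ℝ fun y => ?_
    obtain ⟨y', rfl⟩ := (permL σ).surjective y
    rw [ContinuousLinearMap.adjoint_inner_left, hT.equi, LinearIsometryEquiv.inner_map_map,
      LinearIsometryEquiv.inner_map_map, ContinuousLinearMap.adjoint_inner_left]

lemma mul [Countable V] {S T : Ω → Hd V →L[ℝ] Hd V} (hS : Adm act S) (hT : Adm act T) :
    Adm act (fun ω => S ω * T ω) := by
  refine ⟨fun x y => ?_, fun σ ω x => ?_⟩
  · have hS' := hS.adjoint
    refine measurable_of_hasSum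
      (f := fun q ω => (T ω x) q * (ContinuousLinearMap.adjoint (S ω) y) q) (fun q => ?_)
      fun ω => ?_
    · have h1 := hT.meas x (dl q)
      have h2 := hS'.meas y (dl q)
      simp only [inner_dl_right] at h1 h2
      exact h1.mul h2
    · have h := hasSum_inner' (T ω x) (ContinuousLinearMap.adjoint (S ω) y)
      rwa [ContinuousLinearMap.adjoint_inner_right] at h
  · rw [cmul_apply, cmul_apply, hT.equi, hS.equi]

lemma pow [Countable V] {T : Ω → Hd V →L[ℝ] Hd V} (hT : Adm act T) (n : ℕ) :
    Adm act (fun ω => T ω ^ n) := by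
  induction n with
  | zero => simpa using one
  | succ n ih =>
    have := ih.mul hT
    simpa [pow_succ] using this

lemma finsum {ι : Type*} (s : Finset ι) {T : ι → Ω → Hd V →L[ℝ] Hd V}
    (hT : ∀ i, Adm act (T i)) : Adm act (fun ω => ∑ i ∈ s, T i ω) := by
  classical
  induction s using Finset.induction_on with
  | empty => simpa using const (T := (0 : Hd V →L[ℝ] Hd V)) (by simp)
  | insert i s hi ih =>
    have := (hT i).add ih
    simpa [Finset.sum_insert hi] using this

lemma lim {T : ℕ → Ω → Hd V →L[ℝ] Hd V} {S : Ω → Hd V →L[ℝ] Hd V}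
    (hT : ∀ n, Adm act (T n)) (h : ∀ ω x, Tendsto (fun n => T n ω x) atTop (𝓝 (S ω x))) :
    Adm act S := by
  refine ⟨fun x y => ?_, fun σ ω x => ?_⟩
  · refine measurable_of_tendsto_metrizable (fun n => (hT n).meas x y) ?_
    rw [tendsto_pi_nhds]
    intro ω
    exact (h ω x).inner tendsto_const_nhds
  · have h1 := h (act σ ω) (permL σ x)
    have h2 := ((permL σ).continuous.tendsto _).comp (h ω x)
    have h3 : (fun n => T n (act σ ω) (permL σ x)) = (permL σ) ∘ fun n => T n ω x := by
      funext n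
      exact (hT n).equi σ ω x
    rw [h3] at h1
    exact tendsto_nhds_unique h1 h2

end Adm

end Vale.Agent.P143
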