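import Mathlib

/-!
# Equivariant extraction of iid edge marks from iid vertex labels
-/

open MeasureTheory unitInterval Function

universe u v w

namespace Vale.Agent.P143.MarksE

section Defs

variable {V : Type u} {S : Type v}

/-- number of `A`-neighbours of `u` whose label is smaller than that of `v` -/
noncomputable def rank (A : V → V → Prop) (X : V → I) (u v : V) : ℕ :=
  Set.ncard {w | A u w ∧ X w < X v}

open Classical in
/-- the mark of the pair `u, v`: taken from the store `Y` of the endpoint with the smaller label,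
at the rank of the other endpoint -/
noncomputable def markAux (s₀ : S) (A : V → V → Prop) (X : V → I) (Y : V → ℕ → S) (u v : V) : S :=
  if X u < X v then Y u (rank A X u v) else if X v < X u then Y v (rank A X v u) else s₀

lemma markAux_comm (s₀ : S) (A : V → V → Prop) (X : V → I) (Y : V → ℕ → S) (u v : V) :
    markAux s₀ A X Y u v = markAux s₀ A X Y v u := by
  unfold markAux
  by_cases h1 : X u < X v
  · rw [if_pos h1, if_neg (not_lt.2 h1.le), if_pos h1]
  · by_cases h2 : X v < X u
    · rw [if_neg h1, if_pos h2, if_pos h2]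
    · rw [if_neg h1, if_neg h2, if_neg h2, if_neg h1]

/-- the mark of an unordered pair -/
noncomputable def mark₂ (s₀ : S) (A : V → V → Prop) (X : V → I) (Y : V → ℕ → S) : Sym2 V → S :=
  Sym2.lift ⟨markAux s₀ A X Y, markAux_comm s₀ A X Y⟩

/-- the mark of an unordered pair, as a function of the vertex labels `U`, given a map `f` splitting
one label into a sequence of labels, and a map `g` producing a mark from a label -/
noncomputable def mark (f : I → ℕ → I) (g : I → S) (A : V → V → Prop) (U : V → I) :
    Sym2 V → S :=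
  mark₂ (g 0) A (fun v => f (U v) 0) (fun v n => g (f (U v) (n + 1)))

end Defs

section Equivariance

variable {V : Type u} {W : Type w} {S : Type v}

lemma rank_equiv (φ : V ≃ W) (A : V → V → Prop) (B : W → W → Prop)
    (hAB : ∀ x y, A x y ↔ B (φ x) (φ y)) (X : V → I) (Z : W → I) (hXZ : ∀ x, Z (φ x) = X x)
    (u v : V) : rank B Z (φ u) (φ v) = rank A X u v := by
  unfold rank
  have : {w | B (φ u) w ∧ Z w < Z (φ v)} = φ '' {w | A u w ∧ X w < X v} := by
    ext w
    constructor
    · rintro ⟨h1, h2⟩
      refine ⟨φ.symm w, ⟨?_, ?_⟩, φ.apply_symm_apply w⟩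
      · rw [hAB, φ.apply_symm_apply]; exact h1
      · rw [← hXZ, ← hXZ v, φ.apply_symm_apply]; exact h2
    · rintro ⟨x, ⟨h1, h2⟩, rfl⟩
      exact ⟨(hAB _ _).1 h1, by rw [hXZ, hXZ]; exact h2⟩
  rw [this, Set.ncard_image_of_injective _ φ.injective]

/-- **Equivariance** of the marks under isomorphisms. -/
theorem mark_equiv (f : I → ℕ → I) (g : I → S) (φ : V ≃ W) (A : V → V → Prop)
    (B : W → W → Prop) (hAB : ∀ x y, A x y ↔ B (φ x) (φ y)) (U : V → I) (U' : W → I)
    (hU : ∀ x, U' (φ x) = U x) (e : Sym2 V) :
    mark f g B U' (e.map φ) = mark f g A U e := by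
  induction e with
  | _ u v =>
    unfold mark mark₂
    rw [Sym2.map_mk]
    simp only [Sym2.lift_mk]
    unfold markAux
    simp only [hU]
    rw [rank_equiv φ A B hAB (fun v => f (U v) 0) (fun v => f (U' v) 0)
      (fun x => by simp only [hU]) u v,
      rank_equiv φ A B hAB (fun v => f (U v) 0) (fun v => f (U' v) 0)
      (fun x => by simp only [hU]) v u]

end Equivariance

section Place

variable {V : Type u} {S : Type v}

lemma rank_inj {A : V → V → Prop} {X : V → I} (hX : Injective X) {u v v' : V} (hv : A u v)
    (hv' : A u v') (hfin : {w | A u w}.Finite) (h : rank A X u v = rank A X u v') : v = v' := by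
  by_contra hne
  have hXne : X v ≠ X v' := fun h => hne (hX h)
  wlog hlt : X v < X v' generalizing v v'
  · exact this hv' hv h.symm (Ne.symm hne) (Ne.symm hXne)
      (lt_of_le_of_ne (not_lt.1 hlt) (Ne.symm hXne))
  have hss : {w | A u w ∧ X w < X v} ⊂ {w | A u w ∧ X w < X v'} := by
    refine ⟨fun w hw => ⟨hw.1, hw.2.trans hlt⟩, fun hcon => ?_⟩
    exact lt_irrefl _ (hcon (⟨hv, hlt⟩ : v ∈ {w | A u w ∧ X w < X v'})).2
  have := Set.ncard_lt_ncard hss (hfin.subset fun w hw => hw.1)
  unfold rank at h
  omega

/-- if the labels are distinct, the marks of the edges are read off at distinct places -/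
lemma exists_place (s₀ : S) {A : V → V → Prop} (hsymm : ∀ x y, A x y → A y x)
    (hirr : ∀ x, ¬ A x x) (hfin : ∀ u, {w | A u w}.Finite) {X : V → I} (hX : Injective X)
    (E : Set (Sym2 V)) (hE : ∀ x y, s(x, y) ∈ E → A x y) :
    ∃ ι : E → V × ℕ, Injective ι ∧ ∀ (Y : V → ℕ → S) (e : E), mark₂ s₀ A X Y e =
      Y (ι e).1 (ι e).2 := by
  have key : ∀ e : E, ∃ p : V × V, (e : Sym2 V) = s(p.1, p.2) ∧ X p.1 < X p.2 ∧ A p.1 p.2 := by
    rintro ⟨e, he⟩
    induction e with
    | _ u v =>
      have hA := hE u v he
      rcases lt_trichotomy (X u) (X v) with h | h | h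
      · exact ⟨(u, v), rfl, h, hA⟩
      · exact absurd hA (hX h ▸ hirr u)
      · exact ⟨(v, u), Sym2.eq_swap, h, hsymm _ _ hA⟩
  choose p hp1 hp2 hp3 using key
  refine ⟨fun e => ((p e).1, rank A X (p e).1 (p e).2), ?_, ?_⟩
  · intro e e' h
    rw [Prod.mk.injEq] at h
    obtain ⟨h1, h2⟩ := h
    have h3 : (p e).2 = (p e').2 := by
      refine rank_inj hX (u := (p e).1) (hp3 e) (by rw [h1]; exact hp3 e') (hfin _) ?_
      rw [h2, h1]
    apply Subtype.ext
    rw [hp1 e, hp1 e', h1, h3]
  · intro Y e
    rw [hp1 e]
    unfold mark₂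
    rw [Sym2.lift_mk]
    show markAux s₀ A X Y (p e).1 (p e).2 = _
    unfold markAux
    rw [if_pos (hp2 e)]

end Place

section Law

lemma infinitePi_sum {ι κ T : Type*} [MeasurableSpace T] (μ : Measure T) [IsProbabilityMeasure μ] :
    (Measure.infinitePi fun _ : ι ⊕ κ => μ).map
      (fun ω => ((fun i => ω (Sum.inl i) : ι → T), (fun k => ω (Sum.inr k) : κ → T))) =
      (Measure.infinitePi fun _ : ι => μ).prod (Measure.infinitePi fun _ : κ => μ) := by
  have hm : Measurable (fun q : (ι → T) × (κ → T) => (Sum.elim q.1 q.2 : ι ⊕ κ → T)) := by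
    refine measurable_pi_lambda _ fun i => ?_
    rcases i with i | k
    · exact (measurable_pi_apply i).comp measurable_fst
    · exact (measurable_pi_apply k).comp measurable_snd
  have h : ((Measure.infinitePi fun _ : ι => μ).prod (Measure.infinitePi fun _ : κ => μ)).map
      (fun q => (Sum.elim q.1 q.2 : ι ⊕ κ → T)) = Measure.infinitePi fun _ : ι ⊕ κ => μ := by
    refine Measure.eq_infinitePi _ fun s t ht => ?_
    rw [Measure.map_apply hm (MeasurableSet.pi s.countable_toSet fun _ _ => ht _)]
    have h1 : (fun q : (ι → T) × (κ → T) => (Sum.elim q.1 q.2 : ι ⊕ κ → T)) ⁻¹'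
        (Set.pi (s : Set (ι ⊕ κ)) t) = (Set.pi (s.toLeft : Set ι) fun i => t (Sum.inl i)) ×ˢ
          (Set.pi (s.toRight : Set κ) fun k => t (Sum.inr k)) := by
      ext q
      simp only [Set.mem_preimage, Set.mem_pi, Set.mem_prod, Finset.mem_coe, Sum.forall,
        Sum.elim_inl, Sum.elim_inr, Finset.mem_toLeft, Finset.mem_toRight]
    rw [h1, Measure.prod_prod, Measure.infinitePi_pi _ fun i _ => ht _,
      Measure.infinitePi_pi _ fun k _ => ht _]
    conv_rhs => rw [← Finset.toLeft_disjSum_toRight (u := s)]
    rw [Finset.prod_disjSum]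
  rw [← h, Measure.map_map (by fun_prop) hm]
  exact Measure.map_id

end Law

section Measurability

variable {V : Type u} [Countable V] {S : Type v} [MeasurableSpace S] {Ω : Type w}
  [MeasurableSpace Ω]

lemma measurable_ncard (R : Ω → V → Prop) (hR : ∀ v, MeasurableSet {ω | R ω v}) :
    Measurable fun ω => Set.ncard {v | R ω v} := by
  have key : ∀ k : ℕ, MeasurableSet {ω | Set.ncard {v | R ω v} = k + 1} := by
    intro k
    have h1 : {ω | Set.ncard {v | R ω v} = k + 1} =
        ⋃ F : {F : Finset V // F.card = k + 1}, ⋂ v : V, {ω | R ω v ↔ v ∈ F.1} := by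
      ext ω
      simp only [Set.mem_ofPred_eq, Set.mem_iUnion, Set.mem_iInter, Subtype.exists, exists_prop]
      constructor
      · intro h
        have hfin : {v | R ω v}.Finite := Set.finite_of_ncard_ne_zero (by omega)
        refine ⟨hfin.toFinset, ?_, fun v => by simp⟩
        rw [← Set.ncard_eq_toFinset_card _ hfin, h]
      · rintro ⟨F, hF, h⟩
        have : {v | R ω v} = (F : Set V) := by
          ext v; simp [h v]
        rw [this, Set.ncard_coe_finset, hF]
    rw [h1]
    refine MeasurableSet.iUnion fun F => MeasurableSet.iInter fun v => ?_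
    by_cases hv : v ∈ F.1
    · simpa only [hv, iff_true] using hR v
    · have : {ω | R ω v ↔ v ∈ F.1} = {ω | R ω v}ᶜ := by
        ext ω; simp [hv]
      rw [this]
      exact (hR v).compl
  refine measurable_to_countable' fun k => ?_
  rcases k with _ | k
  · have h2 : (fun ω => Set.ncard {v | R ω v}) ⁻¹' {0} =
        (⋃ k : ℕ, {ω | Set.ncard {v | R ω v} = k + 1})ᶜ := by
      ext ω
      simp only [Set.mem_preimage, Set.mem_singleton_iff, Set.mem_compl_iff, Set.mem_iUnion,
        Set.mem_ofPred_eq, not_exists]
      constructor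
      · intro h k; omega
      · intro h
        by_contra hne
        exact h (Set.ncard {v | R ω v} - 1) (by omega)
    rw [h2]
    exact (MeasurableSet.iUnion key).compl
  · exact key k

lemma measurable_mark₂ (s₀ : S) (A : Ω → V → V → Prop) (hA : ∀ u v, MeasurableSet {ω | A ω u v})
    (X : Ω → V → I) (hX : ∀ v, Measurable fun ω => X ω v)
    (Y : Ω → V → ℕ → S) (hY : ∀ v n, Measurable fun ω => Y ω v n) (e : Sym2 V) :
    Measurable fun ω => mark₂ s₀ (A ω) (X ω) (Y ω) e := by
  induction e with
  | _ u v =>
    have hrank : ∀ u v, Measurable fun ω => rank (A ω) (X ω) u v := by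
      intro u v
      refine measurable_ncard _ fun w => ?_
      have h1 : MeasurableSet {ω | X ω w < X ω v} := measurableSet_lt (hX w) (hX v)
      exact (hA u w).inter h1
    have hY' : ∀ u v, Measurable fun ω => Y ω u (rank (A ω) (X ω) u v) := by
      intro u v
      have h1 : Measurable fun q : Ω × ℕ => Y q.1 u q.2 :=
        measurable_from_prod_countable_left fun n => hY u n
      exact h1.comp (measurable_id.prodMk (hrank u v))
    unfold mark₂
    simp only [Sym2.lift_mk]
    unfold markAux
    refine Measurable.ite (measurableSet_lt (hX u) (hX v)) (hY' u v) ?_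
    exact Measurable.ite (measurableSet_lt (hX v) (hX u)) (hY' v u) measurable_const

end Measurability

section MainLaw

variable {V : Type u} [Countable V] {S : Type v} [MeasurableSpace S]

/-- the two families of labels are independent and iid -/
lemma law_split {f : I → ℕ → I} (hf : Measurable f)
    (hflaw : (volume : Measure I).map f = Measure.infinitePi fun _ : ℕ => volume)
    {g : I → S} (hg : Measurable g) :
    (Measure.infinitePi fun _ : V => (volume : Measure I)).map
      (fun U => ((fun v => f (U v) 0 : V → I), (fun p => g (f (U p.1) (p.2 + 1)) : V × ℕ → S))) =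
      (Measure.infinitePi fun _ : V => (volume : Measure I)).prod
        (Measure.infinitePi fun _ : V × ℕ => (volume : Measure I).map g) := by
  have : IsProbabilityMeasure ((volume : Measure I).map g) :=
    Measure.isProbabilityMeasure_map hg.aemeasurable
  -- the sequences
  have h1 : (Measure.infinitePi fun _ : V => (volume : Measure I)).map
      (fun U v => f (U v)) = Measure.infinitePi fun _ : V =>
        (Measure.infinitePi fun _ : ℕ => (volume : Measure I)) := by
    rw [Measure.infinitePi_map_pi (fun _ : V => (volume : Measure I)) (fun _ => hf), hflaw]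
  have h2 := Measure.infinitePi_map_curry_symm (fun (_ : V) (_ : ℕ) => (volume : Measure I))
  rw [← h1, Measure.map_map (by fun_prop) (by fun_prop)] at h2
  -- reindexing
  let ι : V ⊕ (V × ℕ) → V × ℕ := Sum.elim (fun v => (v, 0)) (fun p => (p.1, p.2 + 1))
  have hι : Injective ι := by
    rintro (v | ⟨v, n⟩) (w | ⟨w, m⟩) h <;> simp [ι, Prod.ext_iff] at h ⊢ <;> exact h
  have h3 := Measure.map_infinitePi_infinitePi_of_inj
    (P := fun _ : V × ℕ => (volume : Measure I)) hι
  have h4 := infinitePi_sum (ι := V) (κ := V × ℕ) (volume : Measure I)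
  rw [← h3, ← h2, Measure.map_map (by fun_prop) (by fun_prop),
    Measure.map_map (by fun_prop) (by fun_prop)] at h4
  have h5 : (Measure.infinitePi fun _ : V × ℕ => (volume : Measure I)).map
      (fun (W : V × ℕ → I) p => g (W p)) =
      Measure.infinitePi fun _ : V × ℕ => (volume : Measure I).map g :=
    Measure.infinitePi_map_pi (fun _ : V × ℕ => (volume : Measure I)) (fun _ => hg)
  have h6 : (Measure.infinitePi fun _ : V => (volume : Measure I)).prod
      (Measure.infinitePi fun _ : V × ℕ => (volume : Measure I).map g) =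
      ((Measure.infinitePi fun _ : V => (volume : Measure I)).prod
        (Measure.infinitePi fun _ : V × ℕ => (volume : Measure I))).map
        (Prod.map id (fun (W : V × ℕ → I) p => g (W p))) := by
    rw [← Measure.map_prod_map _ _ measurable_id (by fun_prop), h5, Measure.map_id]
  rw [h6, ← h2, ← h4, Measure.map_map (by fun_prop) (by fun_prop)]
  rfl

/-- a.s. the labels are distinct -/
lemma ae_injective : ∀ᵐ X ∂(Measure.infinitePi fun _ : V => (volume : Measure I)),
    Injective X := by
  have h1 : ∀ p : V × V, ∀ᵐ X ∂(Measure.infinitePi fun _ : V => (volume : Measure I)),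
      p.1 ≠ p.2 → X p.1 ≠ X p.2 := by
    rintro ⟨v, w⟩
    by_cases hvw : v = w
    · exact Filter.Eventually.of_forall fun X h => absurd hvw h
    have h2 := Measure.infinitePi_map_eval_prod (P := fun _ : V => (volume : Measure I)) hvw
    have h3 : MeasurableSet {q : I × I | q.1 = q.2} := measurableSet_eq_fun measurable_fst
      measurable_snd
    have h4 : ((volume : Measure I).prod volume) {q : I × I | q.1 = q.2} = 0 := by
      rw [Measure.measure_prod_null h3]
      refine Filter.Eventually.of_forall fun x => ?_
      have : Prod.mk x ⁻¹' {q : I × I | q.1 = q.2} = {x} := by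
        ext y; simp [eq_comm]
      show (volume : Measure I) (Prod.mk x ⁻¹' {q : I × I | q.1 = q.2}) = 0
      rw [this]
      simp
    rw [← h2, Measure.map_apply (by fun_prop) h3] at h4
    have h5 := compl_mem_ae_iff.2 h4
    filter_upwards [h5] with X hX _ h6
    exact hX h6
  filter_upwards [ae_all_iff.2 h1] with X hX
  intro v w hvw
  by_contra hne
  exact hX (v, w) hne hvw

/-- **Law of the marks**: they are iid. -/
theorem law_mark {f : I → ℕ → I} (hf : Measurable f)
    (hflaw : (volume : Measure I).map f = Measure.infinitePi fun _ : ℕ => volume)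
    {g : I → S} (hg : Measurable g) {A : V → V → Prop} (hsymm : ∀ x y, A x y → A y x)
    (hirr : ∀ x, ¬ A x x) (hfin : ∀ u, {w | A u w}.Finite)
    (E : Set (Sym2 V)) (hE : ∀ x y, s(x, y) ∈ E → A x y) :
    (Measure.infinitePi fun _ : V => (volume : Measure I)).map
      (fun U (e : E) => mark f g A U e) =
      Measure.infinitePi fun _ : E => (volume : Measure I).map g := by
  have : IsProbabilityMeasure ((volume : Measure I).map g) :=
    Measure.isProbabilityMeasure_map hg.aemeasurable
  set Ψ : (V → I) × (V × ℕ → S) → E → S := fun q e =>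
    mark₂ (g 0) A q.1 (fun v n => q.2 (v, n)) e with hΨ
  have hΨm : Measurable Ψ := by
    refine measurable_pi_lambda _ fun e => ?_
    refine measurable_mark₂ (g 0) (fun _ => A) (fun u v => MeasurableSet.const _) _
      (fun v => (measurable_pi_apply v).comp measurable_fst) _
      (fun v n => (measurable_pi_apply (v, n)).comp measurable_snd) e
  have h1 : (fun U (e : E) => mark f g A U e) = Ψ ∘ (fun U =>
      ((fun v => f (U v) 0 : V → I), (fun p => g (f (U p.1) (p.2 + 1)) : V × ℕ → S))) := rfl
  have hm : Measurable (fun U : V → I => ((fun v => f (U v) 0 : V → I),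
      (fun p => g (f (U p.1) (p.2 + 1)) : V × ℕ → S))) := by fun_prop
  rw [h1, ← Measure.map_map hΨm hm, law_split hf hflaw hg]
  ext B hB
  rw [Measure.map_apply hΨm hB, Measure.prod_apply (hΨm hB)]
  have h2 : ∀ᵐ X ∂(Measure.infinitePi fun _ : V => (volume : Measure I)),
      (Measure.infinitePi fun _ : V × ℕ => (volume : Measure I).map g)
        (Prod.mk X ⁻¹' (Ψ ⁻¹' B)) =
        (Measure.infinitePi fun _ : E => (volume : Measure I).map g) B := by
    filter_upwards [ae_injective] with X hX
    obtain ⟨ι, hι, hι2⟩ := exists_place (g 0) hsymm hirr hfin hX E hE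
    have h3 : Prod.mk X ⁻¹' (Ψ ⁻¹' B) = (fun (ω : V × ℕ → S) (e : E) => ω (ι e)) ⁻¹' B := by
      ext ω
      simp only [Set.mem_preimage]
      have : Ψ (X, ω) = fun (e : E) => ω (ι e) := by
        funext e
        exact hι2 (fun v n => ω (v, n)) e
      rw [this]
    rw [h3, ← Measure.map_apply (by fun_prop) hB,
      Measure.map_infinitePi_infinitePi_of_inj
        (P := fun _ : V × ℕ => (volume : Measure I).map g) hι]
  rw [lintegral_congr_ae h2, lintegral_const, measure_univ, mul_one]

end MainLaw

end Vale.Agent.P143.MarksE
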