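import Vale.Agent.P143.Cap

set_option autoImplicit false
set_option linter.unusedSectionVars false

namespace Vale.Agent.P143

open Filter Topology Set MeasureTheory
open scoped InnerProductSpace

universe u w

variable {V : Type u}

/-- common form of `LL` and `LP` -/
noncomputable def SS (K : Submodule ℝ (Hd V)) (A B : Set (Sym2 V)) : Submodule ℝ (Hd V) :=
  (K ⊓ suppS Aᶜ).map ((restr (dset Bᶜ) : Hd V →L[ℝ] Hd V) : Hd V →ₗ[ℝ] Hd V)

lemma LL_eq_SS (G : SimpleGraph V) (A B : Set (Sym2 V)) : LL G A B = SS (WW G) A B := rfl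

lemma LP_eq_SS (G : SimpleGraph V) (A B : Set (Sym2 V)) : LP G A B = SS (WP G) B A := rfl

lemma mem_SS {K : Submodule ℝ (Hd V)} {A B : Set (Sym2 V)} {x : Hd V} :
    x ∈ SS K A B ↔ ∃ y, (y ∈ K ∧ y ∈ suppS Aᶜ) ∧ restr (dset Bᶜ) y = x := Iff.rfl

lemma SS_le_EE {G : SimpleGraph V} {K : Submodule ℝ (Hd V)} (hK : K ≤ EE G)
    (A B : Set (Sym2 V)) : SS K A B ≤ EE G := by
  rintro x ⟨y, hy, rfl⟩
  exact restr_mem_EE (hK hy.1) _

lemma WW_le_EE (G : SimpleGraph V) : WW G ≤ EE G := inf_le_left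

lemma restr_coord {B : Set (Sym2 V)} {u v : V} (h : s(u, v) ∉ B) (y : Hd V) :
    ⟪restr (dset Bᶜ) y, dl (u, v)⟫_ℝ = y (u, v) := by
  rw [inner_dl_right, restr_apply_mem (S := dset Bᶜ) h]

lemma cap_SS_mono {G : SimpleGraph V} {K : Submodule ℝ (Hd V)} (hK : K ≤ EE G)
    {A A' B B' : Set (Sym2 V)} {e : Sym2 V} (hA : A ⊆ A') (hB : B' ⊆ B) (he : e ∉ B) :
    cap (SS K A' B') e ≤ cap (SS K A B) e := by
  induction e with
  | h u v =>
    rw [cap_eq (SS_le_EE hK A' B'), cap_eq (SS_le_EE hK A B)]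
    have h : ‖proj (SS K A' B') (dl (u, v))‖ ^ 2 ≤ ‖proj (SS K A B) (dl (u, v))‖ ^ 2 := by
      refine norm_proj_sq_le (by positivity) fun x hx => ?_
      obtain ⟨y, ⟨hy1, hy2⟩, rfl⟩ := mem_SS.1 hx
      have h1 : restr (dset Bᶜ) y ∈ SS K A B :=
        mem_SS.2 ⟨y, ⟨hy1, suppS_mono (compl_subset_compl.2 hA) hy2⟩, rfl⟩
      have h2 := inner_sq_le_norm_proj (d := dl (u, v)) (Submodule.le_topologicalClosure _ h1)
      rw [restr_coord he] at h2
      rw [restr_coord (fun h' => he (hB h'))]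
      have h3 : restr (dset Bᶜ) (restr (dset B'ᶜ) y) = restr (dset Bᶜ) y := by
        have hset : dset Bᶜ ∩ dset B'ᶜ = dset Bᶜ := by
          refine Set.inter_eq_left.2 fun p h h' => h (hB h')
        rw [restr_restr, hset]
      have h4 : ‖restr (dset Bᶜ) y‖ ≤ ‖restr (dset B'ᶜ) y‖ := by
        rw [← h3]; exact norm_restr_le _ _
      calc y (u, v) ^ 2 ≤ ‖restr (dset Bᶜ) y‖ ^ 2 * ‖proj (SS K A B) (dl (u, v))‖ ^ 2 := h2
        _ ≤ ‖restr (dset B'ᶜ) y‖ ^ 2 * ‖proj (SS K A B) (dl (u, v))‖ ^ 2 := by gcongr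
        _ = _ := mul_comm _ _
    linarith

lemma tendsto_restr {F : ℕ → Set (Sym2 V)} (hF : Monotone F) (hU : (⋃ n, F n) = univ)
    (x : Hd V) : Tendsto (fun n => restr (dset (F n)) x) atTop (𝓝 x) := by
  classical
  rw [tendsto_iff_norm_sub_tendsto_zero]
  have h1 : Tendsto (fun n => ‖restr (dset (F n)) x - x‖ ^ 2) atTop (𝓝 0) := by
    have h2 : ∀ n, ‖restr (dset (F n)) x - x‖ ^ 2
        = ∑' p, (if p ∈ dset (F n) then 0 else (x p) ^ 2) := by
      intro n
      rw [norm_sq_eq_tsum]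
      refine tsum_congr fun p => ?_
      change (restr (dset (F n)) x p - x p) ^ 2 = _
      by_cases hp : p ∈ dset (F n)
      · rw [restr_apply_mem hp, if_pos hp]; ring
      · rw [restr_apply_notMem hp, if_neg hp]; ring
    simp only [h2]
    have h3 : (0 : ℝ) = ∑' _ : V × V, (0 : ℝ) := by simp
    rw [h3]
    refine tendsto_tsum_of_dominated_convergence (bound := fun p => (x p) ^ 2)
      (summable_sq x) (fun p => ?_) (Eventually.of_forall fun n p => ?_)
    · have h4 : s(p.1, p.2) ∈ ⋃ n, F n := by rw [hU]; trivial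
      obtain ⟨N, hN⟩ := mem_iUnion.1 h4
      refine tendsto_const_nhds.congr' ?_
      filter_upwards [eventually_ge_atTop N] with n hn
      have h5 : p ∈ dset (F n) := hF hn hN
      rw [if_pos h5, tsum_zero]
    · split_ifs
      · simp [sq_nonneg]
      · simp
  have h5 := (Real.continuous_sqrt.tendsto 0).comp h1
  rw [Real.sqrt_zero] at h5
  refine h5.congr fun n => ?_
  simp [Real.sqrt_sq]

lemma cap_SS_lim {G : SimpleGraph V} {K : Submodule ℝ (Hd V)} (hK : K ≤ EE G)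
    {A B : Set (Sym2 V)} {e : Sym2 V} (he : e ∉ B) {F : ℕ → Set (Sym2 V)} (hF : Monotone F)
    (hU : (⋃ n, F n) = univ) {ε : ℝ} (hε : 0 < ε) :
    ∀ᶠ n in atTop, cap (SS K A B) e - ε ≤ cap (SS K (A ∩ F n) (B ∩ F n)) e := by
  induction e with
  | h u v =>
    set c : ℝ := ‖proj (SS K A B) (dl (u, v))‖ ^ 2 - ε / 4 with hc
    by_cases hc0 : 0 ≤ c
    · have h1 : ∃ x ∈ SS K A B, c * ‖x‖ ^ 2 < ⟪x, dl (u, v)⟫_ℝ ^ 2 := by
        by_contra hcon
        push Not at hcon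
        have h2 := norm_proj_sq_le hc0 hcon
        linarith
      obtain ⟨x, hx, hlt⟩ := h1
      obtain ⟨y, ⟨hy1, hy2⟩, rfl⟩ := mem_SS.1 hx
      rw [restr_coord he] at hlt
      have h3 : Tendsto (fun n => restr (dset (B ∩ F n)ᶜ) y) atTop
          (𝓝 (restr (dset Bᶜ) y)) := by
        have h4 : ∀ n, restr (dset (B ∩ F n)ᶜ) y = y - restr (dset B) (restr (dset (F n)) y) := by
          intro n
          have h5 := restr_add_compl (B ∩ F n) y
          have h6 : restr (dset B) (restr (dset (F n)) y) = restr (dset (B ∩ F n)) y := by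
            rw [restr_restr]; rfl
          rw [h6]
          exact (eq_sub_of_add_eq' h5)
        have h7 : restr (dset Bᶜ) y = y - restr (dset B) y :=
          eq_sub_of_add_eq' (restr_add_compl B y)
        simp only [h4]
        rw [h7]
        exact tendsto_const_nhds.sub (((restr (dset B)).continuous.tendsto _).comp
          (tendsto_restr hF hU y))
      have h8 : Tendsto (fun n => c * ‖restr (dset (B ∩ F n)ᶜ) y‖ ^ 2) atTop
          (𝓝 (c * ‖restr (dset Bᶜ) y‖ ^ 2)) := (h3.norm.pow 2).const_mul c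
      filter_upwards [h8.eventually_lt_const hlt] with n hn
      rw [cap_eq (SS_le_EE hK A B), cap_eq (SS_le_EE hK (A ∩ F n) (B ∩ F n))]
      have h9 : restr (dset (B ∩ F n)ᶜ) y ∈ SS K (A ∩ F n) (B ∩ F n) :=
        mem_SS.2 ⟨y, ⟨hy1, suppS_mono (compl_subset_compl.2 inter_subset_left) hy2⟩, rfl⟩
      have h10 := inner_sq_le_norm_proj (d := dl (u, v))
        (Submodule.le_topologicalClosure _ h9)
      rw [restr_coord (fun h' => he h'.1)] at h10
      have h11 : c ≤ ‖proj (SS K (A ∩ F n) (B ∩ F n)) (dl (u, v))‖ ^ 2 := by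
        by_contra hcon
        push Not at hcon
        have h12 : ‖restr (dset (B ∩ F n)ᶜ) y‖ ^ 2
            * ‖proj (SS K (A ∩ F n) (B ∩ F n)) (dl (u, v))‖ ^ 2
            ≤ ‖restr (dset (B ∩ F n)ᶜ) y‖ ^ 2 * c := by gcongr
        linarith
      linarith
    · refine Eventually.of_forall fun n => ?_
      have h1 := cap_nonneg (SS K (A ∩ F n) (B ∩ F n)) s(u, v)
      rw [cap_eq (SS_le_EE hK A B)]
      push Not at hc0
      linarith

theorem lo_mono (G : SimpleGraph V) {A A' B B' : Set (Sym2 V)} {e : Sym2 V} (hA : A ⊆ A')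
    (hB : B' ⊆ B) (_ : e ∉ A') (heB : e ∉ B) : lo G A' B' e ≤ lo G A B e :=
  cap_SS_mono (WW_le_EE G) hA hB heB

theorem hi_mono (G : SimpleGraph V) {A A' B B' : Set (Sym2 V)} {e : Sym2 V} (hA : A ⊆ A')
    (hB : B' ⊆ B) (heA : e ∉ A') (_ : e ∉ B) : hi G A' B' e ≤ hi G A B e := by
  unfold hi
  split_ifs
  · have h1 : cap (LP G A B) e ≤ cap (LP G A' B') e := cap_SS_mono (WP_le_EE G) hB hA heA
    linarith
  · exact le_rfl

theorem lo_le_hi (G : SimpleGraph V) (A B : Set (Sym2 V)) (e : Sym2 V) :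
    lo G A B e ≤ hi G A B e := by
  by_cases he : e ∈ G.edgeSet
  · unfold lo hi
    rw [if_pos he]
    induction e with
    | h u v =>
      have h1 := norm_proj_inf_orth (isClosed_EE G) (LL_le_EE G A B) (LP_le_EE G A B)
        (fun x hx y hy => LL_perp_LP subset_rfl subset_rfl hx hy) (dl (u, v))
      rw [norm_proj_EE he] at h1
      rw [cap_eq (LL_le_EE G A B), cap_eq (LP_le_EE G A B)]
      have h2 : 0 ≤ ‖proj (EE G ⊓ (LL G A B)ᗮ ⊓ (LP G A B)ᗮ) (dl (u, v))‖ ^ 2 := by positivity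
      linarith
  · rw [lo_of_notMem he, hi_of_notMem he]

lemma lo_nonneg (G : SimpleGraph V) (A B : Set (Sym2 V)) (e : Sym2 V) : 0 ≤ lo G A B e :=
  cap_nonneg _ _

lemma hi_le_one (G : SimpleGraph V) (A B : Set (Sym2 V)) (e : Sym2 V) : hi G A B e ≤ 1 := by
  unfold hi
  split_ifs
  · have := cap_nonneg (LP G A B) e
    linarith
  · exact zero_le_one

lemma hi_nonneg (G : SimpleGraph V) (A B : Set (Sym2 V)) (e : Sym2 V) : 0 ≤ hi G A B e :=
  (lo_nonneg G A B e).trans (lo_le_hi G A B e)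

lemma lo_le_one (G : SimpleGraph V) (A B : Set (Sym2 V)) (e : Sym2 V) : lo G A B e ≤ 1 :=
  (lo_le_hi G A B e).trans (hi_le_one G A B e)

theorem lo_lim (G : SimpleGraph V) (A B : Set (Sym2 V)) (e : Sym2 V) (_ : e ∉ A)
    (heB : e ∉ B) (F : ℕ → Set (Sym2 V)) (hF : Monotone F) (hU : (⋃ n, F n) = univ)
    (ε : ℝ) (hε : 0 < ε) : ∀ᶠ n in atTop, lo G A B e - ε ≤ lo G (A ∩ F n) (B ∩ F n) e :=
  cap_SS_lim (WW_le_EE G) heB hF hU hε

theorem hi_lim (G : SimpleGraph V) (A B : Set (Sym2 V)) (e : Sym2 V) (heA : e ∉ A)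
    (_ : e ∉ B) (F : ℕ → Set (Sym2 V)) (hF : Monotone F) (hU : (⋃ n, F n) = univ)
    (ε : ℝ) (hε : 0 < ε) : ∀ᶠ n in atTop, hi G (A ∩ F n) (B ∩ F n) e ≤ hi G A B e + ε := by
  have h1 := cap_SS_lim (A := B) (B := A) (WP_le_EE G) heA hF hU hε
  filter_upwards [h1] with n hn
  unfold hi
  split_ifs
  · rw [← LP_eq_SS, ← LP_eq_SS] at hn
    linarith
  · linarith

end Vale.Agent.P143
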