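import Vale.Agent.P143.Stat

set_option autoImplicit false
set_option linter.unusedSectionVars false

namespace Vale.Agent.P143

open Set

universe u

variable {E : Type u} {lo hi : Set E → Set E → E → ℝ} {b b' : E → ℕ} {θ θ' : E → ℝ}

lemma stat_subset (k : ℕ) : (stat lo hi b θ k).1 ⊆ {f | b f < k} ∧
    (stat lo hi b θ k).2 ⊆ {f | b f < k} := by
  induction k with
  | zero => exact ⟨empty_subset _, empty_subset _⟩
  | succ k ih =>
    constructor
    · rintro e (h | h)
      · exact (ih.1 h).trans (Nat.lt_succ_self k)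
      · exact h.1 ▸ Nat.lt_succ_self k
    · rintro e (h | h)
      · exact (ih.2 h).trans (Nat.lt_succ_self k)
      · exact h.1 ▸ Nat.lt_succ_self k

/-- characterization of the present edges -/
lemma mem_stat_one (k : ℕ) (e : E) : e ∈ (stat lo hi b θ k).1 ↔
    (b e < k ∧ θ e < lo (({f | b f ≤ b e} \ (stat lo hi b θ (b e)).2) \ {e})
      (stat lo hi b θ (b e)).2 e) := by
  induction k with
  | zero => simp [stat_zero]
  | succ k ih =>
    constructor
    · rintro (h | h)
      · have h1 := ih.1 h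
        exact ⟨h1.1.trans (Nat.lt_succ_self k), h1.2⟩
      · obtain ⟨h1, h2⟩ := h
        rw [h1]
        exact ⟨Nat.lt_succ_self k, h2⟩
    · rintro ⟨h1, h2⟩
      rcases Nat.lt_succ_iff_lt_or_eq.1 h1 with h3 | h3
      · exact Or.inl (ih.2 ⟨h3, h2⟩)
      · refine Or.inr ⟨h3, ?_⟩
        rw [h3] at h2
        exact h2

/-- characterization of the absent edges -/
lemma mem_stat_two (k : ℕ) (e : E) : e ∈ (stat lo hi b θ k).2 ↔
    (b e < k ∧ hi (stat lo hi b θ (b e)).1
      (({f | b f ≤ b e} \ (stat lo hi b θ (b e)).1) \ {e}) e ≤ θ e) := by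
  induction k with
  | zero => simp [stat_zero]
  | succ k ih =>
    constructor
    · rintro (h | h)
      · have h1 := ih.1 h
        exact ⟨h1.1.trans (Nat.lt_succ_self k), h1.2⟩
      · obtain ⟨h1, h2⟩ := h
        rw [h1]
        exact ⟨Nat.lt_succ_self k, h2⟩
    · rintro ⟨h1, h2⟩
      rcases Nat.lt_succ_iff_lt_or_eq.1 h1 with h3 | h3
      · exact Or.inl (ih.2 ⟨h3, h2⟩)
      · refine Or.inr ⟨h3, ?_⟩
        rw [h3] at h2
        exact h2

lemma stat_mono {k l : ℕ} (h : k ≤ l) : (stat lo hi b θ k).1 ⊆ (stat lo hi b θ l).1 ∧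
    (stat lo hi b θ k).2 ⊆ (stat lo hi b θ l).2 := by
  constructor
  · intro e he
    rw [mem_stat_one] at he ⊢
    exact ⟨he.1.trans_le h, he.2⟩
  · intro e he
    rw [mem_stat_two] at he ⊢
    exact ⟨he.1.trans_le h, he.2⟩

/-- the status sets only depend on the data of the earlier elements -/
lemma stat_congr (k : ℕ) (hb : ∀ f, (b f < k ∨ b' f < k) → (b f = b' f ∧ θ f = θ' f)) :
    stat lo hi b θ k = stat lo hi b' θ' k := by
  induction k with
  | zero => rfl
  | succ k ih =>
    have ih' := ih fun f hf => hb f (hf.imp (fun h => h.trans (Nat.lt_succ_self k))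
      fun h => h.trans (Nat.lt_succ_self k))
    have hS : {f | b f ≤ k} = {f | b' f ≤ k} := by
      ext f
      constructor
      · intro h
        have := (hb f (Or.inl (Nat.lt_succ_iff.2 h))).1
        change b' f ≤ k
        rw [← this]; exact h
      · intro h
        have := (hb f (Or.inr (Nat.lt_succ_iff.2 h))).1
        change b f ≤ k
        rw [this]; exact h
    simp only [stat_succ]
    rw [ih', hS]
    refine Prod.ext ?_ ?_
    · ext e
      refine or_congr Iff.rfl ?_
      constructor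
      · rintro ⟨h1, h2⟩
        have h3 := hb e (Or.inl (by omega))
        exact ⟨h3.1 ▸ h1, h3.2 ▸ h2⟩
      · rintro ⟨h1, h2⟩
        have h3 := hb e (Or.inr (by omega))
        exact ⟨h3.1.trans h1, h3.2.symm ▸ h2⟩
    · ext e
      refine or_congr Iff.rfl ?_
      constructor
      · rintro ⟨h1, h2⟩
        have h3 := hb e (Or.inl (by omega))
        exact ⟨h3.1 ▸ h1, h3.2 ▸ h2⟩
      · rintro ⟨h1, h2⟩
        have h3 := hb e (Or.inr (by omega))
        exact ⟨h3.1.trans h1, h3.2.symm ▸ h2⟩

/-- elements with `lo = hi = 0` do not depend on the thresholds -/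
lemma stat_congr_zero (D : Set E) (hlo : ∀ A B e, e ∉ D → lo A B e = 0)
    (hhi : ∀ A B e, e ∉ D → hi A B e = 0) (h0 : ∀ e, 0 ≤ θ e) (h0' : ∀ e, 0 ≤ θ' e)
    (hθ : ∀ e ∈ D, θ e = θ' e) (k : ℕ) : stat lo hi b θ k = stat lo hi b θ' k := by
  induction k with
  | zero => rfl
  | succ k ih =>
    simp only [stat_succ]
    rw [ih]
    refine Prod.ext ?_ ?_
    · ext e
      refine or_congr Iff.rfl (and_congr_right fun _ => ?_)
      by_cases he : e ∈ D
      · rw [hθ e he]
      · rw [hlo _ _ _ he]
        exact iff_of_false (not_lt.2 (h0 e)) (not_lt.2 (h0' e))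
    · ext e
      refine or_congr Iff.rfl (and_congr_right fun _ => ?_)
      by_cases he : e ∈ D
      · rw [hθ e he]
      · rw [hhi _ _ _ he]
        exact iff_of_true (h0 e) (h0' e)

section mono

variable (lo_mono : ∀ A A' B B' : Set E, ∀ e, A ⊆ A' → B' ⊆ B → e ∉ A' → e ∉ B →
      lo A' B' e ≤ lo A B e)
    (hi_mono : ∀ A A' B B' : Set E, ∀ e, A ⊆ A' → B' ⊆ B → e ∉ A' → e ∉ B →
      hi A' B' e ≤ hi A B e)
    (lo_le_hi : ∀ A B : Set E, ∀ e, lo A B e ≤ hi A B e)

include lo_mono hi_mono lo_le_hi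

/-- the bounds used in the recursion are ordered -/
lemma bounds_le {A B S : Set E} {e : E} (hAB : Disjoint A B) (hA : A ⊆ S) (hB : B ⊆ S)
    (heA : e ∉ A) (heB : e ∉ B) :
    lo ((S \ B) \ {e}) B e ≤ hi A ((S \ A) \ {e}) e := by
  have h1 : lo ((S \ B) \ {e}) B e ≤ lo A B e := by
    refine lo_mono _ _ _ _ e (fun f hf => ⟨⟨hA hf, fun h => (disjoint_left.1 hAB) hf h⟩, ?_⟩)
      subset_rfl (fun h => h.2 rfl) heB
    rintro h
    rw [mem_singleton_iff.1 h] at hf
    exact heA hf
  have h2 : hi A B e ≤ hi A ((S \ A) \ {e}) e := by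
    refine hi_mono _ _ _ _ e subset_rfl
      (fun f hf => ⟨⟨hB hf, fun h => (disjoint_left.1 hAB) h hf⟩, ?_⟩) heA (fun h => h.2 rfl)
    rintro h
    rw [mem_singleton_iff.1 h] at hf
    exact heB hf
  exact h1.trans ((lo_le_hi A B e).trans h2)

lemma stat_disjoint (k : ℕ) : Disjoint (stat lo hi b θ k).1 (stat lo hi b θ k).2 := by
  induction k with
  | zero => simp [stat_zero]
  | succ k ih =>
    have hs := stat_subset (lo := lo) (hi := hi) (b := b) (θ := θ) k
    rw [stat_succ, disjoint_left]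
    rintro e (h1 | h1) (h2 | h2)
    · exact (disjoint_left.1 ih) h1 h2
    · have h3 : b e < k := hs.1 h1
      have h4 : b e = k := h2.1
      omega
    · have h3 : b e < k := hs.2 h2
      have h4 : b e = k := h1.1
      omega
    · have h4 : b e = k := h1.1
      have h5 := h1.2
      have h6 := h2.2
      have h7 := bounds_le lo_mono hi_mono lo_le_hi (S := {f | b f ≤ k}) (e := e) ih
        (fun f hf => le_of_lt (show b f < k from hs.1 hf))
        (fun f hf => le_of_lt (show b f < k from hs.2 hf))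
        (fun h => by have := hs.1 h; simp [h4] at this)
        (fun h => by have := hs.2 h; simp [h4] at this)
      linarith

/-- refinement of the batches keeps the determined statuses -/
lemma stat_refine (hbb : ∀ f, b' f / 2 = b f) (k : ℕ) :
    (stat lo hi b θ k).1 ⊆ (stat lo hi b' θ (2 * k)).1 ∧
      (stat lo hi b θ k).2 ⊆ (stat lo hi b' θ (2 * k)).2 := by
  induction k using Nat.strong_induction_on with
  | _ k ih =>
    have key : ∀ e, b e < k →
        (stat lo hi b θ (b e)).1 ⊆ (stat lo hi b' θ (b' e)).1 ∧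
        (stat lo hi b θ (b e)).2 ⊆ (stat lo hi b' θ (b' e)).2 := by
      intro e he
      have h1 := ih (b e) he
      have h2 : 2 * b e ≤ b' e := by have := hbb e; omega
      have h3 := stat_mono (lo := lo) (hi := hi) (b := b') (θ := θ) h2
      exact ⟨h1.1.trans h3.1, h1.2.trans h3.2⟩
    have hS : ∀ e, {f | b' f ≤ b' e} ⊆ {f | b f ≤ b e} := by
      intro e f hf
      have h1 := hbb e
      have h2 := hbb f
      have h3 : b' f ≤ b' e := hf
      change b f ≤ b e
      omega
    constructor
    · intro e he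
      rw [mem_stat_one] at he ⊢
      obtain ⟨h1, h2⟩ := he
      refine ⟨by have := hbb e; omega, h2.trans_le ?_⟩
      refine lo_mono _ _ _ _ e ?_ (key e h1).2 (fun h => h.2 rfl) ?_
      · rintro f ⟨⟨hf1, hf2⟩, hf3⟩
        exact ⟨⟨hS e hf1, fun h => hf2 ((key e h1).2 h)⟩, hf3⟩
      · intro h
        have := (stat_subset (lo := lo) (hi := hi) (b := b') (θ := θ) (b' e)).2 h
        simp at this
    · intro e he
      rw [mem_stat_two] at he ⊢
      obtain ⟨h1, h2⟩ := he
      refine ⟨by have := hbb e; omega, le_trans ?_ h2⟩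
      refine hi_mono _ _ _ _ e (key e h1).1 ?_ ?_ (fun h => h.2 rfl)
      · rintro f ⟨⟨hf1, hf2⟩, hf3⟩
        exact ⟨⟨hS e hf1, fun h => hf2 ((key e h1).1 h)⟩, hf3⟩
      · intro h
        have := (stat_subset (lo := lo) (hi := hi) (b := b') (θ := θ) (b' e)).1 h
        simp at this

end mono

end Vale.Agent.P143
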