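import Vale.Agent.P143.Gap
import Vale.Agent.P143.Mono
import Vale.Agent.P143.StatLem
import Vale.Agent.P143.MarksAux

set_option autoImplicit false
set_option linter.unusedSectionVars false

namespace Vale.Agent.P143

open Filter Topology Set MeasureTheory
open scoped InnerProductSpace

universe u w

section abstract

variable {V : Type u} [Countable V] {Ω : Type w} [MeasurableSpace Ω]
  {act : Equiv.Perm V → Ω → Ω}

lemma Adm.norm_equi {T : Ω → Hd V →L[ℝ] Hd V} (hT : Adm act T) (σ : Equiv.Perm V) (ω : Ω)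
    (u v : V) : ‖T (act σ ω) (dl (σ u, σ v))‖ = ‖T ω (dl (u, v))‖ := by
  rw [← permL_dl, hT.equi, LinearIsometryEquiv.norm_map]

lemma Adm.cap_meas {K : Ω → Submodule ℝ (Hd V)} (hK : Adm act (fun ω => proj (K ω)))
    (e : Sym2 V) : Measurable fun ω => cap (K ω) e := by
  induction e with
  | h u v => exact (meas_norm_sq hK (u, v)).add (meas_norm_sq hK (v, u))

lemma Adm.cap_equi {K : Ω → Submodule ℝ (Hd V)} (hK : Adm act (fun ω => proj (K ω)))
    (σ : Equiv.Perm V) (ω : Ω) (e : Sym2 V) :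
    cap (K (act σ ω)) (e.map σ) = cap (K ω) e := by
  induction e with
  | h u v =>
    rw [Sym2.map_mk, cap_mk, cap_mk, hK.norm_equi, hK.norm_equi]

/-- action on pointed environments -/
def actP (act : Equiv.Perm V → Ω → Ω) (σ : Equiv.Perm V) (p : Ω × Sym2 V) : Ω × Sym2 V :=
  (act σ p.1, p.2.map σ)

lemma rg_pointed {Gr : Ω → SimpleGraph V} (h : RG act Gr) :
    @RG V (Ω × Sym2 V) (@Prod.instMeasurableSpace _ _ _ ⊤) (actP act) (fun p => Gr p.1) := by
  let _ : MeasurableSpace (Sym2 V) := ⊤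
  refine ⟨fun u v => ?_, fun σ p u v => h.equi σ p.1 u v⟩
  exact measurable_fst (h.meas u v)

lemma rs_pointed {A : Ω → Set (Sym2 V)} (h : RS act A) :
    @RS V (Ω × Sym2 V) (@Prod.instMeasurableSpace _ _ _ ⊤) (actP act) (fun p => A p.1) := by
  let _ : MeasurableSpace (Sym2 V) := ⊤
  refine ⟨fun e => ?_, fun σ p e => h.equi σ p.1 e⟩
  exact measurable_fst (h.meas e)

lemma rs_point : @RS V (Ω × Sym2 V) (@Prod.instMeasurableSpace _ _ _ ⊤) (actP act)
    (fun p => {p.2}) := by
  let _ : MeasurableSpace (Sym2 V) := ⊤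
  refine ⟨fun e => ?_, fun σ p e => ?_⟩
  · have h1 : MeasurableSet {f : Sym2 V | e = f} := trivial
    exact measurable_snd h1
  · change e.map σ = p.2.map σ ↔ e = p.2
    exact (Sym2.map.injective σ.injective).eq_iff

lemma point_meas [MeasurableSpace (Sym2 V)] {K : Ω × Sym2 V → Submodule ℝ (Hd V)}
    (h1 : Adm (actP act) (fun p : Ω × Sym2 V => proj (K p))) (e : Sym2 V) :
    Measurable fun ω => cap (K (ω, e)) e := by
  have h2 : Measurable (fun p : Ω × Sym2 V => cap (K p) e) := h1.cap_meas e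
  have h3 : Measurable (fun ω : Ω => ((ω, e) : Ω × Sym2 V)) :=
    measurable_id.prodMk measurable_const
  exact h2.comp h3

lemma point_equi [MeasurableSpace (Sym2 V)] {K : Ω × Sym2 V → Submodule ℝ (Hd V)}
    (h1 : Adm (actP act) (fun p : Ω × Sym2 V => proj (K p))) (σ : Equiv.Perm V) (ω : Ω)
    (e : Sym2 V) : cap (K (act σ ω, e.map σ)) (e.map σ) = cap (K (ω, e)) e :=
  h1.cap_equi σ (ω, e) e

lemma lo_meas_equi' {Gr : Ω → SimpleGraph V} (h : RG act Gr) {A B : Ω → Set (Sym2 V)}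
    (hA : RS act A) (hB : RS act B) :
    (∀ e, Measurable fun ω => cap (LL (Gr ω) (A ω \ {e}) (B ω)) e) ∧
    ∀ σ ω e, cap (LL (Gr (act σ ω)) (A (act σ ω) \ {e.map σ}) (B (act σ ω))) (e.map σ)
      = cap (LL (Gr ω) (A ω \ {e}) (B ω)) e := by
  have h1 := @adm_LL V _ (Ω × Sym2 V) (@Prod.instMeasurableSpace _ _ _ ⊤) (actP act) _
    (rg_pointed h) _ _ (@RS.diff V _ (Ω × Sym2 V) (@Prod.instMeasurableSpace _ _ _ ⊤) (actP act)
      _ _ (rs_pointed hA) rs_point) (rs_pointed hB)
  exact ⟨fun e => @point_meas V _ Ω _ act ⊤ _ h1 e, fun σ ω e =>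
    @point_equi V _ Ω _ act ⊤ _ h1 σ ω e⟩

lemma lo_meas_equi {Gr : Ω → SimpleGraph V} (h : RG act Gr) {A B : Ω → Set (Sym2 V)}
    (hA : RS act A) (hB : RS act B) :
    (∀ e, Measurable fun ω => lo (Gr ω) (A ω \ {e}) (B ω) e) ∧
    ∀ σ ω e, lo (Gr (act σ ω)) (A (act σ ω) \ {e.map σ}) (B (act σ ω)) (e.map σ)
      = lo (Gr ω) (A ω \ {e}) (B ω) e := lo_meas_equi' h hA hB

lemma hi_meas_equi' {Gr : Ω → SimpleGraph V} (h : RG act Gr) {A B : Ω → Set (Sym2 V)}
    (hA : RS act A) (hB : RS act B) :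
    (∀ e, Measurable fun ω => cap (LP (Gr ω) (A ω) (B ω \ {e})) e) ∧
    ∀ σ ω e, cap (LP (Gr (act σ ω)) (A (act σ ω)) (B (act σ ω) \ {e.map σ})) (e.map σ)
      = cap (LP (Gr ω) (A ω) (B ω \ {e})) e := by
  have h1 := @adm_LP V _ (Ω × Sym2 V) (@Prod.instMeasurableSpace _ _ _ ⊤) (actP act) _
    (rg_pointed h) _ _ (rs_pointed hA)
    (@RS.diff V _ (Ω × Sym2 V) (@Prod.instMeasurableSpace _ _ _ ⊤) (actP act)
      _ _ (rs_pointed hB) rs_point)
  exact ⟨fun e => @point_meas V _ Ω _ act ⊤ _ h1 e, fun σ ω e =>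
    @point_equi V _ Ω _ act ⊤ _ h1 σ ω e⟩

lemma hi_meas_equi {Gr : Ω → SimpleGraph V} (h : RG act Gr) {A B : Ω → Set (Sym2 V)}
    (hA : RS act A) (hB : RS act B) :
    (∀ e, Measurable fun ω => hi (Gr ω) (A ω) (B ω \ {e}) e) ∧
    ∀ σ ω e, hi (Gr (act σ ω)) (A (act σ ω)) (B (act σ ω) \ {e.map σ}) (e.map σ)
      = hi (Gr ω) (A ω) (B ω \ {e}) e := by
  classical
  obtain ⟨h1, h2⟩ := hi_meas_equi' h hA hB
  refine ⟨fun e => ?_, fun σ ω e => ?_⟩
  · have h3 : (fun ω => hi (Gr ω) (A ω) (B ω \ {e}) e) = fun ω =>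
        if e ∈ (Gr ω).edgeSet then 1 - cap (LP (Gr ω) (A ω) (B ω \ {e})) e else 0 := by
      funext ω
      by_cases h4 : e ∈ (Gr ω).edgeSet
      · rw [if_pos h4]; exact if_pos h4
      · rw [if_neg h4]; exact if_neg h4
    rw [h3]
    exact Measurable.ite (h.edgeSet.meas e) (measurable_const.sub (h1 e)) measurable_const
  · unfold hi
    have h3 := h.edgeSet.equi σ ω e
    by_cases h4 : e ∈ (Gr ω).edgeSet
    · rw [if_pos h4, if_pos (h3.2 h4), h2]
    · rw [if_neg h4, if_neg (fun h5 => h4 (h3.1 h5))]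

/-- The status sets are random edge sets. -/
lemma rs_stat {Gr : Ω → SimpleGraph V} (h : RG act Gr) {b : Ω → Sym2 V → ℕ}
    (hbm : ∀ e, Measurable fun ω => b ω e) (hbe : ∀ σ ω e, b (act σ ω) (e.map σ) = b ω e)
    {θ : Ω → Sym2 V → ℝ} (hθm : ∀ e, Measurable fun ω => θ ω e)
    (hθe : ∀ σ ω e, θ (act σ ω) (e.map σ) = θ ω e) (k : ℕ) :
    RS act (fun ω => (stat (lo (Gr ω)) (hi (Gr ω)) (b ω) (θ ω) k).1) ∧
      RS act (fun ω => (stat (lo (Gr ω)) (hi (Gr ω)) (b ω) (θ ω) k).2) := by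
  induction k with
  | zero =>
    simp only [stat_zero, stat_succ]
    exact ⟨⟨fun e => by simp, fun σ ω e => by simp⟩, ⟨fun e => by simp, fun σ ω e => by simp⟩⟩
  | succ k ih =>
    have hS : RS act (fun ω => {f | b ω f ≤ k}) := by
      refine ⟨fun e => measurableSet_le (hbm e) measurable_const, fun σ ω e => ?_⟩
      change b (act σ ω) (e.map σ) ≤ k ↔ b ω e ≤ k
      rw [hbe]
    have h1 := lo_meas_equi h (hS.diff ih.2) ih.2
    have h2 := hi_meas_equi h ih.1 (hS.diff ih.1)
    simp only [stat_zero, stat_succ]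
    constructor
    · refine ih.1.union ⟨fun e => ?_, fun σ ω e => ?_⟩
      · exact (measurableSet_eq_fun (hbm e) measurable_const).inter
          (measurableSet_lt (hθm e) (h1.1 e))
      · change (b (act σ ω) (e.map σ) = k ∧ θ (act σ ω) (e.map σ) < _) ↔ (b ω e = k ∧ θ ω e < _)
        rw [hbe, hθe, h1.2 σ ω e]
    · refine ih.2.union ⟨fun e => ?_, fun σ ω e => ?_⟩
      · exact (measurableSet_eq_fun (hbm e) measurable_const).inter
          (measurableSet_le (h2.1 e) (hθm e))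
      · change (b (act σ ω) (e.map σ) = k ∧ _ ≤ θ (act σ ω) (e.map σ)) ↔ (b ω e = k ∧ _ ≤ θ ω e)
        rw [hbe, hθe, h2.2 σ ω e]

end abstract

section concrete

variable {V : Type u}

/-- Marks of the unordered pairs. -/
abbrev Mk (V : Type u) := Sym2 V → unitInterval × unitInterval

/-- Marked graphs. -/
abbrev Env (V : Type u) := SimpleGraph V × Mk V

/-- Action of permutations on graphs. -/
def ga (σ : Equiv.Perm V) (G : SimpleGraph V) : SimpleGraph V := G.comap σ.symm

/-- Action of permutations on marked graphs. -/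
def actE (σ : Equiv.Perm V) (ω : Env V) : Env V := (ga σ ω.1, fun e => ω.2 (e.map σ.symm))

lemma ga_adj (σ : Equiv.Perm V) (G : SimpleGraph V) (u v : V) :
    (ga σ G).Adj (σ u) (σ v) ↔ G.Adj u v := by
  unfold ga
  simp

lemma map_map_symm (σ : Equiv.Perm V) (e : Sym2 V) : (e.map σ).map σ.symm = e := by
  induction e with
  | h u v => simp

/-- the isomorphism given by a permutation -/
def gaIso (σ : Equiv.Perm V) (G : SimpleGraph V) : G ≃g ga σ G where
  toEquiv := σ
  map_rel_iff' := by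
    intro a b
    exact ga_adj σ G a b

/-- The degree (`0` if infinite). -/
noncomputable def cdeg (G : SimpleGraph V) (v : V) : ℕ := (G.neighborSet v).ncard

lemma cdeg_iso {G G' : SimpleGraph V} (φ : G ≃g G') (v : V) : cdeg G' (φ v) = cdeg G v := by
  unfold cdeg
  have h : G'.neighborSet (φ v) = φ '' (G.neighborSet v) := by
    ext w
    constructor
    · intro hw
      refine ⟨φ.symm w, ?_, by simp⟩
      have : G'.Adj (φ v) (φ (φ.symm w)) := by simpa using hw
      exact φ.map_adj_iff.1 this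
    · rintro ⟨x, hx, rfl⟩
      exact φ.map_adj_iff.2 hx
  rw [h, Set.ncard_image_of_injective _ φ.injective]

/-- The class of a pair: the larger degree. -/
noncomputable def cls (G : SimpleGraph V) : Sym2 V → ℕ :=
  Sym2.lift ⟨fun u v => max (cdeg G u) (cdeg G v), fun _ _ => max_comm _ _⟩

lemma cls_mk (G : SimpleGraph V) (u v : V) : cls G s(u, v) = max (cdeg G u) (cdeg G v) := rfl

lemma cls_iso {G G' : SimpleGraph V} (φ : G ≃g G') (e : Sym2 V) :
    cls G' (e.map φ) = cls G e := by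
  induction e with
  | h u v => rw [Sym2.map_mk, cls_mk, cls_mk, cdeg_iso, cdeg_iso]

/-- dyadic position of a mark -/
noncomputable def fl (n : ℕ) (t : unitInterval) : ℕ := min ⌊(2 : ℝ) ^ n * t⌋₊ (2 ^ n - 1)

lemma fl_lt (n : ℕ) (t : unitInterval) : fl n t < 2 ^ n := by
  unfold fl
  have h1 : 0 < 2 ^ n := by positivity
  omega

lemma fl_succ (n : ℕ) (t : unitInterval) : fl (n + 1) t / 2 = fl n t := by
  unfold fl
  have h1 : ⌊(2 : ℝ) ^ (n + 1) * t⌋₊ / 2 = ⌊(2 : ℝ) ^ n * t⌋₊ := by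
    have h2 := Nat.floor_div_ofNat ((2 : ℝ) ^ (n + 1) * (t : ℝ)) 2
    rw [← h2]
    congr 1
    rw [pow_succ]
    ring
  have h3 : 0 < 2 ^ n := by positivity
  have h4 : 2 ^ (n + 1) = 2 * 2 ^ n := by ring
  rw [h4]
  omega

lemma measurable_fl (n : ℕ) : Measurable (fl n) := by
  unfold fl
  have h1 : Measurable fun t : unitInterval => ⌊(2 : ℝ) ^ n * (t : ℝ)⌋₊ :=
    Nat.measurable_floor.comp (measurable_subtype_coe.const_mul _)
  exact h1.min measurable_const

open Classical in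
/-- Batch index of a pair at level `n`. -/
noncomputable def batch (G : SimpleGraph V) (n : ℕ) (m : Mk V) (e : Sym2 V) : ℕ :=
  if e ∈ G.edgeSet then cls G e * 2 ^ n + fl n (m e).1 else 0

lemma batch_of_mem {G : SimpleGraph V} {e : Sym2 V} (he : e ∈ G.edgeSet) (n : ℕ) (m : Mk V) :
    batch G n m e = cls G e * 2 ^ n + fl n (m e).1 := if_pos he

lemma batch_of_notMem {G : SimpleGraph V} {e : Sym2 V} (he : e ∉ G.edgeSet) (n : ℕ) (m : Mk V) :
    batch G n m e = 0 := if_neg he

lemma batch_succ (G : SimpleGraph V) (n : ℕ) (m : Mk V) (e : Sym2 V) :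
    batch G (n + 1) m e / 2 = batch G n m e := by
  by_cases he : e ∈ G.edgeSet
  · rw [batch_of_mem he, batch_of_mem he, pow_succ, ← mul_assoc, mul_comm _ 2,
      Nat.mul_add_div two_pos, fl_succ]
  · rw [batch_of_notMem he, batch_of_notMem he]

lemma batch_iso {G G' : SimpleGraph V} (φ : G ≃g G') (n : ℕ) (m m' : Mk V)
    (hm : ∀ e, m' (e.map φ) = m e) (e : Sym2 V) :
    batch G' n m' (e.map φ) = batch G n m e := by
  have h : e.map φ ∈ G'.edgeSet ↔ e ∈ G.edgeSet := by
    induction e with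
    | h u v => exact φ.map_adj_iff
  by_cases he : e ∈ G.edgeSet
  · rw [batch_of_mem he, batch_of_mem (h.2 he), cls_iso, hm]
  · rw [batch_of_notMem he, batch_of_notMem (fun h' => he (h.1 h'))]

/-- thresholds -/
noncomputable def thrE (m : Mk V) (e : Sym2 V) : ℝ := ((m e).2 : ℝ)

/-- The status sets of the algorithm. -/
noncomputable def st (n : ℕ) (ω : Env V) (k : ℕ) : Set (Sym2 V) × Set (Sym2 V) :=
  stat (lo ω.1) (hi ω.1) (batch ω.1 n ω.2) (thrE ω.2) k

variable [Countable V]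

lemma rg_fst : RG (actE (V := V)) (fun ω : Env V => ω.1) := by
  refine ⟨fun u v => ?_, fun σ ω u v => ga_adj σ ω.1 u v⟩
  have h : Measurable fun ω : Env V => ω.1.Adj u v :=
    SimpleGraph.measurable_iff_adj.1 measurable_fst u v
  exact h.setOf

lemma measurable_cdeg (v : V) : Measurable fun G : SimpleGraph V => cdeg G v := by
  refine MarksE.measurable_ncard (fun (G : SimpleGraph V) w => G.Adj v w) fun w => ?_
  have h : Measurable fun G : SimpleGraph V => G.Adj v w :=
    SimpleGraph.measurable_iff_adj.1 (measurable_id (α := SimpleGraph V)) v w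
  exact h.setOf

lemma measurable_cls (e : Sym2 V) : Measurable fun G : SimpleGraph V => cls G e := by
  induction e with
  | h u v => exact (measurable_cdeg u).max (measurable_cdeg v)

lemma measurable_batch (n : ℕ) (e : Sym2 V) : Measurable fun ω : Env V => batch ω.1 n ω.2 e := by
  classical
  unfold batch
  refine Measurable.ite (rg_fst.edgeSet.meas e) ?_ measurable_const
  refine Measurable.add ?_ ?_
  · exact ((measurable_cls e).comp measurable_fst).mul_const _
  · exact (measurable_fl n).comp (measurable_fst.comp ((measurable_pi_apply e).comp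
      measurable_snd))

lemma measurable_thrE (e : Sym2 V) : Measurable fun ω : Env V => thrE ω.2 e :=
  measurable_subtype_coe.comp (measurable_snd.comp ((measurable_pi_apply e).comp
      measurable_snd))

lemma batch_equi (σ : Equiv.Perm V) (n : ℕ) (ω : Env V) (e : Sym2 V) :
    batch (actE σ ω).1 n (actE σ ω).2 (e.map σ) = batch ω.1 n ω.2 e :=
  batch_iso (gaIso σ ω.1) n ω.2 (actE σ ω).2 (fun e => by
    change ω.2 ((e.map σ).map σ.symm) = ω.2 e
    rw [map_map_symm]) e

lemma thrE_equi (σ : Equiv.Perm V) (ω : Env V) (e : Sym2 V) :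
    thrE (actE σ ω).2 (e.map σ) = thrE ω.2 e := by
  unfold thrE actE
  simp only
  rw [map_map_symm]

lemma rs_st (n k : ℕ) : RS (actE (V := V)) (fun ω => (st n ω k).1) ∧
    RS (actE (V := V)) (fun ω => (st n ω k).2) :=
  rs_stat rg_fst (fun e => measurable_batch n e) (fun σ ω e => batch_equi σ n ω e)
    (fun e => measurable_thrE e) (fun σ ω e => thrE_equi σ ω e) k

end concrete

end Vale.Agent.P143
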