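import Vale.Agent.P143.Recur

set_option autoImplicit false
set_option linter.unusedSectionVars false

namespace Vale.Agent.P143

open Filter Topology Set MeasureTheory

universe u w

variable {V : Type u}

/-- edges which are never determined -/
def Nev (ω : Env V) : Set (Sym2 V) :=
  ω.1.edgeSet ∩ {e | ∀ n k : ℕ, e ∉ (st n ω k).1 ∧ e ∉ (st n ω k).2}

/-- undetermined edges of class at most `j` -/
def NevC (j : ℕ) (ω : Env V) : Set (Sym2 V) := Nev ω ∩ {f | cls ω.1 f ≤ j}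

lemma NevC_subset (j n : ℕ) (ω : Env V) : NevC j ω ⊆ Und n ((j + 1) * 2 ^ n) ω := by
  rintro e ⟨⟨h1, h2⟩, h3⟩
  refine ⟨⟨⟨h1, ?_⟩, (h2 n _).1⟩, (h2 n _).2⟩
  change batch ω.1 n ω.2 e < (j + 1) * 2 ^ n
  have h3' : cls ω.1 e ≤ j := h3
  rw [batch_of_mem h1]
  have h4 := fl_lt n (ω.2 e).1
  have h5 : cls ω.1 e * 2 ^ n ≤ j * 2 ^ n := Nat.mul_le_mul_right _ h3'
  rw [add_mul, one_mul]
  omega

variable [Countable V]

lemma rs_Nev : RS (actE (V := V)) Nev := by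
  refine rs_edge.inter ⟨fun e => ?_, fun σ ω e => ?_⟩
  · have h1 : {ω : Env V | e ∈ {e | ∀ n k : ℕ, e ∉ (st n ω k).1 ∧ e ∉ (st n ω k).2}}
        = ⋂ n : ℕ, ⋂ k : ℕ, ({ω | e ∈ (st n ω k).1}ᶜ ∩ {ω | e ∈ (st n ω k).2}ᶜ) := by
      ext ω
      simp
    rw [h1]
    exact MeasurableSet.iInter fun n => MeasurableSet.iInter fun k =>
      ((rs_st n k).1.meas e).compl.inter ((rs_st n k).2.meas e).compl
  · refine forall_congr' fun n => forall_congr' fun k => ?_
    exact and_congr (not_congr ((rs_st n k).1.equi σ ω e)) (not_congr ((rs_st n k).2.equi σ ω e))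

lemma rs_NevC (j : ℕ) : RS (actE (V := V)) (NevC j) := rs_Nev.inter (rs_cls (fun i => i ≤ j))

variable [MeasurableSpace V] [MeasurableSingletonClass V]

variable {ρ : Measure (SimpleGraph V × V)}

lemma dens_NevC [IsProbabilityMeasure ρ] (hu : IsUnimodular ρ) (hρ : ∀ᵐ p ∂ρ, LocFin p.1)
    (j : ℕ) : dens ρ (NevC j) = 0 := by
  have h1 : ∀ n, (dens ρ (NevC j)).toReal ≤ (dens ρ (Und n ((j + 1) * 2 ^ n))).toReal := fun n =>
    ENNReal.toReal_mono (dens_Und_ne_top hρ n _ j le_rfl) (dens_mono fun ω => NevC_subset j n ω)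
  have h2 : (dens ρ (NevC j)).toReal ≤ 0 :=
    ge_of_tendsto' (tendsto_dens hu hρ (j + 1)) h1
  have h3 : (dens ρ (NevC j)).toReal = 0 := le_antisymm h2 ENNReal.toReal_nonneg
  have h4 : dens ρ (NevC j) ≠ ⊤ := ne_top_of_le_ne_top
    (dens_Und_ne_top hρ 0 ((j + 1) * 2 ^ 0) j le_rfl) (dens_mono fun ω => NevC_subset j 0 ω)
  exact ((ENNReal.toReal_eq_zero_iff _).1 h3).resolve_right h4

lemma root_det [IsProbabilityMeasure ρ] (hu : IsUnimodular ρ) (hρ : ∀ᵐ p ∂ρ, LocFin p.1) :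
    ∀ᵐ q ∂(envP ρ), ∀ v, s(q.2, v) ∉ Nev q.1 := by
  have h1 : ∀ j, ∀ᵐ q ∂(envP ρ), ∑' v, ENNReal.ofReal
      (ind (NevC j q.1) s((q.2, v).1, (q.2, v).2)) = 0 := by
    intro j
    have h2 := dens_NevC hu hρ j
    unfold dens tr at h2
    rw [lintegral_eq_zero_iff (measurable_inner (q := fun ω p => ind (NevC j ω) s(p.1, p.2))
      fun p => meas_ind (rs_NevC j) s(p.1, p.2))] at h2
    exact h2
  filter_upwards [ae_all_iff.2 h1] with q hq v hv
  have h3 := ENNReal.tsum_eq_zero.1 (hq (cls q.1.1 s(q.2, v))) v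
  have h4 : s(q.2, v) ∈ NevC (cls q.1.1 s(q.2, v)) q.1 := ⟨hv, le_refl (cls q.1.1 s(q.2, v))⟩
  rw [ind_of_mem h4] at h3
  simp at h3

lemma nev_empty [IsProbabilityMeasure ρ] (hu : IsUnimodular ρ) (hρ : ∀ᵐ p ∂ρ, LocFin p.1) :
    ∀ᵐ q ∂(envP ρ), Nev q.1 = ∅ := by
  classical
  set f : Env V → V → V → ENNReal := fun ω _ v => if ∃ w, s(v, w) ∈ Nev ω then 1 else 0 with hf
  have hS : ∀ v, MeasurableSet {ω : Env V | ∃ w, s(v, w) ∈ Nev ω} := by
    intro v
    have h1 : {ω : Env V | ∃ w, s(v, w) ∈ Nev ω} = ⋃ w, {ω | s(v, w) ∈ Nev ω} := by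
      ext ω; simp
    rw [h1]
    exact MeasurableSet.iUnion fun w => rs_Nev.meas _
  have hfm : ∀ u v, Measurable fun ω => f ω u v := fun u v =>
    Measurable.ite (hS v) measurable_const measurable_const
  have hfe : ∀ σ ω u v, f (actE σ ω) (σ u) (σ v) = f ω u v := by
    intro σ ω u v
    have h1 : (∃ w, s(σ v, w) ∈ Nev (actE σ ω)) ↔ ∃ w, s(v, w) ∈ Nev ω := by
      constructor
      · rintro ⟨w, hw⟩
        refine ⟨σ.symm w, ?_⟩
        have h2 := (rs_Nev.mem_perm σ ω (σ v) w).1 hw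
        simpa using h2
      · rintro ⟨w, hw⟩
        refine ⟨σ w, ?_⟩
        have h2 := (rs_Nev.equi σ ω s(v, w)).2 hw
        simpa using h2
    simp only [hf, h1]
  have hmtp := mtp_envP ρ hu f hfm hfe
  have h2 : ∫⁻ p, ∑' v, f p.1 v p.2 ∂(envP ρ) = 0 := by
    have h3 : ∀ᵐ p ∂(envP ρ), ∑' v, f p.1 v p.2 = 0 := by
      filter_upwards [root_det hu hρ] with p hp
      rw [ENNReal.tsum_eq_zero]
      intro v
      have h4 : ¬ ∃ w, s(p.2, w) ∈ Nev p.1 := fun ⟨w, hw⟩ => hp w hw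
      simp only [hf, if_neg h4]
    rw [lintegral_congr_ae h3, lintegral_zero]
  rw [h2] at hmtp
  have hm1 : Measurable fun q : Env V × V => ∑' v, f q.1 q.2 v := by
    refine Measurable.tsum fun v => ?_
    exact measurable_from_prod_countable_left fun o => hfm o v
  rw [lintegral_eq_zero_iff hm1] at hmtp
  filter_upwards [hmtp] with q hq
  rw [Set.eq_empty_iff_forall_notMem]
  intro e he
  induction e with
  | h a b =>
    have h5 := ENNReal.tsum_eq_zero.1 hq a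
    have h6 : ∃ w, s(a, w) ∈ Nev q.1 := ⟨b, he⟩
    simp only [hf, if_pos h6] at h5
    exact one_ne_zero h5

omit [MeasurableSpace V] [MeasurableSingletonClass V] [Countable V] in
lemma det_nonedge {ω : Env V} {e : Sym2 V} (he : e ∉ ω.1.edgeSet) (n : ℕ) :
    e ∈ (st n ω 1).2 := by
  have hb : batch ω.1 n ω.2 e = 0 := batch_of_notMem he n ω.2
  rw [st_succ_two (k := 0) hb]
  unfold highv
  rw [hi_of_notMem he]
  exact (ω.2 e).2.2.1

/-- Almost surely every pair is eventually determined. -/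
theorem all_det [IsProbabilityMeasure ρ] (hu : IsUnimodular ρ) (hρ : ∀ᵐ p ∂ρ, LocFin p.1) :
    ∀ᵐ p ∂ρ, ∀ᵐ m ∂(mksM V), ∀ e : Sym2 V, ∃ n k, e ∈ (st n (p.1, m) k).1 ∨
      e ∈ (st n (p.1, m) k).2 := by
  have h1 := nev_empty hu hρ
  unfold envP at h1
  have h2 := ae_of_ae_map measurable_envmap.aemeasurable h1
  have h3 := Measure.ae_ae_of_ae_prod h2
  filter_upwards [h3] with p hp
  filter_upwards [hp] with m hm e
  by_cases he : e ∈ p.1.edgeSet
  · by_contra hcon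
    push Not at hcon
    have h4 : e ∈ Nev ((p.1, m) : Env V) := ⟨he, hcon⟩
    rw [hm] at h4
    exact h4
  · exact ⟨0, 1, Or.inr (det_nonedge (ω := ((p.1, m) : Env V)) he 0)⟩

end Vale.Agent.P143
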