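import Vale.Agent.P143.RandCyc

set_option autoImplicit false
set_option linter.unusedSectionVars false

namespace Vale.Agent.P143

open Filter Topology Set MeasureTheory
open scoped InnerProductSpace

universe u w

section gen

variable {H : Type u} [NormedAddCommGroup H] [InnerProductSpace ℝ H] [CompleteSpace H]

lemma proj_inf_orth {E L₁ L₂ : Submodule ℝ H} (hE : IsClosed (E : Set H))
    (h1 : L₁ ≤ E) (h2 : L₂ ≤ E) (h12 : ∀ x ∈ L₁, ∀ y ∈ L₂, ⟪x, y⟫_ℝ = 0) (d : H) :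
    proj (E ⊓ L₁ᗮ ⊓ L₂ᗮ) d = proj E d - proj L₁ d - proj L₂ d := by
  have hL12 : L₂ ≤ L₁ᗮ := by
    intro y hy
    rw [Submodule.mem_orthogonal]
    exact fun x hx => h12 x hx y hy
  have hL21 : L₁ ≤ L₂ᗮ := by
    intro y hy
    rw [Submodule.mem_orthogonal']
    exact fun x hx => h12 y hy x hx
  have hc1 : L₁.topologicalClosure ≤ E := Submodule.topologicalClosure_minimal _ h1 hE
  have hc2 : L₂.topologicalClosure ≤ E := Submodule.topologicalClosure_minimal _ h2 hE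
  have hc12 : L₂.topologicalClosure ≤ L₁ᗮ :=
    Submodule.topologicalClosure_minimal _ hL12 (Submodule.isClosed_orthogonal _)
  have hc21 : L₁.topologicalClosure ≤ L₂ᗮ :=
    Submodule.topologicalClosure_minimal _ hL21 (Submodule.isClosed_orthogonal _)
  have hEd : proj E d ∈ E := proj_mem hE d
  refine proj_unique (Submodule.le_topologicalClosure _ ⟨⟨?_, ?_⟩, ?_⟩) ?_
  · exact Submodule.sub_mem _ (Submodule.sub_mem _ hEd (hc1 (proj_mem_closure _ _)))
      (hc2 (proj_mem_closure _ _))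
  · refine (Submodule.mem_orthogonal _ _).2 fun z hz => ?_
    have e1 : ⟪z, proj E d⟫_ℝ = ⟪z, d⟫_ℝ := by
      rw [← proj_inner, proj_eq_self (h1 hz)]
    have e2 : ⟪z, proj L₁ d⟫_ℝ = ⟪z, d⟫_ℝ := by
      rw [← proj_inner, proj_eq_self hz]
    have e3 : ⟪z, proj L₂ d⟫_ℝ = 0 :=
      (Submodule.mem_orthogonal _ _).1 (hc12 (proj_mem_closure _ _)) z hz
    rw [inner_sub_right, inner_sub_right, e1, e2, e3]
    ring
  · refine (Submodule.mem_orthogonal _ _).2 fun z hz => ?_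
    have e1 : ⟪z, proj E d⟫_ℝ = ⟪z, d⟫_ℝ := by
      rw [← proj_inner, proj_eq_self (h2 hz)]
    have e2 : ⟪z, proj L₂ d⟫_ℝ = ⟪z, d⟫_ℝ := by
      rw [← proj_inner, proj_eq_self hz]
    have e3 : ⟪z, proj L₁ d⟫_ℝ = 0 :=
      (Submodule.mem_orthogonal _ _).1 (hc21 (proj_mem_closure _ _)) z hz
    rw [inner_sub_right, inner_sub_right, e1, e2, e3]
    ring
  · refine (Submodule.mem_orthogonal _ _).2 fun z hz => ?_
    have e1 : ⟪z, proj E d⟫_ℝ = ⟪z, d⟫_ℝ := by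
      rw [← proj_inner, proj_eq_self hz.1.1]
    have e2 : ⟪z, proj L₁ d⟫_ℝ = 0 :=
      inner_eq_zero_of_mem_closure (proj_mem_closure _ _) hz.1.2
    have e3 : ⟪z, proj L₂ d⟫_ℝ = 0 :=
      inner_eq_zero_of_mem_closure (proj_mem_closure _ _) hz.2
    rw [inner_sub_right, inner_sub_right, inner_sub_right, e1, e2, e3]
    ring

lemma norm_proj_inf_orth {E L₁ L₂ : Submodule ℝ H} (hE : IsClosed (E : Set H))
    (h1 : L₁ ≤ E) (h2 : L₂ ≤ E) (h12 : ∀ x ∈ L₁, ∀ y ∈ L₂, ⟪x, y⟫_ℝ = 0) (d : H) :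
    ‖proj (E ⊓ L₁ᗮ ⊓ L₂ᗮ) d‖ ^ 2 = ‖proj E d‖ ^ 2 - ‖proj L₁ d‖ ^ 2 - ‖proj L₂ d‖ ^ 2 := by
  rw [← inner_proj_self, proj_inf_orth hE h1 h2 h12, inner_sub_left, inner_sub_left,
    inner_proj_self, inner_proj_self, inner_proj_self]

/-- additivity along an orthogonal splitting -/
lemma norm_proj_split {M K : Submodule ℝ H} (hM : IsClosed (M : Set H))
    (hKM : K ≤ M) (d : H) :
    ‖proj M d‖ ^ 2 = ‖proj K d‖ ^ 2 + ‖proj (M ⊓ Kᗮ) d‖ ^ 2 := by
  have h := norm_proj_inf_orth (L₂ := ⊥) hM hKM bot_le (fun x _ y hy => by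
    rw [(Submodule.mem_bot ℝ).1 hy, inner_zero_right]) d
  have h3 : (M ⊓ Kᗮ ⊓ (⊥ : Submodule ℝ H)ᗮ) = M ⊓ Kᗮ := by
    rw [Submodule.bot_orthogonal_eq_top, inf_top_eq]
  have h4 : proj (⊥ : Submodule ℝ H) d = 0 := by
    apply proj_eq_zero
    rw [Submodule.bot_orthogonal_eq_top]
    trivial
  rw [h3, h4] at h
  simp at h
  linarith

end gen

variable {V : Type u}

/-- Twice the squared norm of the projection of an edge. -/
noncomputable def cap (K : Submodule ℝ (Hd V)) : Sym2 V → ℝ :=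
  Sym2.lift ⟨fun u v => ‖proj K (dl (u, v))‖ ^ 2 + ‖proj K (dl (v, u))‖ ^ 2,
    fun _ _ => add_comm _ _⟩

lemma cap_mk (K : Submodule ℝ (Hd V)) (u v : V) :
    cap K s(u, v) = ‖proj K (dl (u, v))‖ ^ 2 + ‖proj K (dl (v, u))‖ ^ 2 := rfl

lemma cap_nonneg (K : Submodule ℝ (Hd V)) (e : Sym2 V) : 0 ≤ cap K e := by
  induction e with
  | h u v => rw [cap_mk]; positivity

lemma proj_swap {K : Submodule ℝ (Hd V)} {G : SimpleGraph V} (hK : K ≤ EE G) (u v : V) :
    proj K (dl (v, u)) = - proj K (dl (u, v)) := by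
  have h : (dl (v, u) + dl (u, v) : Hd V) ∈ Kᗮ := by
    rw [Submodule.mem_orthogonal]
    intro x hx
    rw [inner_add_right, inner_dl_right, inner_dl_right, (hK hx).1 u v]
    ring
  have h2 := proj_eq_zero h
  rw [map_add] at h2
  exact eq_neg_of_add_eq_zero_left h2

lemma cap_eq {K : Submodule ℝ (Hd V)} {G : SimpleGraph V} (hK : K ≤ EE G) (u v : V) :
    cap K s(u, v) = 2 * ‖proj K (dl (u, v))‖ ^ 2 := by
  rw [cap_mk, proj_swap hK u v, norm_neg]
  ring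

lemma proj_dl_eq_zero {K : Submodule ℝ (Hd V)} {u v : V} (h : ∀ x ∈ K, x (u, v) = 0) :
    proj K (dl (u, v)) = 0 := by
  apply proj_eq_zero
  rw [Submodule.mem_orthogonal]
  intro x hx
  rw [inner_dl_right]
  exact h x hx

/-- the projection of an edge onto the antisymmetric functions supported in `A` -/
lemma norm_proj_EE_supp {G : SimpleGraph V} {A : Set (Sym2 V)} {u v : V} (h : G.Adj u v)
    (hA : s(u, v) ∈ A) : ‖proj (EE G ⊓ suppS A) (dl (u, v))‖ ^ 2 = 1 / 2 := by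
  classical
  have h1 : proj (EE G ⊓ suppS A) (dl (u, v))
      = (1 / 2 : ℝ) • (dl (u, v) - dl (v, u) : Hd V) := by
    refine proj_unique (Submodule.le_topologicalClosure _ (Submodule.smul_mem _ _ ⟨?_, ?_⟩)) ?_
    · exact dl_sub_mem_EE h
    · intro a b hab
      change dl (u, v) (a, b) - dl (v, u) (a, b) = 0
      rw [dl_apply_ne, dl_apply_ne, sub_zero]
      · rintro h'
        rw [Prod.mk.injEq] at h'
        rw [h'.1, h'.2, Sym2.eq_swap] at hab
        exact hab hA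
      · rintro h'
        rw [Prod.mk.injEq] at h'
        rw [h'.1, h'.2] at hab
        exact hab hA
    · rw [Submodule.mem_orthogonal]
      intro x hx
      rw [inner_sub_right, inner_smul_right, inner_sub_right, inner_dl_right, inner_dl_right,
        hx.1.1 u v]
      ring
  rw [← inner_proj_self, h1, inner_smul_left, inner_sub_left, inner_dl_left, inner_dl_left,
    dl_apply_self, dl_apply_ne]
  · simp
  · intro h2
    rw [Prod.mk.injEq] at h2
    exact h.ne h2.2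

lemma norm_proj_EE {G : SimpleGraph V} {u v : V} (h : G.Adj u v) :
    ‖proj (EE G) (dl (u, v))‖ ^ 2 = 1 / 2 := by
  have h1 : EE G = EE G ⊓ suppS G.edgeSet :=
    le_antisymm (fun x hx => ⟨hx, fun a b hab => hx.2 a b hab⟩) inf_le_left
  rw [h1]
  exact norm_proj_EE_supp h h

/-- the spaces for the lower bound -/
noncomputable def LL (G : SimpleGraph V) (A B : Set (Sym2 V)) : Submodule ℝ (Hd V) :=
  (WW G ⊓ suppS Aᶜ).map ((restr (dset Bᶜ) : Hd V →L[ℝ] Hd V) : Hd V →ₗ[ℝ] Hd V)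

/-- the spaces for the upper bound -/
noncomputable def LP (G : SimpleGraph V) (A B : Set (Sym2 V)) : Submodule ℝ (Hd V) :=
  (WP G ⊓ suppS Bᶜ).map ((restr (dset Aᶜ) : Hd V →L[ℝ] Hd V) : Hd V →ₗ[ℝ] Hd V)

lemma mem_LL {G : SimpleGraph V} {A B : Set (Sym2 V)} {x : Hd V} :
    x ∈ LL G A B ↔ ∃ y, (y ∈ WW G ∧ y ∈ suppS Aᶜ) ∧ restr (dset Bᶜ) y = x := Iff.rfl

lemma mem_LP {G : SimpleGraph V} {A B : Set (Sym2 V)} {x : Hd V} :
    x ∈ LP G A B ↔ ∃ y, (y ∈ WP G ∧ y ∈ suppS Bᶜ) ∧ restr (dset Aᶜ) y = x := Iff.rfl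

lemma LL_le_EE (G : SimpleGraph V) (A B : Set (Sym2 V)) : LL G A B ≤ EE G := by
  rintro x ⟨y, hy, rfl⟩
  exact restr_mem_EE hy.1.1 _

lemma LP_le_EE (G : SimpleGraph V) (A B : Set (Sym2 V)) : LP G A B ≤ EE G := by
  rintro x ⟨y, hy, rfl⟩
  exact restr_mem_EE (WP_le_EE G hy.1) _

lemma restr_restr (S T : Set (V × V)) (x : Hd V) : restr S (restr T x) = restr (S ∩ T) x := by
  classical
  ext p
  simp only [restr_apply, mem_inter_iff]
  by_cases h1 : p ∈ S <;> by_cases h2 : p ∈ T <;> simp [h1, h2]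

lemma LL_supp {G : SimpleGraph V} {A B : Set (Sym2 V)} {x : Hd V} (hx : x ∈ LL G A B)
    {u v : V} (h : s(u, v) ∈ A ∪ B) : x (u, v) = 0 := by
  obtain ⟨y, hy, rfl⟩ := mem_LL.1 hx
  by_cases hB : s(u, v) ∈ B
  · exact restr_apply_notMem (S := dset Bᶜ) (fun h' => h' hB) y
  · rw [restr_apply_mem (S := dset Bᶜ) hB]
    exact hy.2 u v fun h' => h.elim (fun h1 => h' h1) (fun h2 => hB h2)

lemma LP_supp {G : SimpleGraph V} {A B : Set (Sym2 V)} {x : Hd V} (hx : x ∈ LP G A B)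
    {u v : V} (h : s(u, v) ∈ A ∪ B) : x (u, v) = 0 := by
  obtain ⟨y, hy, rfl⟩ := mem_LP.1 hx
  by_cases hA : s(u, v) ∈ A
  · exact restr_apply_notMem (S := dset Aᶜ) (fun h' => h' hA) y
  · rw [restr_apply_mem (S := dset Aᶜ) hA]
    exact hy.2 u v fun h' => h.elim (fun h1 => hA h1) (fun h2 => h' h2)

/-- orthogonality of the two families -/
lemma LL_perp_LP {G : SimpleGraph V} {A B A' B' : Set (Sym2 V)} (hA : A' ⊆ A) (hB : B ⊆ B')
    {x y : Hd V} (hx : x ∈ LL G A B) (hy : y ∈ LP G A' B') : ⟪x, y⟫_ℝ = 0 := by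
  obtain ⟨x, ⟨hx1, hx2⟩, rfl⟩ := mem_LL.1 hx
  obtain ⟨y, ⟨hy1, hy2⟩, rfl⟩ := mem_LP.1 hy
  have h1 : restr (dset Bᶜ) (restr (dset A'ᶜ) y) = restr (dset A'ᶜ) y := by
    refine restr_eq_self ?_
    intro u v huv
    by_cases h : s(u, v) ∈ A'
    · exact restr_apply_notMem (S := dset A'ᶜ) (fun h' => h' h) y
    · rw [restr_apply_mem (S := dset A'ᶜ) h]
      exact hy2 u v fun h' => h' (hB (by_contra fun h'' => huv h''))
  have h2 : restr (dset A'ᶜ) x = x := by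
    refine restr_eq_self ?_
    exact suppS_mono (compl_subset_compl.2 hA) hx2
  rw [restr_inner, h1, ← restr_inner, h2]
  exact WW_perp_WP hx1 hy1

/-- lower bound for the conditional probability -/
noncomputable def lo (G : SimpleGraph V) (A B : Set (Sym2 V)) (e : Sym2 V) : ℝ :=
  cap (LL G A B) e

open Classical in
/-- upper bound for the conditional probability -/
noncomputable def hi (G : SimpleGraph V) (A B : Set (Sym2 V)) (e : Sym2 V) : ℝ :=
  if e ∈ G.edgeSet then 1 - cap (LP G A B) e else 0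

lemma lo_of_notMem {G : SimpleGraph V} {A B : Set (Sym2 V)} {e : Sym2 V} (h : e ∉ G.edgeSet) :
    lo G A B e = 0 := by
  induction e with
  | h u v =>
    unfold lo
    rw [cap_eq (LL_le_EE G A B), proj_dl_eq_zero (fun x hx => ((LL_le_EE G A B) hx).2 u v h)]
    simp

lemma hi_of_notMem {G : SimpleGraph V} {A B : Set (Sym2 V)} {e : Sym2 V} (h : e ∉ G.edgeSet) :
    hi G A B e = 0 := by
  unfold hi
  rw [if_neg h]

/-- the gap space -/
noncomputable def MM (G : SimpleGraph V) (A B Q : Set (Sym2 V)) : Submodule ℝ (Hd V) :=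
  EE G ⊓ (LL G (A ∪ Q) B)ᗮ ⊓ (LP G A (B ∪ Q))ᗮ

open Classical in
/-- real valued indicator -/
noncomputable def ind (S : Set (Sym2 V)) (e : Sym2 V) : ℝ := if e ∈ S then 1 else 0

lemma ind_of_mem {S : Set (Sym2 V)} {e : Sym2 V} (h : e ∈ S) : ind S e = 1 := if_pos h

lemma ind_of_notMem {S : Set (Sym2 V)} {e : Sym2 V} (h : e ∉ S) : ind S e = 0 := if_neg h

lemma ind_nonneg (S : Set (Sym2 V)) (e : Sym2 V) : 0 ≤ ind S e := by
  unfold ind; split_ifs <;> simp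

lemma norm_proj_MM (G : SimpleGraph V) (A B Q : Set (Sym2 V)) (u v : V) :
    2 * ‖proj (MM G A B Q) (dl (u, v))‖ ^ 2
      = ind (G.edgeSet ∩ (A ∪ B ∪ Q)) s(u, v)
        + ind (G.edgeSet \ (A ∪ B ∪ Q)) s(u, v) *
            (hi G A (B ∪ Q) s(u, v) - lo G (A ∪ Q) B s(u, v)) := by
  have h1 := norm_proj_inf_orth (isClosed_EE G) (LL_le_EE G (A ∪ Q) B) (LP_le_EE G A (B ∪ Q))
    (fun x hx y hy => LL_perp_LP subset_union_left subset_union_left hx hy) (dl (u, v))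
  unfold MM
  rw [h1]
  by_cases hE : s(u, v) ∈ G.edgeSet
  · have hadj : G.Adj u v := hE
    rw [norm_proj_EE hadj]
    by_cases hS : s(u, v) ∈ A ∪ B ∪ Q
    · have hz1 : proj (LL G (A ∪ Q) B) (dl (u, v)) = 0 :=
        proj_dl_eq_zero fun x hx => LL_supp hx (by
          rcases hS with (h | h) | h
          · exact Or.inl (Or.inl h)
          · exact Or.inr h
          · exact Or.inl (Or.inr h))
      have hz2 : proj (LP G A (B ∪ Q)) (dl (u, v)) = 0 :=
        proj_dl_eq_zero fun x hx => LP_supp hx (by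
          rcases hS with (h | h) | h
          · exact Or.inl h
          · exact Or.inr (Or.inl h)
          · exact Or.inr (Or.inr h))
      have hn : s(u, v) ∉ G.edgeSet \ (A ∪ B ∪ Q) := fun h => h.2 hS
      rw [hz1, hz2, ind_of_mem (S := G.edgeSet ∩ (A ∪ B ∪ Q)) ⟨hE, hS⟩, ind_of_notMem hn]
      simp
    · have hn : s(u, v) ∉ G.edgeSet ∩ (A ∪ B ∪ Q) := fun h => hS h.2
      rw [ind_of_notMem hn, ind_of_mem (S := G.edgeSet \ (A ∪ B ∪ Q)) ⟨hE, hS⟩]
      unfold hi lo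
      rw [if_pos hE, cap_eq (LL_le_EE G (A ∪ Q) B), cap_eq (LP_le_EE G A (B ∪ Q))]
      ring
  · have hz : ∀ K : Submodule ℝ (Hd V), K ≤ EE G → proj K (dl (u, v)) = 0 := fun K hK =>
      proj_dl_eq_zero fun x hx => (hK hx).2 u v hE
    have hn1 : s(u, v) ∉ G.edgeSet ∩ (A ∪ B ∪ Q) := fun h => hE h.1
    have hn2 : s(u, v) ∉ G.edgeSet \ (A ∪ B ∪ Q) := fun h => hE h.1
    rw [hz _ le_rfl, hz _ (LL_le_EE G (A ∪ Q) B), hz _ (LP_le_EE G A (B ∪ Q)),
      ind_of_notMem hn1, ind_of_notMem hn2]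
    simp

lemma norm_proj_EE_supp' (G : SimpleGraph V) (A : Set (Sym2 V)) (u v : V) :
    2 * ‖proj (EE G ⊓ suppS A) (dl (u, v))‖ ^ 2 = ind (G.edgeSet ∩ A) s(u, v) := by
  by_cases hE : s(u, v) ∈ G.edgeSet
  · by_cases hA : s(u, v) ∈ A
    · rw [norm_proj_EE_supp hE hA, ind_of_mem (S := G.edgeSet ∩ A) ⟨hE, hA⟩]
      norm_num
    · have hn : s(u, v) ∉ G.edgeSet ∩ A := fun h => hA h.2
      rw [proj_dl_eq_zero (K := EE G ⊓ suppS A) fun x hx => hx.2 u v hA, ind_of_notMem hn]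
      simp
  · have hn : s(u, v) ∉ G.edgeSet ∩ A := fun h => hE h.1
    rw [proj_dl_eq_zero (K := EE G ⊓ suppS A) fun x hx => hx.1.2 u v hE, ind_of_notMem hn]
    simp

end Vale.Agent.P143
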