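import Vale.Agent.P143.Hilb

set_option autoImplicit false

namespace Vale.Agent.P143

open Filter Topology Set
open scoped InnerProductSpace

universe u

/-- The Hilbert space of square summable functions of ordered pairs of vertices. -/
abbrev Hd (V : Type u) := lp (fun _ : V × V => ℝ) 2

variable {V : Type u}

open Classical in
/-- The standard basis vector. -/
noncomputable def dl (p : V × V) : Hd V := lp.single 2 p (1 : ℝ)

lemma dl_apply_self (p : V × V) : (dl p : Hd V) p = 1 := by
  classical
  unfold dl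
  exact lp.single_apply_self (E := fun _ : V × V => ℝ) 2 p (1 : ℝ)

lemma dl_apply_ne {p q : V × V} (h : q ≠ p) : (dl p : Hd V) q = 0 := by
  classical
  unfold dl
  exact lp.single_apply_ne (E := fun _ : V × V => ℝ) 2 p (1 : ℝ) h

open Classical in
lemma dl_apply (p q : V × V) : (dl p : Hd V) q = if q = p then 1 else 0 := by
  by_cases h : q = p
  · subst h; simp [dl_apply_self]
  · simp [h, dl_apply_ne h]

lemma inner_dl_left (p : V × V) (x : Hd V) : ⟪dl p, x⟫_ℝ = x p := by
  classical
  unfold dl
  rw [lp.inner_single_left]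
  simp

lemma inner_dl_right (p : V × V) (x : Hd V) : ⟪x, dl p⟫_ℝ = x p := by
  rw [real_inner_comm, inner_dl_left]

lemma norm_dl (p : V × V) : ‖(dl p : Hd V)‖ = 1 := by
  classical
  unfold dl
  rw [lp.norm_single (by norm_num)]
  simp

lemma norm_sq_eq_tsum (x : Hd V) : ‖x‖ ^ 2 = ∑' p, (x p) ^ 2 := by
  rw [← real_inner_self_eq_norm_sq, lp.inner_eq_tsum]
  congr 1
  funext p
  simp [sq]

lemma summable_sq (x : Hd V) : Summable fun p => (x p) ^ 2 := by
  have h := lp.summable_inner (𝕜 := ℝ) x x
  simpa [sq] using h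

lemma hasSum_inner' (x y : Hd V) : HasSum (fun p => x p * y p) ⟪x, y⟫_ℝ := by
  have h := lp.hasSum_inner (𝕜 := ℝ) x y
  have h2 : (fun i => ⟪x i, y i⟫_ℝ) = fun i => x i * y i := by
    funext i
    simp [mul_comm]
  rwa [h2] at h

lemma memlp_of_summable {f : V × V → ℝ} (h : Summable fun p => (f p) ^ 2) :
    Memℓp (E := fun _ : V × V => ℝ) f 2 := by
  apply memℓp_gen
  simpa using h

/-- Build an element of `Hd V`. -/
noncomputable def mkHd (f : V × V → ℝ) (h : Summable fun p => (f p) ^ 2) : Hd V :=
  ⟨f, memlp_of_summable h⟩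

@[simp] lemma mkHd_apply (f : V × V → ℝ) (h : Summable fun p => (f p) ^ 2) (p : V × V) :
    mkHd f h p = f p := rfl

open Classical in
lemma summable_restr (S : Set (V × V)) (x : Hd V) :
    Summable fun p => (if p ∈ S then x p else 0) ^ 2 := by
  refine Summable.of_nonneg_of_le (fun p => sq_nonneg _) (fun p => ?_) (summable_sq x)
  by_cases hp : p ∈ S
  · simp [hp]
  · simp [hp, sq_nonneg]

open Classical in
/-- Restriction to a set of ordered pairs, as a continuous linear map. -/
noncomputable def restr (S : Set (V × V)) : Hd V →L[ℝ] Hd V :=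
  LinearMap.mkContinuous
    { toFun := fun x => mkHd (fun p => if p ∈ S then x p else 0) (summable_restr S x)
      map_add' := by
        intro x y
        ext p
        by_cases hp : p ∈ S <;> simp [hp]
      map_smul' := by
        intro c x
        ext p
        by_cases hp : p ∈ S <;> simp [hp] } 1 (by
      intro x
      rw [one_mul]
      refine le_of_sq_le_sq ?_ (norm_nonneg _)
      rw [norm_sq_eq_tsum, norm_sq_eq_tsum]
      refine (summable_restr S x).tsum_le_tsum (fun p => ?_) (summable_sq x)
      by_cases hp : p ∈ S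
      · simp [hp]
      · simp [hp, sq_nonneg])

open Classical in
lemma restr_apply (S : Set (V × V)) (x : Hd V) (p : V × V) :
    restr S x p = if p ∈ S then x p else 0 := rfl

lemma restr_apply_mem {S : Set (V × V)} {p : V × V} (hp : p ∈ S) (x : Hd V) :
    restr S x p = x p := by simp [restr_apply, hp]

lemma restr_apply_notMem {S : Set (V × V)} {p : V × V} (hp : p ∉ S) (x : Hd V) :
    restr S x p = 0 := by simp [restr_apply, hp]

lemma restr_inner (S : Set (V × V)) (x y : Hd V) : ⟪restr S x, y⟫_ℝ = ⟪x, restr S y⟫_ℝ := by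
  have h1 := hasSum_inner' (restr S x) y
  have h2 := hasSum_inner' x (restr S y)
  have : (fun p => restr S x p * y p) = fun p => x p * restr S y p := by
    funext p
    by_cases hp : p ∈ S <;> simp [restr_apply, hp]
  rw [this] at h1
  exact h1.unique h2

lemma norm_restr_le (S : Set (V × V)) (x : Hd V) : ‖restr S x‖ ≤ ‖x‖ := by
  classical
  refine le_of_sq_le_sq ?_ (norm_nonneg _)
  rw [norm_sq_eq_tsum, norm_sq_eq_tsum]
  refine (summable_sq _).tsum_le_tsum (fun p => ?_) (summable_sq x)
  by_cases hp : p ∈ S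
  · simp [restr_apply, hp]
  · simp [restr_apply, hp, sq_nonneg]

lemma tsum_reidx (τ : V × V ≃ V × V) (x : Hd V) : ∑' p, (x (τ p)) ^ 2 = ∑' p, (x p) ^ 2 :=
  τ.tsum_eq (fun p => (x p) ^ 2)

/-- Reindexing as a linear isometry. -/
noncomputable def reidx (τ : V × V ≃ V × V) : Hd V ≃ₗᵢ[ℝ] Hd V where
  toFun := fun x => mkHd (fun p => x (τ.symm p))
    ((τ.symm.summable_iff (f := fun p => (x p) ^ 2)).2 (summable_sq x))
  invFun := fun x => mkHd (fun p => x (τ p))
    ((τ.summable_iff (f := fun p => (x p) ^ 2)).2 (summable_sq x))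
  left_inv := by
    intro x; ext p; simp
  right_inv := by
    intro x; ext p; simp
  map_add' := by
    intro x y; ext p; simp
  map_smul' := by
    intro c x; ext p; simp
  norm_map' := by
    intro x
    have h : ‖mkHd (fun p => x (τ.symm p))
        ((τ.symm.summable_iff (f := fun p => (x p) ^ 2)).2 (summable_sq x))‖ ^ 2 = ‖x‖ ^ 2 := by
      rw [norm_sq_eq_tsum, norm_sq_eq_tsum, ← tsum_reidx τ.symm x]
      rfl
    exact (sq_eq_sq₀ (norm_nonneg _) (norm_nonneg _)).1 h

@[simp] lemma reidx_apply (τ : V × V ≃ V × V) (x : Hd V) (p : V × V) :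
    reidx τ x p = x (τ.symm p) := rfl

lemma reidx_dl (τ : V × V ≃ V × V) (p : V × V) : reidx τ (dl p) = dl (τ p) := by
  classical
  ext q
  rw [reidx_apply, dl_apply, dl_apply]
  by_cases h : q = τ p
  · simp [h]
  · have : τ.symm q ≠ p := by
      intro h2; apply h; rw [← h2]; simp
    simp [h, this]

/-- The isometry of `Hd V` induced by a permutation of the vertices. -/
noncomputable def permL (σ : Equiv.Perm V) : Hd V ≃ₗᵢ[ℝ] Hd V := reidx (Equiv.prodCongr σ σ)

@[simp] lemma permL_apply (σ : Equiv.Perm V) (x : Hd V) (u v : V) :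
    permL σ x (u, v) = x (σ.symm u, σ.symm v) := rfl

lemma permL_dl (σ : Equiv.Perm V) (u v : V) : permL σ (dl (u, v)) = dl (σ u, σ v) :=
  reidx_dl _ _

/-- Two elements are equal if all coordinates agree. -/
lemma hd_ext {x y : Hd V} (h : ∀ u v, x (u, v) = y (u, v)) : x = y := by
  ext ⟨u, v⟩
  exact h u v

end Vale.Agent.P143
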