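import Mathlib

set_option autoImplicit false

namespace Vale.Agent.P143

open MeasureTheory Set Filter Topology

universe u

/-- `T` is the edge set of a spanning tree of the subgraph `H` of `G`. -/
def IsSpanningTreeOf {V : Type u} {G : SimpleGraph V} (H : G.Subgraph) (T : Set (Sym2 V)) :
    Prop :=
  T ⊆ H.edgeSet ∧ ((SimpleGraph.fromEdgeSet T).induce H.verts).IsTree

/-- The probability that the uniformly random spanning tree of `H`, as an edge set, meets the
edge set `F` exactly in `K`. -/
noncomputable def ustProb {V : Type u} {G : SimpleGraph V} (H : G.Subgraph)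
    (F K : Set (Sym2 V)) : ℝ :=
  ({T | IsSpanningTreeOf H T ∧ T ∩ F = K}.ncard : ℝ) / {T | IsSpanningTreeOf H T}.ncard

/-- `H 0 ⊆ H 1 ⊆ ...` are finite connected subgraphs of `G` with union `G`. -/
structure IsExhaustion {V : Type u} (G : SimpleGraph V) (H : ℕ → G.Subgraph) : Prop where
  mono : Monotone H
  finite_verts : ∀ n, (H n).verts.Finite
  connected : ∀ n, (H n).Connected
  iSup_eq : ⨆ n, H n = ⊤

/-- `μ` is the law of the free uniform spanning forest of `G`: the weak limit of the uniform
spanning trees of the members of any exhaustion of `G`. -/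
structure IsFUSF {V : Type u} (G : SimpleGraph V) (μ : Measure (Set (Sym2 V))) : Prop where
  isProbabilityMeasure : IsProbabilityMeasure μ
  exists_exhaustion : ∃ H : ℕ → G.Subgraph, IsExhaustion G H
  tendsto : ∀ H : ℕ → G.Subgraph, IsExhaustion G H → ∀ F K : Set (Sym2 V), F.Finite →
    Tendsto (fun n => ustProb (H n) F K) atTop (𝓝 (μ.real {ω | ω ∩ F = K}))

/-- The law of i.i.d. uniform labels on `[0,1]`, indexed by `V`. -/
noncomputable def iidUniform (V : Type u) : Measure (V → unitInterval) :=
  Measure.infinitePi fun _ : V => (volume : Measure unitInterval)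

/-- The law `μ` of a random edge set on the group `Γ` is a factor of i.i.d. for left
translations. -/
def IsGroupFactorOfIID {Γ : Type u} [Group Γ] (μ : Measure (Set (Sym2 Γ))) : Prop :=
  ∃ Φ : (Γ → unitInterval) → Set (Sym2 Γ), Measurable Φ ∧
    (∀ (γ : Γ) (U : Γ → unitInterval),
      Φ (fun x => U (γ⁻¹ * x)) = Sym2.map (fun x => γ * x) '' Φ U) ∧
    (iidUniform Γ).map Φ = μ

/-- A measurable rule `Φ(G, U, e)` which depends only on the isomorphism class of the labelled
graph `(G, U)` with distinguished pair `e`. -/
structure IsGraphRule {V : Type u} (Φ : SimpleGraph V → (V → unitInterval) → Sym2 V → Prop) :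
    Prop where
  measurable : ∀ e : Sym2 V,
    MeasurableSet {p : SimpleGraph V × (V → unitInterval) | Φ p.1 p.2 e}
  invariant : ∀ (G G' : SimpleGraph V) (φ : G ≃g G') (U : V → unitInterval) (e : Sym2 V),
    Φ G' U (e.map φ) ↔ Φ G (U ∘ φ) e

/-- The random rooted graph with law `ρ` is unimodular: the mass transport principle holds for
every nonnegative measurable isomorphism invariant function of graphs with two distinguished
vertices. -/
def IsUnimodular {V : Type u} [MeasurableSpace V] (ρ : Measure (SimpleGraph V × V)) : Prop :=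
  ∀ f : SimpleGraph V → V → V → ENNReal,
    (∀ u v, Measurable fun G => f G u v) →
    (∀ (G G' : SimpleGraph V) (φ : G ≃g G') (u v : V), f G' (φ u) (φ v) = f G u v) →
    ∫⁻ p, ∑' v, f p.1 p.2 v ∂ρ = ∫⁻ p, ∑' v, f p.1 v p.2 ∂ρ

/-- All vertices of `G` have finite degree. -/
def LocFin {V : Type u} (G : SimpleGraph V) : Prop := ∀ v, (G.neighborSet v).Finite

end Vale.Agent.P143
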