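import Vale.Agent.P143.EnvM

set_option autoImplicit false
set_option linter.unusedSectionVars false

namespace Vale.Agent.P143

open Filter Topology Set MeasureTheory

universe u w

variable {V : Type u}

/-- edges of batch at most `k` -/
def Sle (n k : ℕ) (ω : Env V) : Set (Sym2 V) := {f | batch ω.1 n ω.2 f ≤ k}

/-- undetermined edges of batch less than `k` -/
def Und (n k : ℕ) (ω : Env V) : Set (Sym2 V) :=
  ((ω.1.edgeSet ∩ {f | batch ω.1 n ω.2 f < k}) \ (st n ω k).1) \ (st n ω k).2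

/-- edges of batch `k` -/
def Ck (n k : ℕ) (ω : Env V) : Set (Sym2 V) := ω.1.edgeSet ∩ {f | batch ω.1 n ω.2 f = k}

/-- edges of batch `k` which stay undetermined -/
def Nk (n k : ℕ) (ω : Env V) : Set (Sym2 V) :=
  (Ck n k ω \ (st n ω (k + 1)).1) \ (st n ω (k + 1)).2

/-- lower threshold at stage `k` -/
noncomputable def lowv (n k : ℕ) (ω : Env V) (e : Sym2 V) : ℝ :=
  lo ω.1 ((Sle n k ω \ (st n ω k).2) \ {e}) (st n ω k).2 e

/-- upper threshold at stage `k` -/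
noncomputable def highv (n k : ℕ) (ω : Env V) (e : Sym2 V) : ℝ :=
  hi ω.1 (st n ω k).1 ((Sle n k ω \ (st n ω k).1) \ {e}) e

lemma st_subset (n k : ℕ) (ω : Env V) :
    (st n ω k).1 ⊆ {f | batch ω.1 n ω.2 f < k} ∧ (st n ω k).2 ⊆ {f | batch ω.1 n ω.2 f < k} :=
  stat_subset k

lemma st_mono (n : ℕ) (ω : Env V) {k l : ℕ} (h : k ≤ l) :
    (st n ω k).1 ⊆ (st n ω l).1 ∧ (st n ω k).2 ⊆ (st n ω l).2 := stat_mono h

lemma lo_mono' (G : SimpleGraph V) : ∀ A A' B B' : Set (Sym2 V), ∀ e, A ⊆ A' → B' ⊆ B →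
    e ∉ A' → e ∉ B → lo G A' B' e ≤ lo G A B e := fun _ _ _ _ _ h1 h2 h3 h4 =>
  lo_mono G h1 h2 h3 h4

lemma hi_mono' (G : SimpleGraph V) : ∀ A A' B B' : Set (Sym2 V), ∀ e, A ⊆ A' → B' ⊆ B →
    e ∉ A' → e ∉ B → hi G A' B' e ≤ hi G A B e := fun _ _ _ _ _ h1 h2 h3 h4 =>
  hi_mono G h1 h2 h3 h4

lemma st_disjoint (n k : ℕ) (ω : Env V) : Disjoint (st n ω k).1 (st n ω k).2 :=
  stat_disjoint (lo_mono' ω.1) (hi_mono' ω.1) (lo_le_hi ω.1) k

lemma st_refine (n k : ℕ) (ω : Env V) :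
    (st n ω k).1 ⊆ (st (n + 1) ω (2 * k)).1 ∧ (st n ω k).2 ⊆ (st (n + 1) ω (2 * k)).2 :=
  stat_refine (lo_mono' ω.1) (hi_mono' ω.1) (lo_le_hi ω.1)
    (fun f => batch_succ ω.1 n ω.2 f) k

lemma st_succ_one {n k : ℕ} {ω : Env V} {e : Sym2 V} (he : batch ω.1 n ω.2 e = k) :
    e ∈ (st n ω (k + 1)).1 ↔ thrE ω.2 e < lowv n k ω e := by
  unfold st lowv
  rw [mem_stat_one, he]
  constructor
  · exact fun h => h.2
  · exact fun h => ⟨Nat.lt_succ_self k, h⟩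

lemma st_succ_two {n k : ℕ} {ω : Env V} {e : Sym2 V} (he : batch ω.1 n ω.2 e = k) :
    e ∈ (st n ω (k + 1)).2 ↔ highv n k ω e ≤ thrE ω.2 e := by
  unfold st highv
  rw [mem_stat_two, he]
  constructor
  · exact fun h => h.2
  · exact fun h => ⟨Nat.lt_succ_self k, h⟩

lemma mem_Nk {n k : ℕ} {ω : Env V} {e : Sym2 V} : e ∈ Nk n k ω ↔
    (e ∈ ω.1.edgeSet ∧ batch ω.1 n ω.2 e = k ∧ lowv n k ω e ≤ thrE ω.2 e ∧
      thrE ω.2 e < highv n k ω e) := by
  constructor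
  · rintro ⟨⟨⟨h1, h2⟩, h3⟩, h4⟩
    have h2' : batch ω.1 n ω.2 e = k := h2
    exact ⟨h1, h2', not_lt.1 fun h => h3 ((st_succ_one h2').2 h),
      not_le.1 fun h => h4 ((st_succ_two h2').2 h)⟩
  · rintro ⟨h1, h2, h3, h4⟩
    exact ⟨⟨⟨h1, h2⟩, fun h => (not_lt.2 h3) ((st_succ_one h2).1 h)⟩,
      fun h => (not_le.2 h4) ((st_succ_two h2).1 h)⟩

lemma notMem_st_of_ge {n k : ℕ} {ω : Env V} {e : Sym2 V} (he : k ≤ batch ω.1 n ω.2 e) :
    e ∉ (st n ω k).1 ∧ e ∉ (st n ω k).2 := by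
  have h := st_subset n k ω
  exact ⟨fun h' => absurd (h.1 h') (not_lt.2 he), fun h' => absurd (h.2 h') (not_lt.2 he)⟩

lemma lowv_le_highv {n k : ℕ} {ω : Env V} {e : Sym2 V} (he : k ≤ batch ω.1 n ω.2 e) :
    lowv n k ω e ≤ highv n k ω e := by
  have h := st_subset n k ω
  exact bounds_le (lo_mono' ω.1) (hi_mono' ω.1) (lo_le_hi ω.1) (st_disjoint n k ω)
    (fun f hf => (show batch ω.1 n ω.2 f < k from h.1 hf).le)
    (fun f hf => (show batch ω.1 n ω.2 f < k from h.2 hf).le)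
    (notMem_st_of_ge he).1 (notMem_st_of_ge he).2

lemma lowv_nonneg (n k : ℕ) (ω : Env V) (e : Sym2 V) : 0 ≤ lowv n k ω e := lo_nonneg _ _ _ _

lemma highv_le_one (n k : ℕ) (ω : Env V) (e : Sym2 V) : highv n k ω e ≤ 1 := hi_le_one _ _ _ _

/-- membership in earlier status sets is not changed by later stages -/
lemma st_one_iff {n k l : ℕ} {ω : Env V} {e : Sym2 V} (h : batch ω.1 n ω.2 e < k)
    (hkl : k ≤ l) : e ∈ (st n ω l).1 ↔ e ∈ (st n ω k).1 := by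
  refine ⟨fun h' => ?_, fun h' => (st_mono n ω hkl).1 h'⟩
  unfold st at h' ⊢
  rw [mem_stat_one] at h' ⊢
  exact ⟨h, h'.2⟩

lemma st_two_iff {n k l : ℕ} {ω : Env V} {e : Sym2 V} (h : batch ω.1 n ω.2 e < k)
    (hkl : k ≤ l) : e ∈ (st n ω l).2 ↔ e ∈ (st n ω k).2 := by
  refine ⟨fun h' => ?_, fun h' => (st_mono n ω hkl).2 h'⟩
  unfold st at h' ⊢
  rw [mem_stat_two] at h' ⊢
  exact ⟨h, h'.2⟩

lemma Und_succ (n k : ℕ) (ω : Env V) (e : Sym2 V) :
    ind (Und n (k + 1) ω) e ≤ ind (Und n k ω) e + ind (Nk n k ω) e := by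
  by_cases h : e ∈ Und n (k + 1) ω
  · obtain ⟨⟨⟨h1, h2⟩, h3⟩, h4⟩ := h
    have h2' : batch ω.1 n ω.2 e < k + 1 := h2
    rw [ind_of_mem (S := Und n (k + 1) ω) ⟨⟨⟨h1, h2⟩, h3⟩, h4⟩]
    rcases Nat.lt_succ_iff_lt_or_eq.1 h2' with h5 | h5
    · have h6 : e ∈ Und n k ω := ⟨⟨⟨h1, h5⟩, fun h => h3 ((st_mono n ω (Nat.le_succ k)).1 h)⟩,
        fun h => h4 ((st_mono n ω (Nat.le_succ k)).2 h)⟩
      rw [ind_of_mem h6]
      linarith [ind_nonneg (Nk n k ω) e]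
    · have h6 : e ∈ Nk n k ω := ⟨⟨⟨h1, h5⟩, h3⟩, h4⟩
      rw [ind_of_mem h6]
      linarith [ind_nonneg (Und n k ω) e]
  · rw [ind_of_notMem h]
    exact add_nonneg (ind_nonneg _ _) (ind_nonneg _ _)

/-- dependence of the stage `k` data on the mark of a late edge -/
lemma st_update {n k : ℕ} {G : SimpleGraph V} {m m' : Mk V} {e : Sym2 V}
    (hm : ∀ f, f ≠ e → m f = m' f) (h1 : k ≤ batch G n m e) (h2 : k ≤ batch G n m' e) :
    st n (G, m) k = st n (G, m') k ∧ Sle n k (G, m) \ {e} = Sle n k (G, m') \ {e} := by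
  have hb : ∀ f, f ≠ e → batch G n m f = batch G n m' f := by
    intro f hf
    by_cases hE : f ∈ G.edgeSet
    · rw [batch_of_mem hE, batch_of_mem hE, hm f hf]
    · rw [batch_of_notMem hE, batch_of_notMem hE]
  constructor
  · refine stat_congr k fun f hf => ?_
    have hfe : f ≠ e := by
      rintro rfl
      change batch G n m f < k ∨ batch G n m' f < k at hf
      omega
    exact ⟨hb f hfe, by unfold thrE; simp only; rw [hm f hfe]⟩
  · ext f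
    constructor
    · rintro ⟨h3, h4⟩
      refine ⟨?_, h4⟩
      change batch G n m' f ≤ k
      rw [← hb f h4]; exact h3
    · rintro ⟨h3, h4⟩
      refine ⟨?_, h4⟩
      change batch G n m f ≤ k
      rw [hb f h4]; exact h3

lemma lowv_update {n k : ℕ} {G : SimpleGraph V} {m m' : Mk V} {e : Sym2 V}
    (hm : ∀ f, f ≠ e → m f = m' f) (h1 : k ≤ batch G n m e) (h2 : k ≤ batch G n m' e) :
    lowv n k (G, m) e = lowv n k (G, m') e ∧ highv n k (G, m) e = highv n k (G, m') e := by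
  obtain ⟨h3, h4⟩ := st_update hm h1 h2
  unfold lowv highv
  have h5 : ∀ (S : Set (Sym2 V)) (ω : Env V), (Sle n k ω \ S) \ {e} = (Sle n k ω \ {e}) \ S := by
    intro S ω
    ext f
    constructor
    · rintro ⟨⟨a, b⟩, c⟩; exact ⟨⟨a, c⟩, b⟩
    · rintro ⟨⟨a, b⟩, c⟩; exact ⟨⟨a, c⟩, b⟩
  rw [h5, h5, h5, h5, h3, h4]
  exact ⟨rfl, rfl⟩

/-! ### dyadic positions -/

lemma fl_eq_iff_bounds {n : ℕ} {t : unitInterval} {i : ℕ} (h : fl n t = i) :
    (i : ℝ) / 2 ^ n ≤ t ∧ (t : ℝ) ≤ (i + 1) / 2 ^ n := by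
  have hp : (0 : ℝ) < 2 ^ n := by positivity
  have ht0 : (0 : ℝ) ≤ 2 ^ n * t := mul_nonneg hp.le t.2.1
  unfold fl at h
  have h1 : (i : ℝ) ≤ 2 ^ n * t := by
    have h2 : i ≤ ⌊(2 : ℝ) ^ n * t⌋₊ := by omega
    exact (Nat.le_floor_iff ht0).1 h2
  have h3 : (2 : ℝ) ^ n * t ≤ i + 1 := by
    rcases le_total ⌊(2 : ℝ) ^ n * t⌋₊ (2 ^ n - 1) with h4 | h4
    · rw [min_eq_left h4] at h
      rw [← h]
      exact (Nat.lt_floor_add_one _).le
    · rw [min_eq_right h4] at h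
      have h5 : 0 < 2 ^ n := by positivity
      have h6 : i + 1 = 2 ^ n := by omega
      have h7 : (i : ℝ) + 1 = 2 ^ n := by exact_mod_cast h6
      rw [h7]
      nlinarith [t.2.2]
  constructor
  · rw [div_le_iff₀ hp]; linarith
  · rw [le_div_iff₀ hp]; linarith

lemma fl_ge {n : ℕ} {t : unitInterval} {i : ℕ} (hi : i < 2 ^ n) (h : (i : ℝ) / 2 ^ n ≤ t) :
    i ≤ fl n t := by
  have hp : (0 : ℝ) < 2 ^ n := by positivity
  unfold fl
  rw [div_le_iff₀ hp] at h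
  have h2 : i ≤ ⌊(2 : ℝ) ^ n * t⌋₊ := Nat.le_floor (by linarith)
  omega

lemma fl_le {n : ℕ} {t : unitInterval} {i : ℕ} (h : i ≤ fl n t) : (i : ℝ) / 2 ^ n ≤ t := by
  have h1 := (fl_eq_iff_bounds (n := n) (t := t) rfl).1
  refine le_trans ?_ h1
  gcongr

lemma vol_fl_eq_le (n i : ℕ) :
    (volume : Measure unitInterval) {t | fl n t = i} ≤ ENNReal.ofReal (1 / 2 ^ n) := by
  have hp : (0 : ℝ) < 2 ^ n := by positivity
  by_cases hi : i < 2 ^ n
  · have hi' : (i : ℝ) + 1 ≤ 2 ^ n := by exact_mod_cast hi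
    have ha : (i : ℝ) / 2 ^ n ∈ Set.Icc (0 : ℝ) 1 :=
      ⟨by positivity, by rw [div_le_one hp]; linarith⟩
    have hb : ((i : ℝ) + 1) / 2 ^ n ∈ Set.Icc (0 : ℝ) 1 :=
      ⟨by positivity, by rw [div_le_one hp]; linarith⟩
    have hsub : {t : unitInterval | fl n t = i}
        ⊆ Icc (⟨_, ha⟩ : unitInterval) ⟨_, hb⟩ := by
      intro t ht
      have h := fl_eq_iff_bounds (show fl n t = i from ht)
      exact ⟨h.1, h.2⟩
    refine (measure_mono hsub).trans ?_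
    rw [unitInterval.volume_Icc]
    refine ENNReal.ofReal_le_ofReal ?_
    simp only
    rw [← sub_div]
    ring_nf
    exact le_rfl
  · have h0 : {t : unitInterval | fl n t = i} = ∅ := by
      ext t
      simp only [mem_ofPred_eq, mem_empty_iff_false, iff_false]
      have := fl_lt n t
      omega
    rw [h0]; simp

lemma vol_fl_ge_le {n i : ℕ} (hi : i ≤ 2 ^ n) :
    (volume : Measure unitInterval) {t | i ≤ fl n t}
      ≤ ENNReal.ofReal (1 - (i : ℝ) / 2 ^ n) := by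
  have hp : (0 : ℝ) < 2 ^ n := by positivity
  have hi' : (i : ℝ) ≤ 2 ^ n := by exact_mod_cast hi
  have ha : (i : ℝ) / 2 ^ n ∈ Set.Icc (0 : ℝ) 1 :=
    ⟨by positivity, by rw [div_le_one hp]; linarith⟩
  have hsub : {t : unitInterval | i ≤ fl n t} ⊆ Ici (⟨_, ha⟩ : unitInterval) := by
    intro t ht
    exact fl_le ht
  refine (measure_mono hsub).trans ?_
  rw [unitInterval.volume_Ici]

lemma le_vol_fl_gt {n i : ℕ} :
    ENNReal.ofReal (((2 : ℝ) ^ n - 1 - i) / 2 ^ n)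
      ≤ (volume : Measure unitInterval) {t | i < fl n t} := by
  have hp : (0 : ℝ) < 2 ^ n := by positivity
  by_cases hi : i + 1 < 2 ^ n
  · have hi' : (i : ℝ) + 1 ≤ 2 ^ n := by exact_mod_cast hi.le
    have ha : ((i + 1 : ℕ) : ℝ) / 2 ^ n ∈ Set.Icc (0 : ℝ) 1 :=
      ⟨by positivity, by rw [div_le_one hp]; push_cast; linarith⟩
    have hsub : Ici (⟨_, ha⟩ : unitInterval) ⊆ {t : unitInterval | i < fl n t} := by
      intro t ht
      exact fl_ge hi ht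
    refine le_trans ?_ (measure_mono hsub)
    rw [unitInterval.volume_Ici]
    refine ENNReal.ofReal_le_ofReal ?_
    simp only
    push_cast
    rw [sub_sub, sub_div, div_self hp.ne', add_comm]
  · have h1 : (2 : ℝ) ^ n ≤ i + 1 := by exact_mod_cast (not_lt.1 hi)
    have h2 : ((2 : ℝ) ^ n - 1 - i) / 2 ^ n ≤ 0 :=
      div_nonpos_of_nonpos_of_nonneg (by linarith) hp.le
    rw [ENNReal.ofReal_of_nonpos h2]
    exact zero_le

end Vale.Agent.P143
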