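import Vale.Agent.P143.Trace

set_option autoImplicit false
set_option linter.unusedSectionVars false

namespace Vale.Agent.P143

open Filter Topology Set MeasureTheory
open scoped InnerProductSpace

universe u w

section det

variable {H : Type u} [NormedAddCommGroup H] [InnerProductSpace ℝ H] [CompleteSpace H]

lemma proj_orthogonal (K : Submodule ℝ H) (x : H) : proj Kᗮ x = x - proj K x := by
  refine proj_unique ?_ ?_
  · exact Submodule.le_topologicalClosure _ (sub_proj_mem_orthogonal K x)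
  · rw [sub_sub_cancel]
    have h := Submodule.le_orthogonal_orthogonal K.topologicalClosure (proj_mem_closure K x)
    rwa [orthogonal_closure] at h

lemma star_eq (T : H →L[ℝ] H) : star T = ContinuousLinearMap.adjoint T := rfl

/-- the sum of the first powers -/
noncomputable def geo (C : H →L[ℝ] H) (n : ℕ) : H →L[ℝ] H := ∑ j ∈ Finset.range n, C ^ j

lemma geo_identity (c : ℝ) (hc : c ≠ 0) (S : H →L[ℝ] H) (n : ℕ) (x : H) :
    c ^ 2 * 4 * (‖x‖ ^ 2 - ⟪(contr c S ^ n) x, x⟫_ℝ) + ‖(S * (geo (contr c S) n - 1)) x‖ ^ 2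
      = ‖(S * (geo (contr c S) n + 1)) x‖ ^ 2 := by
  have hcomm : Commute (contr c S) (geo (contr c S) n) := by
    unfold geo
    exact Commute.sum_right _ _ _ fun j _ => (Commute.refl _).pow_right j
  have h1 : (geo (contr c S) n) * (contr c S - 1) = contr c S ^ n - 1 := by
    unfold geo
    exact geom_sum_mul _ _
  have h1' : (contr c S - 1) * (geo (contr c S) n) = contr c S ^ n - 1 := by
    unfold geo
    exact mul_geom_sum _ _
  have h2 : ‖x‖ ^ 2 - ⟪(contr c S ^ n) x, x⟫_ℝ
      = c⁻¹ ^ 2 * ⟪S (geo (contr c S) n x), S x⟫_ℝ := by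
    have h3 : x - (contr c S ^ n) x
        = (c⁻¹ ^ 2) • (ContinuousLinearMap.adjoint S (S (geo (contr c S) n x))) := by
      have h4 : x - (contr c S ^ n) x = - ((contr c S ^ n - 1) x) := by
        simp
      rw [h4, ← h1', cmul_apply]
      have h5 : (contr c S - 1) ((geo (contr c S) n) x)
          = contr c S (geo (contr c S) n x) - geo (contr c S) n x := rfl
      rw [h5, contr_apply]
      abel
    rw [← real_inner_self_eq_norm_sq, ← inner_sub_left, h3, inner_smul_left,
      ContinuousLinearMap.adjoint_inner_left]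
    simp
  rw [h2]
  have h6 : (S * (geo (contr c S) n - 1)) x = S (geo (contr c S) n x) - S x := by
    simp
  have h7 : (S * (geo (contr c S) n + 1)) x = S (geo (contr c S) n x) + S x := by
    simp
  rw [h6, h7, @norm_sub_sq_real, @norm_add_sq_real]
  field_simp
  ring

lemma contr_star (c : ℝ) (S : H →L[ℝ] H) : star (contr c S) = contr c S := by
  rw [star_eq]
  refine ContinuousLinearMap.ext fun x => ext_inner_right ℝ fun y => ?_
  rw [ContinuousLinearMap.adjoint_inner_left, contr_sym]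

lemma geo_star (c : ℝ) (S : H →L[ℝ] H) (n : ℕ) :
    star (geo (contr c S) n) = geo (contr c S) n := by
  unfold geo
  rw [star_sum]
  refine Finset.sum_congr rfl fun j _ => ?_
  rw [star_pow, contr_star]

lemma semiconj_contr (c : ℝ) (S : H →L[ℝ] H) :
    star S * contr c (star S) = contr c S * star S := by
  unfold contr
  rw [← star_eq, ← star_eq, star_star]
  simp [mul_sub, sub_mul, mul_assoc]

lemma semiconj_geo (c : ℝ) (S : H →L[ℝ] H) (n : ℕ) :
    star S * geo (contr c (star S)) n = geo (contr c S) n * star S := by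
  unfold geo
  rw [Finset.mul_sum, Finset.sum_mul]
  refine Finset.sum_congr rfl fun j _ => ?_
  have h : SemiconjBy (star S) (contr c (star S)) (contr c S) := semiconj_contr c S
  exact (h.pow_right j).eq

lemma star_mul_geo_sub (c : ℝ) (S : H →L[ℝ] H) (n : ℕ) :
    star (S * (geo (contr c S) n - 1)) = star S * (geo (contr c (star S)) n - 1) := by
  rw [star_mul, star_sub, geo_star, star_one, mul_sub, semiconj_geo, sub_mul, one_mul, mul_one]

lemma star_mul_geo_add (c : ℝ) (S : H →L[ℝ] H) (n : ℕ) :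
    star (S * (geo (contr c S) n + 1)) = star S * (geo (contr c (star S)) n + 1) := by
  rw [star_mul, star_add, geo_star, star_one, mul_add, semiconj_geo, add_mul, one_mul, mul_one]

lemma norm_contr_pow_le {c : ℝ} (hc : 0 < c) {S : H →L[ℝ] H} (hS : ∀ x, ‖S x‖ ≤ c * ‖x‖)
    (n : ℕ) (x : H) : ‖(contr c S ^ n) x‖ ≤ ‖x‖ := by
  induction n with
  | zero => simp
  | succ n ih =>
    rw [pow_succ', cmul_apply]
    exact (norm_contr_le hc hS _).trans ih

lemma norm_geo_le {c : ℝ} (hc : 0 < c) {S : H →L[ℝ] H} (hS : ∀ x, ‖S x‖ ≤ c * ‖x‖)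
    (n : ℕ) (x : H) : ‖geo (contr c S) n x‖ ≤ n * ‖x‖ := by
  unfold geo
  have h0 : (∑ j ∈ Finset.range n, contr c S ^ j) x
      = ∑ j ∈ Finset.range n, (contr c S ^ j) x := by
    simp
  rw [h0]
  calc ‖∑ j ∈ Finset.range n, (contr c S ^ j) x‖
      ≤ ∑ j ∈ Finset.range n, ‖(contr c S ^ j) x‖ := norm_sum_le _ _
    _ ≤ ∑ j ∈ Finset.range n, ‖x‖ := Finset.sum_le_sum fun j _ => norm_contr_pow_le hc hS j x
    _ = n * ‖x‖ := by simp

lemma contr_pow_inner (c : ℝ) (S : H →L[ℝ] H) (n : ℕ) (x y : H) :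
    ⟪(contr c S ^ n) x, y⟫_ℝ = ⟪x, (contr c S ^ n) y⟫_ℝ := by
  induction n generalizing x y with
  | zero => simp
  | succ n ih =>
    rw [pow_succ', cmul_apply, contr_sym, ih]
    rw [← cmul_apply, ← pow_succ]
    rw [pow_succ']

lemma contr_even (c : ℝ) (S : H →L[ℝ] H) (n : ℕ) (x : H) :
    ⟪(contr c S ^ (2 * n)) x, x⟫_ℝ = ‖(contr c S ^ n) x‖ ^ 2 := by
  rw [two_mul, pow_add, cmul_apply, contr_pow_inner, real_inner_self_eq_norm_sq]

/-- lower bound for powers of `1 - c⁻² S S*` when the range of `S` is contained in `N`. -/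
lemma contr_range_bound {c : ℝ} {S : H →L[ℝ] H} {N : Submodule ℝ H}
    (hN : ∀ x, S x ∈ N.topologicalClosure) (n : ℕ) (x : H) :
    ‖x‖ ^ 2 - ⟪(contr c (star S) ^ (2 * n)) x, x⟫_ℝ ≤ ‖proj N x‖ ^ 2 := by
  set d := x - proj N x with hd
  have hd0 : star S d = 0 := by
    rw [star_eq]
    refine ext_inner_right ℝ fun y => ?_
    rw [ContinuousLinearMap.adjoint_inner_left, inner_zero_left]
    exact inner_eq_zero_of_mem_closure (hN y) (sub_proj_mem_orthogonal N x)
  have hfix : ∀ n : ℕ, (contr c (star S) ^ n) d = d := by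
    intro n
    induction n with
    | zero => simp
    | succ n ih =>
      rw [pow_succ', cmul_apply, ih, contr_apply, hd0]
      simp
  have h1 : ⟪(contr c (star S) ^ n) x, d⟫_ℝ = ‖d‖ ^ 2 := by
    rw [contr_pow_inner, hfix]
    have h2 : ⟪x, d⟫_ℝ = ⟪proj N x, d⟫_ℝ + ⟪d, d⟫_ℝ := by
      rw [← inner_add_left, hd]; simp
    have h3 : ⟪proj N x, d⟫_ℝ = 0 := by
      rw [real_inner_comm]
      exact inner_eq_zero_of_mem_closure (proj_mem_closure N x) (sub_proj_mem_orthogonal N x)
    rw [h2, h3, zero_add, real_inner_self_eq_norm_sq]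
  have h4 : ‖d‖ ≤ ‖(contr c (star S) ^ n) x‖ := by
    rcases eq_or_lt_of_le (norm_nonneg d) with h0 | h0
    · rw [← h0]; exact norm_nonneg _
    · have h5 : ‖d‖ * ‖d‖ ≤ ‖(contr c (star S) ^ n) x‖ * ‖d‖ := by
        calc ‖d‖ * ‖d‖ = ⟪(contr c (star S) ^ n) x, d⟫_ℝ := by rw [h1]; ring
          _ ≤ _ := real_inner_le_norm _ _
      exact le_of_mul_le_mul_right h5 h0
  rw [contr_even]
  have h6 : ‖d‖ ^ 2 ≤ ‖(contr c (star S) ^ n) x‖ ^ 2 := pow_le_pow_left₀ (norm_nonneg _) h4 2
  have h7 := norm_sq_proj_add N x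
  rw [← hd] at h7
  linarith

end det

variable {V : Type u} [Countable V] {Ω : Type w} [MeasurableSpace Ω]
  {act : Equiv.Perm V → Ω → Ω}

lemma Adm.contr {T : Ω → Hd V →L[ℝ] Hd V} (hT : Adm act T) (c : ℝ) :
    Adm act (fun ω => contr c (T ω)) := by
  unfold Vale.Agent.P143.contr
  exact Adm.one.sub ((hT.adjoint.mul hT).smul _)

lemma Adm.geo {T : Ω → Hd V →L[ℝ] Hd V} (hT : Adm act T) (n : ℕ) :
    Adm act (fun ω => geo (T ω) n) := by
  unfold Vale.Agent.P143.geo
  exact Adm.finsum _ fun j => hT.pow j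

/-- Kernel projections of uniformly bounded random operators are random operators. -/
lemma Adm.ker {T : Ω → Hd V →L[ℝ] Hd V} (hT : Adm act T) {c : ℝ} (hc : 0 < c)
    (hb : ∀ ω x, ‖T ω x‖ ≤ c * ‖x‖) {K : Ω → Submodule ℝ (Hd V)}
    (hK : ∀ ω x, x ∈ K ω ↔ T ω x = 0) : Adm act (fun ω => proj (K ω)) :=
  Adm.lim (T := fun n ω => Vale.Agent.P143.contr c (T ω) ^ (2 * n))
    (fun n => (hT.contr c).pow (2 * n)) fun ω x => tendsto_contr hc (hb ω) (hK ω) x

lemma Adm.compl {K : Ω → Submodule ℝ (Hd V)} (hK : Adm act (fun ω => proj (K ω))) :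
    Adm act (fun ω => proj (K ω)ᗮ) := by
  have h : (fun ω => proj (K ω)ᗮ) = fun ω => 1 - proj (K ω) := by
    funext ω
    ext1 x
    rw [proj_orthogonal]
    rfl
  rw [h]
  exact Adm.one.sub hK

variable [MeasurableSpace V] [MeasurableSingletonClass V] {P : Measure (Ω × V)}

/-- If a uniformly bounded random operator maps `M` injectively into `N`, the trace of `M` is at
most the trace of `N`. -/
theorem dim_le (hP : MTP act P) {M N : Ω → Submodule ℝ (Hd V)}
    (hM : Adm act (fun ω => proj (M ω))) {T : Ω → Hd V →L[ℝ] Hd V}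
    (hN : Adm act (fun ω => proj (N ω)))
    (hT : Adm act T) {c : ℝ} (hc : 0 < c) (hb : ∀ ω x, ‖T ω x‖ ≤ c * ‖x‖)
    (hmap : ∀ ω, ∀ x ∈ (M ω).topologicalClosure, T ω x ∈ (N ω).topologicalClosure)
    (hinj : ∀ ω, ∀ x ∈ (M ω).topologicalClosure, T ω x = 0 → x = 0) :
    hs P (fun ω => proj (M ω)) ≤ hs P (fun ω => proj (N ω)) := by
  by_cases hfin : hs P (fun ω => proj (N ω)) = ⊤
  · rw [hfin]; exact le_top
  set S : Ω → Hd V →L[ℝ] Hd V := fun ω => T ω * proj (M ω) with hSdef
  have hS : Adm act S := hT.mul hM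
  have hSN : ∀ ω x, S ω x ∈ (N ω).topologicalClosure := fun ω x =>
    hmap ω _ (proj_mem_closure _ _)
  have hSb : ∀ ω x, ‖S ω x‖ ≤ c * ‖x‖ := fun ω x =>
    (hb ω _).trans (mul_le_mul_of_nonneg_left (norm_proj_le _ _) hc.le)
  have hSsb : ∀ ω x, ‖(star (S ω)) x‖ ≤ c * ‖x‖ := fun ω x => norm_adjoint_le hc.le (hSb ω) x
  have hker : ∀ ω x, x ∈ (M ω)ᗮ ↔ S ω x = 0 := by
    intro ω x
    constructor
    · intro h
      simp only [hSdef, cmul_apply, proj_eq_zero h, map_zero]
    · intro h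
      exact proj_eq_zero_iff.1 (hinj ω _ (proj_mem_closure _ _) h)
  have hSst : Adm act (fun ω => star (S ω)) := hS.adjoint
  -- Hilbert-Schmidt bound of `S*`
  have hSs : hs P (fun ω => star (S ω)) ≤ ENNReal.ofReal (c ^ 2) * hs P (fun ω => proj (N ω)) := by
    unfold hs
    rw [← tr_const_mul (by positivity) (fun p => meas_norm_sq hN p)]
    refine tr_mono fun ω p => ?_
    have h1 : star (S ω) (dl p) = star (S ω) (proj (N ω) (dl p)) := by
      have h0 : star (S ω) (dl p - proj (N ω) (dl p)) = 0 := by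
        rw [star_eq]
        refine ext_inner_right ℝ fun y => ?_
        rw [ContinuousLinearMap.adjoint_inner_left, inner_zero_left]
        exact inner_eq_zero_of_mem_closure (hSN ω y) (sub_proj_mem_orthogonal (N ω) _)
      rw [map_sub] at h0
      exact sub_eq_zero.1 h0
    rw [h1, ← mul_pow]
    exact pow_le_pow_left₀ (norm_nonneg _) (hSsb ω _) 2
  have hSsfin : hs P (fun ω => star (S ω)) ≠ ⊤ :=
    ne_top_of_le_ne_top (ENNReal.mul_ne_top ENNReal.ofReal_ne_top hfin) hSs
  have hn : ∀ n : ℕ, tr P (fun ω p => ‖(dl p : Hd V)‖ ^ 2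
      - ⟪(contr c (S ω) ^ (2 * n)) (dl p), dl p⟫_ℝ) ≤ hs P (fun ω => proj (N ω)) := by
    intro n
    set f : Ω → V × V → ℝ := fun ω p => ‖(dl p : Hd V)‖ ^ 2
      - ⟪(contr c (S ω) ^ (2 * n)) (dl p), dl p⟫_ℝ with hf
    set g : Ω → V × V → ℝ := fun ω p => ‖(dl p : Hd V)‖ ^ 2
      - ⟪(contr c (star (S ω)) ^ (2 * n)) (dl p), dl p⟫_ℝ with hg
    have hf0 : ∀ ω p, 0 ≤ f ω p := by
      intro ω p
      simp only [hf]
      rw [contr_even, sub_nonneg]
      exact pow_le_pow_left₀ (norm_nonneg _) (norm_contr_pow_le hc (hSb ω) n _) 2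
    have hg0 : ∀ ω p, 0 ≤ g ω p := by
      intro ω p
      simp only [hg]
      rw [contr_even, sub_nonneg]
      exact pow_le_pow_left₀ (norm_nonneg _) (norm_contr_pow_le hc (hSsb ω) n _) 2
    have hfm : ∀ p, Measurable fun ω => f ω p := fun p =>
      measurable_const.sub (((hS.contr c).pow (2 * n)).meas _ _)
    have hgm : ∀ p, Measurable fun ω => g ω p := fun p =>
      measurable_const.sub (((hS.adjoint.contr c).pow (2 * n)).meas _ _)
    set a : ENNReal := hs P (fun ω => S ω * (geo (contr c (S ω)) (2 * n) - 1)) with ha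
    set b : ENNReal := hs P (fun ω => S ω * (geo (contr c (S ω)) (2 * n) + 1)) with hb'
    have hAsub : Adm act (fun ω => S ω * (geo (contr c (S ω)) (2 * n) - 1)) :=
      hS.mul (((hS.contr c).geo (2 * n)).sub Adm.one)
    have hAadd : Adm act (fun ω => S ω * (geo (contr c (S ω)) (2 * n) + 1)) :=
      hS.mul (((hS.contr c).geo (2 * n)).add Adm.one)
    have hBsub : Adm act (fun ω => star (S ω) * (geo (contr c (star (S ω))) (2 * n) - 1)) :=
      hS.adjoint.mul (((hS.adjoint.contr c).geo (2 * n)).sub Adm.one)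
    have ha2 : a = hs P (fun ω => star (S ω) * (geo (contr c (star (S ω))) (2 * n) - 1)) := by
      rw [ha, hs_adjoint hP hAsub]
      congr 1
      funext ω
      exact star_mul_geo_sub c (S ω) (2 * n)
    have hb2 : b = hs P (fun ω => star (S ω) * (geo (contr c (star (S ω))) (2 * n) + 1)) := by
      rw [hb', hs_adjoint hP hAadd]
      congr 1
      funext ω
      exact star_mul_geo_add c (S ω) (2 * n)
    have e1 : ENNReal.ofReal (c ^ 2 * 4) * tr P f + a = b := by
      rw [← tr_const_mul (by positivity) hfm, ha, hb']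
      unfold hs
      rw [← tr_add (fun ω p => by have := hf0 ω p; positivity) (fun ω p => by positivity)
        (fun p => (hfm p).const_mul _)]
      refine tr_congr fun ω p => ?_
      simp only [hf]
      exact geo_identity c hc.ne' (S ω) (2 * n) (dl p)
    have e2 : ENNReal.ofReal (c ^ 2 * 4) * tr P g + a = b := by
      rw [← tr_const_mul (by positivity) hgm, ha2, hb2]
      unfold hs
      rw [← tr_add (fun ω p => by have := hg0 ω p; positivity) (fun ω p => by positivity)
        (fun p => (hgm p).const_mul _)]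
      refine tr_congr fun ω p => ?_
      simp only [hg]
      exact geo_identity c hc.ne' (star (S ω)) (2 * n) (dl p)
    have hafin : a ≠ ⊤ := by
      have h1 : a ≤ ENNReal.ofReal ((2 * n + 1) ^ 2) * hs P (fun ω => star (S ω)) := by
        have h2 : ∀ ω, star (S ω) * (geo (contr c (star (S ω))) (2 * n) - 1)
            = (geo (contr c (S ω)) (2 * n) - 1) * star (S ω) := by
          intro ω
          rw [mul_sub, semiconj_geo, sub_mul, one_mul, mul_one]
        rw [ha2]
        unfold hs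
        rw [← tr_const_mul (by positivity) (fun p => meas_norm_sq hSst p)]
        refine tr_mono fun ω p => ?_
        simp only
        rw [h2 ω, cmul_apply, ← mul_pow]
        refine pow_le_pow_left₀ (norm_nonneg _) ?_ 2
        set y := star (S ω) (dl p) with hy
        have h3 : (geo (contr c (S ω)) (2 * n) - 1) y = geo (contr c (S ω)) (2 * n) y - y := rfl
        rw [h3]
        calc ‖geo (contr c (S ω)) (2 * n) y - y‖
            ≤ ‖geo (contr c (S ω)) (2 * n) y‖ + ‖y‖ := norm_sub_le _ _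
          _ ≤ ((2 * n : ℕ) : ℝ) * ‖y‖ + ‖y‖ := by
              gcongr
              exact norm_geo_le hc (hSb ω) _ _
          _ = (2 * n + 1) * ‖y‖ := by push_cast; ring
      exact ne_top_of_le_ne_top (ENNReal.mul_ne_top ENNReal.ofReal_ne_top hSsfin) h1
    have e3 : ENNReal.ofReal (c ^ 2 * 4) * tr P f = ENNReal.ofReal (c ^ 2 * 4) * tr P g := by
      have := e1.trans e2.symm
      exact (ENNReal.add_left_inj hafin).1 this
    have hc4 : ENNReal.ofReal (c ^ 2 * 4) ≠ 0 := by
      rw [Ne, ENNReal.ofReal_eq_zero, not_le]; positivity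
    have e4 : tr P f = tr P g := (ENNReal.mul_right_inj hc4 ENNReal.ofReal_ne_top).1 e3
    rw [e4]
    refine tr_mono fun ω p => ?_
    exact contr_range_bound (hSN ω) n (dl p)
  -- Fatou
  have hlim : ∀ ω p, Tendsto (fun n : ℕ => ‖(dl p : Hd V)‖ ^ 2
      - ⟪(contr c (S ω) ^ (2 * n)) (dl p), dl p⟫_ℝ) atTop (𝓝 (‖proj (M ω) (dl p)‖ ^ 2)) := by
    intro ω p
    have h1 := tendsto_contr hc (hSb ω) (hker ω) (dl p)
    have h2 := tendsto_const_nhds (x := ‖(dl p : Hd V)‖ ^ 2) |>.sub
      (h1.inner (tendsto_const_nhds (x := (dl p : Hd V))))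
    have h3 : ‖(dl p : Hd V)‖ ^ 2 - ⟪proj (M ω)ᗮ (dl p), dl p⟫_ℝ
        = ‖proj (M ω) (dl p)‖ ^ 2 := by
      rw [proj_orthogonal, inner_sub_left, inner_proj_self, real_inner_self_eq_norm_sq]
      ring
    rw [h3] at h2
    exact h2
  calc hs P (fun ω => proj (M ω))
      ≤ ∫⁻ p, liminf (fun n : ℕ => ∑' v, ENNReal.ofReal (‖(dl (p.2, v) : Hd V)‖ ^ 2
      - ⟪(contr c (S p.1) ^ (2 * n)) (dl (p.2, v)), dl (p.2, v)⟫_ℝ)) atTop ∂P := by
        refine lintegral_mono fun p => ?_
        rw [ENNReal.tsum_eq_iSup_sum]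
        refine iSup_le fun s => ?_
        have h1 : Tendsto (fun n : ℕ => ∑ v ∈ s, ENNReal.ofReal (‖(dl (p.2, v) : Hd V)‖ ^ 2
            - ⟪(contr c (S p.1) ^ (2 * n)) (dl (p.2, v)), dl (p.2, v)⟫_ℝ)) atTop
            (𝓝 (∑ v ∈ s, ENNReal.ofReal (‖proj (M p.1) (dl (p.2, v))‖ ^ 2))) :=
          tendsto_finsetSum _ fun v _ =>
            (ENNReal.continuous_ofReal.tendsto _).comp (hlim p.1 (p.2, v))
        rw [← h1.liminf_eq]
        exact liminf_le_liminf (Eventually.of_forall fun n => ENNReal.sum_le_tsum s)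
    _ ≤ liminf (fun n : ℕ => tr P (fun ω p => ‖(dl p : Hd V)‖ ^ 2
      - ⟪(contr c (S ω) ^ (2 * n)) (dl p), dl p⟫_ℝ)) atTop := by
        refine lintegral_liminf_le fun n => ?_
        exact measurable_inner (q := fun ω p => ‖(dl p : Hd V)‖ ^ 2
          - ⟪(contr c (S ω) ^ (2 * n)) (dl p), dl p⟫_ℝ) fun p =>
          measurable_const.sub (((hS.contr c).pow (2 * n)).meas _ _)
    _ ≤ liminf (fun _ : ℕ => hs P (fun ω => proj (N ω))) atTop :=
        liminf_le_liminf (Eventually.of_forall hn)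
    _ = hs P (fun ω => proj (N ω)) := by simp

end Vale.Agent.P143
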