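import Vale.Agent.P143.Alg
import Vale.Agent.P143.Defs

set_option autoImplicit false
set_option linter.unusedSectionVars false

namespace Vale.Agent.P143

open Filter Topology Set MeasureTheory

universe u w

/-- the equivalence of pairs induced by a permutation -/
def sym2Equiv {V : Type u} (σ : Equiv.Perm V) : Sym2 V ≃ Sym2 V where
  toFun := Sym2.map σ
  invFun := Sym2.map σ.symm
  left_inv := fun e => map_map_symm σ e
  right_inv := fun e => by
    have h := map_map_symm σ.symm e
    simpa using h

section gen

variable {ι : Type u} {T : Type w} [MeasurableSpace T] (μ : Measure T) [IsProbabilityMeasure μ]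

lemma map_reindex (τ : ι ≃ ι) :
    (Measure.infinitePi fun _ : ι => μ).map (fun m i => m (τ i))
      = Measure.infinitePi fun _ : ι => μ := by
  classical
  refine Measure.eq_infinitePi _ fun s t ht => ?_
  have hm : Measurable (fun (m : ι → T) i => m (τ i)) :=
    measurable_pi_lambda _ fun i => measurable_pi_apply _
  rw [Measure.map_apply hm (MeasurableSet.pi s.countable_toSet fun _ _ => ht _)]
  have h1 : (fun (m : ι → T) i => m (τ i)) ⁻¹' (Set.pi (s : Set ι) t)
      = Set.pi ((s.map τ.toEmbedding : Finset ι) : Set ι) (fun i => t (τ.symm i)) := by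
    ext m
    simp only [Set.mem_preimage, Set.mem_pi, Finset.mem_coe, Finset.mem_map,
      Equiv.coe_toEmbedding]
    constructor
    · rintro h i ⟨j, hj, rfl⟩
      simpa using h j hj
    · intro h i hi
      simpa using h (τ i) ⟨i, hi, rfl⟩
  rw [h1, Measure.infinitePi_pi _ fun i _ => ht _, Finset.prod_map]
  simp

lemma lintegral_reindex (τ : ι ≃ ι) {f : (ι → T) → ENNReal} (hf : Measurable f) :
    ∫⁻ m, f (fun i => m (τ i)) ∂(Measure.infinitePi fun _ : ι => μ)
      = ∫⁻ m, f m ∂(Measure.infinitePi fun _ : ι => μ) := by
  have hm : Measurable (fun (m : ι → T) i => m (τ i)) :=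
    measurable_pi_lambda _ fun i => measurable_pi_apply _
  conv_rhs => rw [← map_reindex μ τ, lintegral_map hf hm]

open Classical in
/-- change one coordinate -/
noncomputable def upd (m : ι → T) (e : ι) (t : T) : ι → T := Function.update m e t

omit [MeasurableSpace T] in
lemma upd_self (m : ι → T) (e : ι) (t : T) : upd m e t e = t := by
  classical
  unfold upd
  exact Function.update_self _ _ _

omit [MeasurableSpace T] in
lemma upd_ne (m : ι → T) (e : ι) (t : T) {f : ι} (h : f ≠ e) : upd m e t f = m f := by
  classical
  unfold upd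
  exact Function.update_of_ne h _ _

open Classical in
lemma map_update (e : ι) :
    ((Measure.infinitePi fun _ : ι => μ).prod μ).map (fun p => upd p.1 e p.2)
      = Measure.infinitePi fun _ : ι => μ := by
  unfold upd
  refine Measure.eq_infinitePi _ fun s t ht => ?_
  have hm : Measurable (fun p : (ι → T) × T => Function.update p.1 e p.2) := by
    refine measurable_pi_lambda _ fun i => ?_
    by_cases h : i = e
    · subst h; simpa using measurable_snd
    · have h0 : Measurable fun p : (ι → T) × T => p.1 i :=
        (measurable_pi_apply i).comp measurable_fst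
      simpa [h] using h0
  rw [Measure.map_apply hm (MeasurableSet.pi s.countable_toSet fun _ _ => ht _)]
  have h1 : (fun p : (ι → T) × T => Function.update p.1 e p.2) ⁻¹' (Set.pi (s : Set ι) t)
      = (Set.pi ((s.erase e : Finset ι) : Set ι) t) ×ˢ (if e ∈ s then t e else univ) := by
    ext p
    simp only [Set.mem_preimage, Set.mem_pi, Finset.mem_coe, Finset.mem_erase, Set.mem_prod]
    constructor
    · intro h
      refine ⟨fun i hi => ?_, ?_⟩
      · simpa [hi.1] using h i hi.2
      · by_cases he : e ∈ s
        · rw [if_pos he]; simpa using h e he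
        · rw [if_neg he]; trivial
    · rintro ⟨h2, h3⟩ i hi
      by_cases hie : i = e
      · subst hie
        rw [if_pos hi] at h3
        simpa using h3
      · simpa [hie] using h2 i ⟨hie, hi⟩
  rw [h1, Measure.prod_prod, Measure.infinitePi_pi _ fun i _ => ht _]
  by_cases he : e ∈ s
  · rw [if_pos he, Finset.prod_erase_mul _ _ he]
  · rw [if_neg he, measure_univ, mul_one, Finset.erase_eq_of_notMem he]

/-- Resampling one coordinate. -/
lemma lintegral_update (e : ι) {f : (ι → T) → ENNReal} (hf : Measurable f) :
    ∫⁻ m, f m ∂(Measure.infinitePi fun _ : ι => μ)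
      = ∫⁻ m, ∫⁻ t, f (upd m e t) ∂μ ∂(Measure.infinitePi fun _ : ι => μ) := by
  classical
  have hm : Measurable (fun p : (ι → T) × T => upd p.1 e p.2) := by
    refine measurable_pi_lambda _ fun i => ?_
    by_cases h : i = e
    · subst h
      have h0 : (fun p : (ι → T) × T => upd p.1 i p.2 i) = Prod.snd := by
        funext p; rw [upd_self]
      rw [h0]; exact measurable_snd
    · have h0 : (fun p : (ι → T) × T => upd p.1 e p.2 i) = fun p => p.1 i := by
        funext p; rw [upd_ne _ _ _ h]
      rw [h0]; exact (measurable_pi_apply i).comp measurable_fst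
  conv_lhs => rw [← map_update μ e, lintegral_map hf hm]
  exact lintegral_prod (fun p : (ι → T) × T => f (upd p.1 e p.2))
    (hf.comp hm).aemeasurable

end gen

variable {V : Type u}

/-- The law of i.i.d. marks of the pairs. -/
noncomputable def mksM (V : Type u) : Measure (Mk V) :=
  Measure.infinitePi fun _ : Sym2 V => (volume : Measure (unitInterval × unitInterval))

instance : IsProbabilityMeasure (mksM V) := by unfold mksM; infer_instance

variable [MeasurableSpace V]

/-- the rooted environment with i.i.d. marks -/
noncomputable def envP (ρ : Measure (SimpleGraph V × V)) : Measure (Env V × V) :=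
  (ρ.prod (mksM V)).map fun p => ((p.1.1, p.2), p.1.2)

lemma measurable_envmap : Measurable
    (fun p : (SimpleGraph V × V) × Mk V => (((p.1.1, p.2), p.1.2) : Env V × V)) := by
  fun_prop

lemma lintegral_envP (ρ : Measure (SimpleGraph V × V)) [SFinite ρ] {f : Env V × V → ENNReal}
    (hf : Measurable f) :
    ∫⁻ q, f q ∂(envP ρ) = ∫⁻ p, ∫⁻ m, f ((p.1, m), p.2) ∂(mksM V) ∂ρ := by
  unfold envP
  rw [lintegral_map hf measurable_envmap]
  exact lintegral_prod (fun p : (SimpleGraph V × V) × Mk V => f ((p.1.1, p.2), p.1.2))
    (hf.comp measurable_envmap).aemeasurable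

variable [Countable V] [MeasurableSingletonClass V]

/-- Marked unimodular graphs satisfy the mass transport principle. -/
theorem mtp_envP (ρ : Measure (SimpleGraph V × V)) [IsProbabilityMeasure ρ]
    (hρ : IsUnimodular ρ) : MTP (actE (V := V)) (envP ρ) := by
  intro f hfm hfe
  have hm1 : Measurable fun q : Env V × V => ∑' v, f q.1 q.2 v := by
    refine Measurable.ennreal_tsum fun v => ?_
    exact measurable_from_prod_countable_left fun o => hfm o v
  have hm2 : Measurable fun q : Env V × V => ∑' v, f q.1 v q.2 := by
    refine Measurable.ennreal_tsum fun v => ?_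
    exact measurable_from_prod_countable_left fun o => hfm v o
  rw [lintegral_envP ρ hm1, lintegral_envP ρ hm2]
  have h1 : ∀ p : SimpleGraph V × V, ∫⁻ m, ∑' v, f (p.1, m) p.2 v ∂(mksM V)
      = ∑' v, ∫⁻ m, f (p.1, m) p.2 v ∂(mksM V) := fun p =>
    lintegral_tsum fun v => ((hfm p.2 v).comp (measurable_const.prodMk measurable_id)).aemeasurable
  have h2 : ∀ p : SimpleGraph V × V, ∫⁻ m, ∑' v, f (p.1, m) v p.2 ∂(mksM V)
      = ∑' v, ∫⁻ m, f (p.1, m) v p.2 ∂(mksM V) := fun p =>
    lintegral_tsum fun v => ((hfm v p.2).comp (measurable_const.prodMk measurable_id)).aemeasurable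
  rw [lintegral_congr h1, lintegral_congr h2]
  refine hρ (fun G u v => ∫⁻ m, f (G, m) u v ∂(mksM V)) (fun u v => ?_) ?_
  · exact (hfm u v).lintegral_prod_right'
  · intro G G' φ u v
    set σ : Equiv.Perm V := φ.toEquiv with hσ
    have hG : G' = ga σ G := by
      ext a b
      unfold ga
      rw [SimpleGraph.comap_adj]
      have := φ.map_adj_iff (v := σ.symm a) (w := σ.symm b)
      rw [← this]
      have h3 : ∀ x, φ (σ.symm x) = x := fun x => σ.apply_symm_apply x
      rw [h3, h3]
    have h4 : ∀ m : Mk V, f (G', fun e => m (Sym2.map σ.symm e)) (φ u) (φ v) = f (G, m) u v := by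
      intro m
      have h := hfe σ (G, m) u v
      change f (ga σ G, fun e => m (Sym2.map σ.symm e)) (φ u) (φ v) = f (G, m) u v at h
      rwa [← hG] at h
    have h5 : ∫⁻ m, f (G', m) (φ u) (φ v) ∂(mksM V)
        = ∫⁻ m, f (G', fun e => m (Sym2.map σ.symm e)) (φ u) (φ v) ∂(mksM V) := by
      have h6 : Measurable fun m : Mk V => f (G', m) (φ u) (φ v) :=
        (hfm _ _).comp (measurable_const.prodMk measurable_id)
      exact (lintegral_reindex (volume : Measure (unitInterval × unitInterval))
        (sym2Equiv σ.symm) h6).symm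
    rw [h5]
    exact lintegral_congr h4

end Vale.Agent.P143
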