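import Vale.Agent.P143.ExistAux

set_option autoImplicit false

namespace Vale.Agent.P143

open Filter Topology Set MeasureTheory

universe u

variable {V : Type u}

/-- the set of edges coded by a Boolean function -/
def decode (x : Sym2 V → Bool) : Set (Sym2 V) := {e | x e = true}

open Classical in
/-- the Boolean function coding a set -/
noncomputable def encode (T : Set (Sym2 V)) : Sym2 V → Bool := fun e => decide (e ∈ T)

lemma decode_encode (T : Set (Sym2 V)) : decode (encode T) = T := by
  ext e
  simp [decode, encode]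

lemma measurable_decode : Measurable (decode : (Sym2 V → Bool) → Set (Sym2 V)) := by
  rw [measurable_set_iff]
  intro e
  have h1 : MeasurableSet {x : Sym2 V → Bool | x e = true} := by
    have : MeasurableSet ((fun x : Sym2 V → Bool => x e) ⁻¹' {true}) :=
      (measurable_pi_apply e) (measurableSet_singleton _)
    exact this
  exact measurableSet_setOfPred.1 h1

/-- cylinders, on the Boolean side -/
def bcyl (F K : Set (Sym2 V)) : Set (Sym2 V → Bool) := {x | decode x ∩ F = K}

lemma isClopen_bcyl {F : Set (Sym2 V)} (hF : F.Finite) (K : Set (Sym2 V)) :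
    IsClopen (bcyl F K) := by
  by_cases h : K ⊆ F
  · have h1 : bcyl F K = ⋂ e ∈ F, {x : Sym2 V → Bool | x e = true ↔ e ∈ K} := by
      ext x
      simp only [bcyl, Set.mem_ofPred_eq, Set.mem_iInter]
      constructor
      · intro hx e he
        constructor
        · intro h2
          rw [← hx]; exact ⟨h2, he⟩
        · intro h2
          rw [← hx] at h2; exact h2.1
      · intro hx
        ext e
        constructor
        · rintro ⟨h2, h3⟩
          exact (hx e h3).1 h2
        · intro h2
          exact ⟨(hx e (h h2)).2 h2, h h2⟩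
    rw [h1]
    refine hF.isClopen_biInter fun e _ => ?_
    have h2 : IsClopen ((fun x : Sym2 V → Bool => x e) ⁻¹' {b | b = true ↔ e ∈ K}) :=
      (isClopen_discrete _).preimage (continuous_apply e)
    exact h2
  · have : bcyl F K = ∅ := by
      rw [Set.eq_empty_iff_forall_notMem]
      intro x hx
      apply h
      have hx' : decode x ∩ F = K := hx
      rw [← hx']
      exact Set.inter_subset_right
    rw [this]
    exact isClopen_empty

/-- the uniform measure on the spanning trees of a finite connected subgraph -/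
noncomputable def ustMeasure {G : SimpleGraph V} (H : G.Subgraph) (hH : H.verts.Finite) :
    Measure (Sym2 V → Bool) :=
  ((stCount H ∅ ∅ : ℕ) : ENNReal)⁻¹ •
    ∑ T ∈ (trees_finite H hH).toFinset, Measure.dirac (encode T)

lemma ustMeasure_apply {G : SimpleGraph V} (H : G.Subgraph) (hH : H.verts.Finite)
    {C : Set (Sym2 V → Bool)} (hC : MeasurableSet C) :
    ustMeasure H hH C = ((stCount H ∅ ∅ : ℕ) : ENNReal)⁻¹ *
      (({T | IsSpanningTreeOf H T ∧ encode T ∈ C}.ncard : ℕ) : ENNReal) := by
  classical
  unfold ustMeasure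
  rw [Measure.smul_apply, Measure.finsetSum_apply, smul_eq_mul]
  congr 1
  have h1 : ∀ T ∈ (trees_finite H hH).toFinset, (Measure.dirac (encode T)) C =
      if encode T ∈ C then 1 else 0 := by
    intro T _
    rw [Measure.dirac_apply' _ hC, Set.indicator_apply]
    rfl
  rw [Finset.sum_congr rfl h1, Finset.sum_boole]
  congr 1
  rw [← Set.ncard_coe_finset]
  congr 1
  ext T
  simp

lemma ustMeasure_isProb {G : SimpleGraph V} (H : G.Subgraph) (hH : H.verts.Finite)
    (hc : H.Connected) : IsProbabilityMeasure (ustMeasure H hH) := by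
  constructor
  rw [ustMeasure_apply H hH MeasurableSet.univ]
  have h1 : {T | IsSpanningTreeOf H T ∧ encode T ∈ Set.univ} = {T | IsSpanningTreeOf H T} := by
    ext T; simp
  rw [h1, ← stCount_empty]
  have h2 := stCount_pos H hH hc
  exact ENNReal.inv_mul_cancel (by exact_mod_cast h2.ne') (ENNReal.natCast_ne_top _)

lemma ustMeasure_bcyl [Countable V] {G : SimpleGraph V} (H : G.Subgraph) (hH : H.verts.Finite)
    {F : Set (Sym2 V)} (hF : F.Finite) (K : Set (Sym2 V)) :
    (ustMeasure H hH).real (bcyl F K) = ustProb H F K := by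
  unfold Measure.real ustProb
  rw [ustMeasure_apply H hH (isClopen_bcyl hF K).1.measurableSet, stCount_empty]
  have h1 : {T | IsSpanningTreeOf H T ∧ encode T ∈ bcyl F K} =
      {T | IsSpanningTreeOf H T ∧ T ∩ F = K} := by
    ext T
    simp only [bcyl, Set.mem_ofPred_eq, decode_encode]
  rw [h1, ENNReal.toReal_mul, ENNReal.toReal_inv, ENNReal.toReal_natCast, ENNReal.toReal_natCast]
  rw [div_eq_inv_mul]

theorem exists_fusf [Countable V] (G : SimpleGraph V) (hG : G.Connected) :
    ∃ μ : Measure (Set (Sym2 V)), IsFUSF G μ ∧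
      ∀ (A B : Set (Sym2 V)) (e : Sym2 V), A.Finite → B.Finite → e ∉ A → e ∉ B → Disjoint A B →
        μ.real {X | A ⊆ X ∧ Disjoint X B ∧ e ∈ X}
          = lo G A B e * μ.real {X | A ⊆ X ∧ Disjoint X B} := by
  classical
  obtain ⟨H₀, hH₀⟩ := exists_exhaustion G hG
  let ν : ℕ → ProbabilityMeasure (Sym2 V → Bool) := fun n =>
    ⟨ustMeasure (H₀ n) (hH₀.finite_verts n),
      ustMeasure_isProb (H₀ n) (hH₀.finite_verts n) (hH₀.connected n)⟩
  -- a limit point
  let U : Ultrafilter ℕ := Filter.hyperfilter ℕ
  have hU : (U : Filter ℕ) ≤ atTop := Nat.hyperfilter_le_atTop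
  obtain ⟨μ₀, _, hμ₀⟩ := isCompact_univ.ultrafilter_le_nhds (U.map ν) (by simp)
  have hlim : Tendsto ν (U : Filter ℕ) (𝓝 μ₀) := hμ₀
  have hcyl : ∀ (F K : Set (Sym2 V)), F.Finite → ∀ L : ℝ,
      Tendsto (fun n => ustProb (H₀ n) F K) atTop (𝓝 L) →
        (μ₀ : Measure (Sym2 V → Bool)).real (bcyl F K) = L := by
    intro F K hF L hL
    have h1 := ProbabilityMeasure.tendsto_measure_of_isClopen_of_tendsto hlim (isClopen_bcyl hF K)
    have h2 : Tendsto (fun n => ((ν n (bcyl F K) : NNReal) : ℝ)) (U : Filter ℕ)
        (𝓝 ((μ₀ (bcyl F K) : NNReal) : ℝ)) := (NNReal.tendsto_coe.2 h1)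
    have h3 : ∀ n, ((ν n (bcyl F K) : NNReal) : ℝ) = ustProb (H₀ n) F K := by
      intro n
      rw [← ustMeasure_bcyl (H₀ n) (hH₀.finite_verts n) hF K]
      rfl
    have h4 : ((μ₀ (bcyl F K) : NNReal) : ℝ) = (μ₀ : Measure (Sym2 V → Bool)).real (bcyl F K) := rfl
    simp only [h3] at h2
    rw [← h4]
    exact tendsto_nhds_unique h2 (hL.mono_left hU)
  set μ : Measure (Set (Sym2 V)) := (μ₀ : Measure (Sym2 V → Bool)).map decode with hμ
  have hprob : IsProbabilityMeasure μ := Measure.isProbabilityMeasure_map
    measurable_decode.aemeasurable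
  have hμcyl : ∀ (F K : Set (Sym2 V)), F.Finite →
      μ.real {ω | ω ∩ F = K} = (μ₀ : Measure (Sym2 V → Bool)).real (bcyl F K) := by
    intro F K hF
    unfold Measure.real
    congr 1
    have hmeas : MeasurableSet {ω : Set (Sym2 V) | ω ∩ F = K} := by
      by_cases h : K ⊆ F
      · have h1 : {ω : Set (Sym2 V) | ω ∩ F = K} = ⋂ e ∈ F, {ω | e ∈ ω ↔ e ∈ K} := by
          ext ω
          simp only [Set.mem_ofPred_eq, Set.mem_iInter]
          constructor
          · intro hx e he
            constructor
            · intro h2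
              rw [← hx]; exact ⟨h2, he⟩
            · intro h2
              rw [← hx] at h2; exact h2.1
          · intro hx
            ext e
            constructor
            · rintro ⟨h2, h3⟩
              exact (hx e h3).1 h2
            · intro h2
              exact ⟨(hx e (h h2)).2 h2, h h2⟩
        rw [h1]
        refine MeasurableSet.biInter hF.countable fun e _ => ?_
        by_cases he : e ∈ K
        · simpa [he] using measurableSet_mem (α := Sym2 V) e
        · simpa [he] using measurableSet_notMem (α := Sym2 V) e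
      · have : {ω : Set (Sym2 V) | ω ∩ F = K} = ∅ := by
          rw [Set.eq_empty_iff_forall_notMem]
          intro x hx
          apply h
          have hx' : x ∩ F = K := hx
          rw [← hx']
          exact Set.inter_subset_right
        rw [this]
        exact MeasurableSet.empty
    rw [hμ, Measure.map_apply measurable_decode hmeas]
    rfl
  have htend : ∀ H : ℕ → G.Subgraph, IsExhaustion G H → ∀ F K : Set (Sym2 V), F.Finite →
      Tendsto (fun n => ustProb (H n) F K) atTop (𝓝 (μ.real {ω | ω ∩ F = K})) := by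
    intro H hH F K hF
    obtain ⟨L, hL⟩ := exists_limit_ust hG hF K
    rw [hμcyl F K hF, hcyl F K hF L (hL H₀ hH₀)]
    exact hL H hH
  refine ⟨μ, ⟨hprob, ⟨H₀, hH₀⟩, htend⟩, ?_⟩
  intro A B e hA hB heA heB hAB
  -- both sides as limits
  have key : ∀ A B : Set (Sym2 V), A.Finite → B.Finite → Disjoint A B →
      {X : Set (Sym2 V) | A ⊆ X ∧ Disjoint X B} = {ω | ω ∩ (A ∪ B) = A} := by
    intro A B _ _ hAB
    ext X
    simp only [Set.mem_ofPred_eq]
    constructor
    · rintro ⟨h1, h2⟩
      ext x
      constructor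
      · rintro ⟨hx, hx' | hx'⟩
        · exact hx'
        · exact absurd hx' (Set.disjoint_left.1 h2 hx)
      · intro hx
        exact ⟨h1 hx, Or.inl hx⟩
    · intro h
      refine ⟨fun x hx => ?_, Set.disjoint_left.2 fun x hx hxB => ?_⟩
      · rw [← h] at hx
        exact hx.1
      · have : x ∈ X ∩ (A ∪ B) := ⟨hx, Or.inr hxB⟩
        rw [h] at this
        exact Set.disjoint_left.1 hAB this hxB
  have hpr : ∀ A B : Set (Sym2 V), A.Finite → B.Finite → Disjoint A B →
      Tendsto (fun n => pr (H₀ n) A B) atTop (𝓝 (μ.real {X | A ⊆ X ∧ Disjoint X B})) := by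
    intro A B hA hB hAB
    rw [key A B hA hB hAB]
    refine (htend H₀ hH₀ (A ∪ B) A (hA.union hB)).congr fun n => ?_
    rw [ustProb_eq _ Set.subset_union_left]
    congr 1
    rw [Set.union_sdiff_left]
    exact hAB.symm.sdiff_eq_left
  have e1 : {X : Set (Sym2 V) | A ⊆ X ∧ Disjoint X B ∧ e ∈ X} =
      {X | insert e A ⊆ X ∧ Disjoint X B} := by
    ext X
    simp only [Set.mem_ofPred_eq, Set.insert_subset_iff]
    tauto
  have hAB' : Disjoint (insert e A) B := by
    rw [Set.disjoint_insert_left]
    exact ⟨heB, hAB⟩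
  obtain ⟨s, hs1, hs2⟩ := tendsto_cond G hG H₀ hH₀ A B hA hB hAB e heA heB
  rw [e1]
  refine tendsto_nhds_unique (hpr (insert e A) B (hA.insert e) hB hAB') ?_
  refine (hs1.mul (hpr A B hA hB hAB)).congr fun n => ?_
  unfold pr
  rw [hs2 n]
  ring

end Vale.Agent.P143
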