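import Vale.Agent.P143.FinLim

set_option autoImplicit false

namespace Vale.Agent.P143

open Filter Topology Set MeasureTheory

universe u

variable {V : Type u}

theorem exists_exhaustion [Countable V] (G : SimpleGraph V) (hG : G.Connected) :
    ∃ H : ℕ → G.Subgraph, IsExhaustion G H := by
  obtain ⟨o⟩ := hG.nonempty
  obtain ⟨enc, henc⟩ := exists_injective_nat V
  choose p hp using fun v : V => (⟨(hG o v).some, trivial⟩ : ∃ _ : G.Walk o v, True)
  let T : ℕ → Set V := fun n => {x | ∃ v, enc v ≤ n ∧ x ∈ (p v).support} ∪ {o}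
  have hTmono : Monotone T := by
    intro m n hmn x hx
    rcases hx with ⟨v, hv, hx⟩ | hx
    · exact Or.inl ⟨v, hv.trans hmn, hx⟩
    · exact Or.inr hx
  have hTfin : ∀ n, (T n).Finite := by
    intro n
    refine Set.Finite.union ?_ (Set.finite_singleton o)
    have h1 : {x | ∃ v, enc v ≤ n ∧ x ∈ (p v).support} =
        ⋃ v ∈ {v | enc v ≤ n}, {x | x ∈ (p v).support} := by
      ext x; simp
    rw [h1]
    refine Set.Finite.biUnion ?_ fun v _ => (p v).support.finite_toSet
    exact (Set.finite_le_nat n).preimage henc.injOn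
  have hself : ∀ v n, enc v ≤ n → v ∈ T n := fun v n h => Or.inl ⟨v, h, (p v).end_mem_support⟩
  refine ⟨fun n => (⊤ : G.Subgraph).induce (T n), ?_, ?_, ?_, ?_⟩
  · intro m n hmn
    exact SimpleGraph.Subgraph.induce_mono_right (hTmono hmn)
  · intro n
    exact hTfin n
  · intro n
    rw [SimpleGraph.Subgraph.connected_iff_forall_exists_walk_subgraph]
    refine ⟨⟨o, Or.inr rfl⟩, ?_⟩
    -- walks to the root
    have key : ∀ x ∈ T n, ∃ q : G.Walk o x, q.toSubgraph ≤ (⊤ : G.Subgraph).induce (T n) := by
      rintro x (⟨v, hv, hx⟩ | hx)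
      · classical
        refine ⟨(p v).takeUntil x hx, ?_⟩
        refine (SimpleGraph.Walk.toSubgraph_le_induce_support _).trans
          (SimpleGraph.Subgraph.induce_mono_right ?_)
        intro y hy
        exact Or.inl ⟨v, hv, (p v).support_takeUntil_subset_support hx hy⟩
      · have : x = o := hx
        subst this
        refine ⟨SimpleGraph.Walk.nil, ?_⟩
        refine (SimpleGraph.Walk.toSubgraph_le_induce_support _).trans
          (SimpleGraph.Subgraph.induce_mono_right ?_)
        intro y hy
        have : y = x := by simpa using hy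
        exact Or.inr this
    intro x y hx hy
    obtain ⟨q, hq⟩ := key x hx
    obtain ⟨q', hq'⟩ := key y hy
    refine ⟨q.reverse.append q', ?_⟩
    rw [SimpleGraph.Walk.toSubgraph_append, SimpleGraph.Walk.toSubgraph_reverse]
    exact sup_le hq hq'
  · refine le_antisymm le_top ?_
    constructor
    · intro v _
      rw [SimpleGraph.Subgraph.verts_iSup]
      exact Set.mem_iUnion.2 ⟨enc v, hself v _ le_rfl⟩
    · intro v w hvw
      rw [SimpleGraph.Subgraph.iSup_adj]
      refine ⟨max (enc v) (enc w), ?_⟩
      rw [SimpleGraph.Subgraph.induce_adj]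
      exact ⟨hself v _ (le_max_left _ _), hself w _ (le_max_right _ _), hvw⟩

section Finite

variable {G : SimpleGraph V} (H : G.Subgraph)

lemma edgeSet_finite_of_verts (hH : H.verts.Finite) : H.edgeSet.Finite := by
  classical
  refine (hH.toFinset.sym2.finite_toSet).subset ?_
  intro e he
  rw [Finset.mem_coe, Finset.mem_sym2_iff]
  intro v hv
  rw [Set.Finite.mem_toFinset]
  exact SimpleGraph.Subgraph.mem_verts_of_mem_edge he hv

lemma trees_finite (hH : H.verts.Finite) : {T | IsSpanningTreeOf H T}.Finite :=
  (edgeSet_finite_of_verts H hH).finite_subsets.subset fun _ hT => hT.1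

lemma trees_nonempty (hH : H.verts.Finite) (hc : H.Connected) :
    {T | IsSpanningTreeOf H T}.Nonempty := by
  have : Finite H.verts := hH.to_subtype
  have hc' : H.coe.Connected := hc.coe
  obtain ⟨T', hT', htree⟩ := hc'.exists_isTree_le
  refine ⟨Sym2.map Subtype.val '' T'.edgeSet, ?_, ?_⟩
  · rintro _ ⟨e, he, rfl⟩
    induction e with
    | _ a b =>
      rw [SimpleGraph.mem_edgeSet] at he
      rw [Sym2.map_mk, SimpleGraph.Subgraph.mem_edgeSet]
      exact hT' he
  · have h1 : (SimpleGraph.fromEdgeSet (Sym2.map Subtype.val '' T'.edgeSet)).induce H.verts = T' := by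
      ext a b
      rw [SimpleGraph.comap_adj, SimpleGraph.fromEdgeSet_adj]
      constructor
      · rintro ⟨⟨e, he, heq⟩, _⟩
        have h2 : e = s(a, b) := by
          apply Sym2.map.injective Subtype.val_injective
          rw [heq]
          rfl
        rw [h2] at he
        exact he
      · intro hab
        refine ⟨⟨s(a, b), hab, rfl⟩, ?_⟩
        intro h
        exact hab.ne (Subtype.ext h)
    rw [h1]
    exact htree

lemma stCount_empty : stCount H ∅ ∅ = {T | IsSpanningTreeOf H T}.ncard := by
  unfold stCount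
  congr 1
  ext T
  simp

lemma stCount_pos (hH : H.verts.Finite) (hc : H.Connected) : 0 < stCount H ∅ ∅ := by
  rw [stCount_empty, Set.ncard_pos (trees_finite H hH)]
  exact trees_nonempty H hH hc

lemma stCount_split (hH : H.verts.Finite) (A B : Set (Sym2 V)) (e : Sym2 V) :
    stCount H A B = stCount H (insert e A) B + stCount H A (insert e B) := by
  unfold stCount
  rw [← Set.ncard_union_eq ?_ ((trees_finite H hH).subset fun T hT => hT.1)
    ((trees_finite H hH).subset fun T hT => hT.1)]
  · congr 1
    ext T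
    simp only [Set.mem_ofPred_eq, Set.mem_union, Set.insert_subset_iff, Set.disjoint_insert_right]
    tauto
  · rw [Set.disjoint_left]
    rintro T ⟨_, h1, _⟩ ⟨_, _, h2⟩
    exact (Set.disjoint_insert_right.1 h2).1 (h1 (Set.mem_insert _ _))

/-- the probability that the uniform spanning tree contains `A` and avoids `B` -/
noncomputable def pr (A B : Set (Sym2 V)) : ℝ := (stCount H A B : ℝ) / stCount H ∅ ∅

lemma ustProb_eq {F K : Set (Sym2 V)} (h : K ⊆ F) : ustProb H F K = pr H K (F \ K) := by
  unfold ustProb pr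
  rw [stCount_empty]
  congr 2
  unfold stCount
  congr 1
  ext T
  simp only [Set.mem_ofPred_eq]
  refine and_congr_right fun _ => ?_
  constructor
  · intro h1
    refine ⟨?_, ?_⟩
    · rw [← h1]; exact Set.inter_subset_left
    · rw [Set.disjoint_left]
      intro x hx hx'
      exact hx'.2 (h1 ▸ ⟨hx, hx'.1⟩)
  · rintro ⟨h1, h2⟩
    ext x
    constructor
    · rintro ⟨hx, hxF⟩
      by_contra hxK
      exact Set.disjoint_left.1 h2 hx ⟨hxF, hxK⟩
    · intro hx
      exact ⟨h1 hx, h hx⟩

lemma ustProb_eq_zero {F K : Set (Sym2 V)} (h : ¬ K ⊆ F) : ustProb H F K = 0 := by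
  unfold ustProb
  have : {T | IsSpanningTreeOf H T ∧ T ∩ F = K} = ∅ := by
    rw [Set.eq_empty_iff_forall_notMem]
    rintro T ⟨_, h1⟩
    exact h (h1 ▸ Set.inter_subset_right)
  rw [this, Set.ncard_empty]
  simp

end Finite

section Limit

variable {G : SimpleGraph V}

lemma exists_limit (hG : G.Connected) (B : Finset (Sym2 V)) :
    ∀ A : Finset (Sym2 V), Disjoint A B → ∃ L : ℝ, ∀ H : ℕ → G.Subgraph, IsExhaustion G H →
      Tendsto (fun n => pr (H n) (A : Set (Sym2 V)) (B : Set (Sym2 V))) atTop (𝓝 L) := by
  classical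
  induction B using Finset.induction_on with
  | empty =>
    intro A
    induction A using Finset.induction_on with
    | empty =>
      intro _
      refine ⟨1, fun H hH => ?_⟩
      refine tendsto_const_nhds.congr fun n => ?_
      unfold pr
      have h1 := stCount_pos (H n) (hH.finite_verts n) (hH.connected n)
      rw [Finset.coe_empty, div_self (by positivity)]
    | insert e A he ih =>
      intro _
      obtain ⟨L, hL⟩ := ih (Finset.disjoint_empty_right _)
      refine ⟨lo G (A : Set (Sym2 V)) ∅ e * L, fun H hH => ?_⟩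
      obtain ⟨s, hs1, hs2⟩ := tendsto_cond G hG H hH (A : Set (Sym2 V)) ∅ A.finite_toSet
        Set.finite_empty (Set.disjoint_empty _) e (by simpa using he) (Set.notMem_empty _)
      refine (hs1.mul (hL H hH)).congr fun n => ?_
      unfold pr
      rw [Finset.coe_insert, Finset.coe_empty, hs2 n]
      ring
  | insert e B he ih =>
    intro A hAB
    rw [Finset.disjoint_insert_right] at hAB
    obtain ⟨L1, hL1⟩ := ih A hAB.2
    obtain ⟨L2, hL2⟩ := ih (insert e A) (by
      rw [Finset.disjoint_insert_left]
      exact ⟨he, hAB.2⟩)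
    refine ⟨L1 - L2, fun H hH => ?_⟩
    refine ((hL1 H hH).sub (hL2 H hH)).congr fun n => ?_
    unfold pr
    have h1 := stCount_split (H n) (hH.finite_verts n) (A : Set (Sym2 V)) (B : Set (Sym2 V)) e
    rw [Finset.coe_insert, Finset.coe_insert, h1]
    push_cast
    ring

lemma exists_limit' (hG : G.Connected) {A B : Set (Sym2 V)} (hA : A.Finite) (hB : B.Finite)
    (hAB : Disjoint A B) : ∃ L : ℝ, ∀ H : ℕ → G.Subgraph, IsExhaustion G H →
      Tendsto (fun n => pr (H n) A B) atTop (𝓝 L) := by
  classical
  have := exists_limit hG hB.toFinset hA.toFinset (by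
    rw [← Finset.disjoint_coe]; simpa using hAB)
  simpa using this

lemma exists_limit_ust (hG : G.Connected) {F : Set (Sym2 V)} (hF : F.Finite)
    (K : Set (Sym2 V)) : ∃ L : ℝ, ∀ H : ℕ → G.Subgraph, IsExhaustion G H →
      Tendsto (fun n => ustProb (H n) F K) atTop (𝓝 L) := by
  by_cases h : K ⊆ F
  · obtain ⟨L, hL⟩ := exists_limit' hG (hF.subset h) (hF.subset Set.sdiff_subset)
      (Set.disjoint_sdiff_right : Disjoint K (F \ K))
    exact ⟨L, fun H hH => (hL H hH).congr fun n => (ustProb_eq _ h).symm⟩
  · exact ⟨0, fun H hH => tendsto_const_nhds.congr fun n => (ustProb_eq_zero _ h).symm⟩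

end Limit

end Vale.Agent.P143
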