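import Vale.Agent.P143.Dens

set_option autoImplicit false
set_option linter.unusedSectionVars false

namespace Vale.Agent.P143

open Filter Topology Set MeasureTheory

universe u w

variable {V : Type u} [Countable V]

/-! ### measurability of the sets -/

lemma rs_Sle (n k : ℕ) : RS (actE (V := V)) (Sle n k) := by
  refine ⟨fun e => measurableSet_le (measurable_batch n e) measurable_const, fun σ ω e => ?_⟩
  change batch (actE σ ω).1 n (actE σ ω).2 (e.map σ) ≤ k ↔ batch ω.1 n ω.2 e ≤ k
  rw [batch_equi]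

lemma rs_Slt (n k : ℕ) : RS (actE (V := V)) (fun ω => {f | batch ω.1 n ω.2 f < k}) := by
  refine ⟨fun e => measurableSet_lt (measurable_batch n e) measurable_const, fun σ ω e => ?_⟩
  change batch (actE σ ω).1 n (actE σ ω).2 (e.map σ) < k ↔ batch ω.1 n ω.2 e < k
  rw [batch_equi]

lemma rs_Seq (n k : ℕ) : RS (actE (V := V)) (fun ω => {f | batch ω.1 n ω.2 f = k}) := by
  refine ⟨fun e => measurableSet_eq_fun (measurable_batch n e) measurable_const,
    fun σ ω e => ?_⟩
  change batch (actE σ ω).1 n (actE σ ω).2 (e.map σ) = k ↔ batch ω.1 n ω.2 e = k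
  rw [batch_equi]

lemma rs_cls (R : ℕ → Prop) : RS (actE (V := V)) (fun ω => {f | R (cls ω.1 f)}) := by
  refine ⟨fun e => ?_, fun σ ω e => ?_⟩
  · exact ((measurable_cls e).comp measurable_fst) (MeasurableSet.of_discrete (s := {j | R j}))
  · change R (cls (ga σ ω.1) (e.map σ)) ↔ R (cls ω.1 e)
    have h : cls (ga σ ω.1) (e.map σ) = cls ω.1 e := cls_iso (gaIso σ ω.1) e
    rw [h]

lemma rs_edge : RS (actE (V := V)) (fun ω => ω.1.edgeSet) := rg_fst.edgeSet

lemma rs_Und (n k : ℕ) : RS (actE (V := V)) (Und n k) :=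
  ((rs_edge.inter (rs_Slt n k)).diff (rs_st n k).1).diff (rs_st n k).2

lemma rs_Ck (n k : ℕ) : RS (actE (V := V)) (Ck n k) := rs_edge.inter (rs_Seq n k)

lemma rs_Nk (n k : ℕ) : RS (actE (V := V)) (Nk n k) :=
  ((rs_Ck n k).diff (rs_st n (k + 1)).1).diff (rs_st n (k + 1)).2

lemma rs_fl (n I : ℕ) (j : ℕ) : RS (actE (V := V))
    (fun ω => ω.1.edgeSet ∩ {f | cls ω.1 f = j ∧ I ≤ fl n (ω.2 f).1}) := by
  refine rs_edge.inter ⟨fun e => ?_, fun σ ω e => ?_⟩
  · have h1 : Measurable fun ω : Env V => fl n (ω.2 e).1 :=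
      (measurable_fl n).comp (measurable_fst.comp ((measurable_pi_apply e).comp
        measurable_snd))
    have h2 : MeasurableSet {ω : Env V | I ≤ fl n (ω.2 e).1} :=
      measurableSet_le measurable_const h1
    exact ((rs_cls (fun i => i = j)).meas e).inter h2
  · change (cls (ga σ ω.1) (e.map σ) = j ∧ I ≤ fl n (ω.2 ((e.map σ).map σ.symm)).1) ↔
      (cls ω.1 e = j ∧ I ≤ fl n (ω.2 e).1)
    have h : cls (ga σ ω.1) (e.map σ) = cls ω.1 e := cls_iso (gaIso σ ω.1) e
    rw [h, map_map_symm]

lemma measurable_highv_sub_lowv (n k : ℕ) (e : Sym2 V) :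
    Measurable fun ω : Env V => highv n k ω e - lowv n k ω e := by
  have h1 := (lo_meas_equi (rg_fst (V := V)) ((rs_Sle n k).diff (rs_st n k).2) (rs_st n k).2).1 e
  have h2 := (hi_meas_equi (rg_fst (V := V)) (rs_st n k).1 ((rs_Sle n k).diff (rs_st n k).1)).1 e
  exact h2.sub h1

/-! ### fibre estimates -/

lemma measurable_section {q : Env V → ℝ} (hq : Measurable q) (G : SimpleGraph V) :
    Measurable fun m : Mk V => ENNReal.ofReal (q (G, m)) :=
  ENNReal.measurable_ofReal.comp (hq.comp (measurable_const.prodMk measurable_id))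

lemma vol_prod_le (n i : ℕ) {L U : ℝ} (hL : 0 ≤ L) (hU : U ≤ 1) (hLU : L ≤ U) :
    (volume : Measure (unitInterval × unitInterval))
        {t | fl n t.1 = i ∧ L ≤ (t.2 : ℝ) ∧ (t.2 : ℝ) < U}
      ≤ ENNReal.ofReal (1 / 2 ^ n) * ENNReal.ofReal (U - L) := by
  have h1 : {t : unitInterval × unitInterval | fl n t.1 = i ∧ L ≤ (t.2 : ℝ) ∧ (t.2 : ℝ) < U}
      ⊆ {t | fl n t = i} ×ˢ (Icc (⟨L, hL, hLU.trans hU⟩ : unitInterval)
        ⟨U, hL.trans hLU, hU⟩) := fun t ht => ⟨ht.1, ht.2.1, ht.2.2.le⟩
  refine (measure_mono h1).trans ?_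
  rw [Measure.volume_eq_prod, Measure.prod_prod, unitInterval.volume_Icc]
  exact mul_le_mul_left (vol_fl_eq_le n i) _

/-- The resampling estimate: newly undetermined edges against the gap of the later edges. -/
lemma fiber_le (n j i : ℕ) (hi : i < 2 ^ n) (G : SimpleGraph V) (e : Sym2 V) :
    ENNReal.ofReal ((2 : ℝ) ^ n - 1 - i) *
        ∫⁻ m, ENNReal.ofReal (ind (Nk n (j * 2 ^ n + i) (G, m)) e) ∂(mksM V)
      ≤ ∫⁻ m, ENNReal.ofReal (ind (G.edgeSet \ Sle n (j * 2 ^ n + i) (G, m)) e *
        (highv n (j * 2 ^ n + i) (G, m) e - lowv n (j * 2 ^ n + i) (G, m) e)) ∂(mksM V) := by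
  set k := j * 2 ^ n + i with hk
  have hm1 : Measurable fun m : Mk V => ENNReal.ofReal (ind (Nk n k (G, m)) e) :=
    measurable_section (q := fun ω => ind (Nk n k ω) e) (meas_ind (rs_Nk n k) e) G
  have hm2 : Measurable fun m : Mk V => ENNReal.ofReal (ind (G.edgeSet \ Sle n k (G, m)) e *
      (highv n k (G, m) e - lowv n k (G, m) e)) :=
    measurable_section (q := fun ω => ind (ω.1.edgeSet \ Sle n k ω) e *
      (highv n k ω e - lowv n k ω e))
      ((meas_ind (rs_edge.diff (rs_Sle n k)) e).mul (measurable_highv_sub_lowv n k e)) G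
  have hu1 := lintegral_update (volume : Measure (unitInterval × unitInterval)) e hm1
  have hu2 := lintegral_update (volume : Measure (unitInterval × unitInterval)) e hm2
  unfold mksM
  rw [hu1, hu2]
  refine le_trans ?_ (lintegral_mono (f := fun m => ENNReal.ofReal ((2 : ℝ) ^ n - 1 - i) *
    ∫⁻ t, ENNReal.ofReal (ind (Nk n k (G, upd m e t)) e)) fun m => ?_)
  · exact (lintegral_const_mul' _ _ ENNReal.ofReal_ne_top).ge
  -- pointwise in `m`
  simp only
  by_cases hE : e ∈ G.edgeSet
  swap
  · have h0 : ∀ t : unitInterval × unitInterval,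
        ENNReal.ofReal (ind (Nk n k (G, upd m e t)) e) = 0 := by
      intro t
      rw [ind_of_notMem (fun h => hE (mem_Nk.1 h).1), ENNReal.ofReal_zero]
    simp [h0]
  by_cases hj : cls G e = j
  swap
  · have h0 : ∀ t : unitInterval × unitInterval,
        ENNReal.ofReal (ind (Nk n k (G, upd m e t)) e) = 0 := by
      intro t
      rw [ind_of_notMem, ENNReal.ofReal_zero]
      intro h
      have h1 := (mem_Nk.1 h).2.1
      change batch G n (upd m e t) e = k at h1
      rw [batch_of_mem hE] at h1
      have h2 := fl_lt n (upd m e t e).1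
      apply hj
      rw [hk] at h1
      have h3 : (cls G e * 2 ^ n + fl n (upd m e t e).1) / 2 ^ n
          = (j * 2 ^ n + i) / 2 ^ n := by rw [h1]
      rw [add_comm, Nat.add_mul_div_right _ _ (by positivity), Nat.div_eq_of_lt h2,
        add_comm (j * 2 ^ n), Nat.add_mul_div_right _ _ (by positivity),
        Nat.div_eq_of_lt hi] at h3
      omega
    simp [h0]
  by_cases hlast : 2 ^ n ≤ i + 1
  · have h1 : (2 : ℝ) ^ n ≤ i + 1 := by exact_mod_cast hlast
    rw [ENNReal.ofReal_of_nonpos (by linarith), zero_mul]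
    exact zero_le
  push Not at hlast
  set m₁ : Mk V := upd m e (1, 0) with hm₁
  have hb : ∀ t, batch G n (upd m e t) e = j * 2 ^ n + fl n t.1 := by
    intro t
    rw [batch_of_mem hE, hj, upd_self]
  have hb1 : k ≤ batch G n m₁ e := by
    rw [hm₁, hb, hk]
    have h1 : i ≤ fl n 1 := by
      refine fl_ge hi ?_
      have hp : (0 : ℝ) < 2 ^ n := by positivity
      rw [div_le_iff₀ hp]
      have h2 : (i : ℝ) ≤ 2 ^ n := by exact_mod_cast hi.le
      simpa using h2
    simpa using h1
  set L := lowv n k (G, m₁) e with hL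
  set U := highv n k (G, m₁) e with hU
  have hLU : L ≤ U := lowv_le_highv (ω := (G, m₁)) hb1
  have hupd : ∀ t, k ≤ batch G n (upd m e t) e →
      lowv n k (G, upd m e t) e = L ∧ highv n k (G, upd m e t) e = U := by
    intro t ht
    exact lowv_update (fun f hf => by rw [hm₁, upd_ne _ _ _ hf,
      upd_ne _ _ _ hf]) ht hb1
  have hleft : ∫⁻ t, ENNReal.ofReal (ind (Nk n k (G, upd m e t)) e)
      ≤ ENNReal.ofReal (1 / 2 ^ n) * ENNReal.ofReal (U - L) := by
    have h1 : ∀ t : unitInterval × unitInterval,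
        ENNReal.ofReal (ind (Nk n k (G, upd m e t)) e)
        ≤ ({t : unitInterval × unitInterval | fl n t.1 = i ∧ L ≤ (t.2 : ℝ) ∧
          (t.2 : ℝ) < U}).indicator 1 t := by
      intro t
      by_cases h : e ∈ Nk n k (G, upd m e t)
      · have h2 := mem_Nk.1 h
        have h3 : batch G n (upd m e t) e = k := h2.2.1
        have h4 := hupd t h3.ge
        have h5 : fl n t.1 = i := by
          rw [hb, hk] at h3
          omega
        have h6 : thrE (upd m e t) e = (t.2 : ℝ) := by
          unfold thrE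
          rw [upd_self]
        have h7 : t ∈ {t : unitInterval × unitInterval | fl n t.1 = i ∧ L ≤ (t.2 : ℝ) ∧
          (t.2 : ℝ) < U} := by
          refine ⟨h5, ?_, ?_⟩
          · have := h2.2.2.1
            rw [h4.1] at this
            rw [← h6]; exact this
          · have := h2.2.2.2
            rw [h4.2] at this
            rw [← h6]; exact this
        rw [ind_of_mem h, indicator_of_mem h7]
        simp
      · rw [ind_of_notMem h, ENNReal.ofReal_zero]
        exact zero_le
    refine (lintegral_mono h1).trans ?_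
    have hmeas : MeasurableSet {t : unitInterval × unitInterval | fl n t.1 = i ∧ L ≤ (t.2 : ℝ) ∧
          (t.2 : ℝ) < U} := by
      refine (measurableSet_eq_fun ((measurable_fl n).comp measurable_fst)
        measurable_const).inter ((measurableSet_le measurable_const
        (measurable_subtype_coe.comp measurable_snd)).inter
        (measurableSet_lt (measurable_subtype_coe.comp measurable_snd) measurable_const))
    rw [lintegral_indicator_one hmeas]
    exact vol_prod_le n i (lowv_nonneg _ _ _ _) (highv_le_one _ _ _ _) hLU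
  have hright : ENNReal.ofReal (((2 : ℝ) ^ n - 1 - i) / 2 ^ n) * ENNReal.ofReal (U - L)
      ≤ ∫⁻ t, ENNReal.ofReal (ind (G.edgeSet \ Sle n k (G, upd m e t)) e *
        (highv n k (G, upd m e t) e - lowv n k (G, upd m e t) e)) := by
    have h1 : ∀ t : unitInterval × unitInterval,
        ({t : unitInterval × unitInterval | i < fl n t.1}).indicator
          (fun _ => ENNReal.ofReal (U - L)) t
        ≤ ENNReal.ofReal (ind (G.edgeSet \ Sle n k (G, upd m e t)) e *
        (highv n k (G, upd m e t) e - lowv n k (G, upd m e t) e)) := by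
      intro t
      by_cases h : i < fl n t.1
      · have h2 : k < batch G n (upd m e t) e := by
          rw [hb, hk]; omega
        have h3 := hupd t h2.le
        have h4 : e ∈ G.edgeSet \ Sle n k (G, upd m e t) :=
          ⟨hE, fun h' => absurd h2 (not_lt.2 h')⟩
        rw [indicator_of_mem (by exact h), ind_of_mem h4, h3.1, h3.2, one_mul]
      · rw [indicator_of_notMem (by exact h)]
        exact zero_le
    refine le_trans ?_ (lintegral_mono h1)
    have hmeas : MeasurableSet {t : unitInterval × unitInterval | i < fl n t.1} :=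
      measurableSet_lt measurable_const ((measurable_fl n).comp measurable_fst)
    rw [lintegral_indicator_const hmeas, mul_comm]
    refine mul_le_mul_right ?_ _
    have h5 : {t : unitInterval × unitInterval | i < fl n t.1}
        = {t | i < fl n t} ×ˢ (univ : Set unitInterval) := by
      ext t; simp
    rw [h5, Measure.volume_eq_prod, Measure.prod_prod, measure_univ, mul_one]
    exact le_vol_fl_gt
  refine le_trans (mul_le_mul_right hleft _) (le_trans ?_ hright)
  rw [← mul_assoc, ← ENNReal.ofReal_mul]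
  · refine mul_le_mul_left (ENNReal.ofReal_le_ofReal ?_) _
    rw [mul_one_div]
  · have h1 : (i : ℝ) + 1 ≤ 2 ^ n := by exact_mod_cast hlast.le
    linarith

open Classical in
lemma fiber_mark_le {S : Set unitInterval} (hS : MeasurableSet S) {c : ℝ}
    (hc : (volume : Measure unitInterval) S ≤ ENNReal.ofReal c) (e : Sym2 V) :
    ∫⁻ m, (if (m e).1 ∈ S then 1 else 0) ∂(mksM V) ≤ ENNReal.ofReal c := by
  have hm : Measurable fun m : Mk V => (if (m e).1 ∈ S then (1 : ENNReal) else 0) :=
    Measurable.ite ((measurable_fst.comp (measurable_pi_apply e)) hS) measurable_const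
      measurable_const
  unfold mksM
  rw [lintegral_update (volume : Measure (unitInterval × unitInterval)) e hm]
  have h1 : ∀ m : Mk V, ∫⁻ t : unitInterval × unitInterval,
      (if (upd m e t e).1 ∈ S then (1 : ENNReal) else 0) ≤ ENNReal.ofReal c := by
    intro m
    have h2 : ∀ t : unitInterval × unitInterval,
        (if (upd m e t e).1 ∈ S then (1 : ENNReal) else 0)
        = (S ×ˢ (univ : Set unitInterval)).indicator 1 t := by
      intro t
      rw [upd_self]
      by_cases h : t.1 ∈ S
      · rw [if_pos h, indicator_of_mem (by exact ⟨h, trivial⟩)]; rfl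
      · rw [if_neg h, indicator_of_notMem (by exact fun h' => h h'.1)]
    rw [lintegral_congr h2, lintegral_indicator_one (hS.prod MeasurableSet.univ),
      Measure.volume_eq_prod, Measure.prod_prod, measure_univ, mul_one]
    exact hc
  refine (lintegral_mono h1).trans ?_
  rw [lintegral_const, measure_univ, mul_one]

/-- the edges of batch `k` -/
lemma fiber_Ck (n j i : ℕ) (hi : i < 2 ^ n) (G : SimpleGraph V) (e : Sym2 V) :
    ∫⁻ m, ENNReal.ofReal (ind (Ck n (j * 2 ^ n + i) (G, m)) e) ∂(mksM V)
      ≤ ENNReal.ofReal (1 / 2 ^ n) * ENNReal.ofReal (ind (G.edgeSet ∩ {f | cls G f = j}) e) := by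
  classical
  by_cases h : e ∈ G.edgeSet ∩ {f | cls G f = j}
  · rw [ind_of_mem h, ENNReal.ofReal_one, mul_one]
    refine le_trans (lintegral_mono fun m => ?_) (fiber_mark_le (S := {t | fl n t = i})
      ((measurable_fl n) (MeasurableSet.singleton i)) (vol_fl_eq_le n i) e)
    by_cases h1 : e ∈ Ck n (j * 2 ^ n + i) (G, m)
    · have h2 : batch G n m e = j * 2 ^ n + i := h1.2
      have h3 : cls G e = j := h.2
      rw [batch_of_mem h.1, h3] at h2
      have h4 : fl n (m e).1 = i := by omega
      have h5 : (m e).1 ∈ {t | fl n t = i} := h4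
      rw [ind_of_mem h1, if_pos h5, ENNReal.ofReal_one]
    · rw [ind_of_notMem h1, ENNReal.ofReal_zero]
      exact zero_le
  · have h0 : ∀ m : Mk V, ENNReal.ofReal (ind (Ck n (j * 2 ^ n + i) (G, m)) e) = 0 := by
      intro m
      rw [ind_of_notMem, ENNReal.ofReal_zero]
      rintro ⟨h1, h2⟩
      apply h
      refine ⟨h1, ?_⟩
      change batch G n m e = _ at h2
      rw [batch_of_mem h1] at h2
      have h2' := fl_lt n (m e).1
      have h3 : (cls G e * 2 ^ n + fl n (m e).1) / 2 ^ n
          = (j * 2 ^ n + i) / 2 ^ n := by rw [h2]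
      rw [add_comm, Nat.add_mul_div_right _ _ (by positivity), Nat.div_eq_of_lt h2',
        add_comm (j * 2 ^ n), Nat.add_mul_div_right _ _ (by positivity),
        Nat.div_eq_of_lt hi] at h3
      change cls G e = j
      omega
    simp [h0]

/-- the last edges of a class -/
lemma fiber_fl (n I j : ℕ) (hI : I ≤ 2 ^ n) (G : SimpleGraph V) (e : Sym2 V) :
    ∫⁻ m, ENNReal.ofReal (ind (G.edgeSet ∩ {f | cls G f = j ∧ I ≤ fl n (m f).1}) e) ∂(mksM V)
      ≤ ENNReal.ofReal (1 - (I : ℝ) / 2 ^ n) *
        ENNReal.ofReal (ind (G.edgeSet ∩ {f | cls G f = j}) e) := by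
  classical
  by_cases h : e ∈ G.edgeSet ∩ {f | cls G f = j}
  · rw [ind_of_mem h, ENNReal.ofReal_one, mul_one]
    refine le_trans (lintegral_mono fun m => ?_) (fiber_mark_le (S := {t | I ≤ fl n t})
      ((measurable_fl n) (MeasurableSet.of_discrete (s := {i | I ≤ i}))) (vol_fl_ge_le hI) e)
    by_cases h1 : e ∈ G.edgeSet ∩ {f | cls G f = j ∧ I ≤ fl n (m f).1}
    · have h5 : (m e).1 ∈ {t | I ≤ fl n t} := h1.2.2
      rw [ind_of_mem h1, if_pos h5, ENNReal.ofReal_one]
    · rw [ind_of_notMem h1, ENNReal.ofReal_zero]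
      exact zero_le
  · have h0 : ∀ m : Mk V, ENNReal.ofReal
        (ind (G.edgeSet ∩ {f | cls G f = j ∧ I ≤ fl n (m f).1}) e) = 0 := by
      intro m
      rw [ind_of_notMem, ENNReal.ofReal_zero]
      rintro ⟨h1, h2⟩
      exact h ⟨h1, h2.1⟩
    simp [h0]

end Vale.Agent.P143
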