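import Vale.Agent.P143.LoHi

set_option autoImplicit false

namespace Vale.Agent.P143

open Filter Topology Set MeasureTheory
open scoped InnerProductSpace

universe u

variable {V : Type u}

/-- sum of `w` along a walk -/
noncomputable def wsum {G : SimpleGraph V} (w : V × V → ℝ) {a b : V} (p : G.Walk a b) : ℝ :=
  (p.darts.map fun d => w (d.fst, d.snd)).sum

lemma wsum_cons {G : SimpleGraph V} (w : V × V → ℝ) {a b c : V} (h : G.Adj a b)
    (p : G.Walk b c) : wsum w (SimpleGraph.Walk.cons h p) = w (a, b) + wsum w p := by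
  simp [wsum]

lemma wsum_append {G : SimpleGraph V} (w : V × V → ℝ) {a b c : V}
    (p : G.Walk a b) (q : G.Walk b c) : wsum w (p.append q) = wsum w p + wsum w q := by
  simp [wsum]

lemma wsum_reverse {G : SimpleGraph V} {w : V × V → ℝ} (hw : ∀ u v, w (u, v) = - w (v, u))
    {a b : V} (p : G.Walk a b) : wsum w p.reverse = - wsum w p := by
  induction p with
  | nil => simp [wsum]
  | cons h p ih =>
    rw [SimpleGraph.Walk.reverse_cons, wsum_append, ih, wsum_cons, wsum_cons]
    rw [hw]
    simp [wsum]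

lemma sum_getVert {G : SimpleGraph V} (w : V × V → ℝ) {a b : V} (p : G.Walk a b) :
    ∑ i ∈ Finset.range p.length, w (p.getVert i, p.getVert (i + 1)) = wsum w p := by
  induction p with
  | nil => simp [wsum]
  | cons h p ih =>
    rw [wsum_cons, ← ih, SimpleGraph.Walk.length_cons, Finset.sum_range_succ']
    simp only [SimpleGraph.Walk.getVert_cons_succ, SimpleGraph.Walk.getVert_zero]
    exact add_comm _ _

lemma inner_chainV (w : Hd V) (l : Seqs V) :
    ⟪w, chainV l⟫_ℝ
      = ∑ i : Fin l.1, (w (l.2 i.castSucc, l.2 i.succ) - w (l.2 i.succ, l.2 i.castSucc)) := by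
  unfold chainV
  rw [inner_sum]
  refine Finset.sum_congr rfl fun i _ => ?_
  rw [inner_sub_right, inner_dl_right, inner_dl_right]

lemma wsum_closed {G : SimpleGraph V} {w : Hd V} (hw : w ∈ WW G) {a : V} (p : G.Walk a a) :
    wsum w p = 0 := by
  set l : Seqs V := ⟨p.length, fun i => p.getVert i⟩ with hl
  have hloop : IsLoop G l := by
    refine ⟨fun i => ?_, ?_⟩
    · exact p.adj_getVert_succ i.2
    · change p.getVert 0 = p.getVert p.length
      simp
  have h1 : ⟪w, chainV l⟫_ℝ = 0 :=
    (Submodule.mem_orthogonal' _ _).1 hw.2 _ (Submodule.subset_span ⟨l, hloop, rfl⟩)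
  rw [inner_chainV] at h1
  have h2 : ∀ i : Fin l.1, w (l.2 i.castSucc, l.2 i.succ) - w (l.2 i.succ, l.2 i.castSucc)
      = 2 * w (p.getVert i, p.getVert (i + 1)) := by
    intro i
    rw [hw.1.1 (l.2 i.succ) (l.2 i.castSucc)]
    change w (p.getVert i, p.getVert (i + 1)) - -w (p.getVert i, p.getVert (i + 1)) = _
    ring
  rw [Finset.sum_congr rfl fun i _ => h2 i, ← Finset.mul_sum] at h1
  have h3 := sum_getVert w p
  have h4 : ∑ i : Fin l.1, w (p.getVert i, p.getVert (i + 1)) = 0 := by linarith
  rw [← h3, Finset.sum_range]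
  exact h4

lemma exists_grad {G : SimpleGraph V} (hG : G.Connected) {w : Hd V} (hw : w ∈ WW G) :
    ∃ k : V → ℝ, ∀ x y, G.Adj x y → k y - k x = w (x, y) := by
  have := hG.nonempty
  let o : V := Classical.arbitrary V
  have hp : ∀ x : V, Nonempty (G.Walk o x) := fun x => hG.preconnected o x
  let p : ∀ x : V, G.Walk o x := fun x => Classical.choice (hp x)
  refine ⟨fun x => wsum w (p x), fun x y hxy => ?_⟩
  have h1 := wsum_closed hw (((p x).append (SimpleGraph.Walk.cons hxy SimpleGraph.Walk.nil)).append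
    (p y).reverse)
  rw [wsum_append, wsum_append, wsum_cons, wsum_reverse hw.1.1] at h1
  have h2 : wsum w (SimpleGraph.Walk.nil : G.Walk y y) = 0 := by simp [wsum]
  rw [h2] at h1
  linarith

end Vale.Agent.P143
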