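import Mathlib

set_option autoImplicit false

namespace Vale.Agent.P143

universe u

/-- `T` is the edge set of a spanning tree of `H`. -/
def IsSpTree {α : Type u} (H : SimpleGraph α) (T : Set (Sym2 α)) : Prop :=
  T ⊆ H.edgeSet ∧ (SimpleGraph.fromEdgeSet T).IsTree

/-- Number of spanning trees containing `A` and avoiding `B`. -/
noncomputable def treeCount {α : Type u} (H : SimpleGraph α) (A B : Set (Sym2 α)) : ℕ :=
  {T : Set (Sym2 α) | IsSpTree H T ∧ A ⊆ T ∧ Disjoint T B}.ncard

/-- Reachability along the edges of `F`. -/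
def kR {α : Type u} (F : Set (Sym2 α)) (a b : α) : Prop :=
  (SimpleGraph.fromEdgeSet F).Reachable a b

lemma kR.refl {α : Type u} (F : Set (Sym2 α)) (a : α) : kR F a a := SimpleGraph.Reachable.refl a

lemma kR.symm {α : Type u} {F : Set (Sym2 α)} {a b : α} (h : kR F a b) : kR F b a :=
  SimpleGraph.Reachable.symm h

lemma kR.trans {α : Type u} {F : Set (Sym2 α)} {a b c : α} (h : kR F a b) (h' : kR F b c) :
    kR F a c :=
  SimpleGraph.Reachable.trans h h'

lemma kR.mono {α : Type u} {F F' : Set (Sym2 α)} (hF : F ⊆ F') {a b : α} (h : kR F a b) :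
    kR F' a b :=
  SimpleGraph.Reachable.mono (SimpleGraph.fromEdgeSet_mono hF) h

lemma kR.of_mem {α : Type u} {F : Set (Sym2 α)} {a b : α} (h : s(a, b) ∈ F) : kR F a b := by
  by_cases hab : a = b
  · subst hab; exact kR.refl _ _
  · exact SimpleGraph.Adj.reachable (by simp [h, hab])

/-- `F` is a forest with the two components of `a` and of `b`. -/
structure kSep {α : Type u} (F : Set (Sym2 α)) (a b : α) : Prop where
  acyc : (SimpleGraph.fromEdgeSet F).IsAcyclic
  nreach : ¬ kR F a b
  cover : ∀ w, kR F a w ∨ kR F b w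

lemma kSep.move {α : Type u} {F : Set (Sym2 α)} {a b x y : α} (h : kSep F a b)
    (hx : kR F a x) (hy : kR F b y) : kSep F x y where
  acyc := h.acyc
  nreach := fun hxy => h.nreach (hx.trans (hxy.trans hy.symm))
  cover := fun w => (h.cover w).imp (fun hw => hx.symm.trans hw) (fun hw => hy.symm.trans hw)

lemma kSep.swap {α : Type u} {F : Set (Sym2 α)} {a b : α} (h : kSep F a b) : kSep F b a where
  acyc := h.acyc
  nreach := fun hxy => h.nreach hxy.symm
  cover := fun w => (h.cover w).symm

lemma kSep.ne {α : Type u} {F : Set (Sym2 α)} {a b : α} (h : kSep F a b) : a ≠ b := by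
  rintro rfl
  exact h.nreach (kR.refl _ _)

lemma kSep.notMem {α : Type u} {F : Set (Sym2 α)} {a b : α} (h : kSep F a b) : s(a, b) ∉ F :=
  fun hm => h.nreach (kR.of_mem hm)

lemma kSep_of_tree {α : Type u} {T : Set (Sym2 α)} {a b : α}
    (hT : (SimpleGraph.fromEdgeSet T).IsTree) (hab : s(a, b) ∈ T) (hne : a ≠ b) :
    kSep (T \ {s(a, b)}) a b := by
  refine ⟨hT.isAcyclic.anti (SimpleGraph.fromEdgeSet_mono Set.sdiff_subset), ?_, ?_⟩
  · have h1 := (SimpleGraph.isAcyclic_iff_forall_adj_isBridge.1 hT.isAcyclic)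
      (v := a) (w := b) (by simp [hab, hne])
    rw [SimpleGraph.isBridge_iff] at h1
    intro h2
    apply h1
    have h3 : (SimpleGraph.fromEdgeSet T).deleteEdges {s(a, b)}
        = SimpleGraph.fromEdgeSet (T \ {s(a, b)}) := by
      ext x y
      simp
    rw [h3]
    exact h2
  · intro w
    have hw := hT.connected.preconnected a w
    obtain ⟨p⟩ := hw
    have hgen : ∀ (c d : α) (p : (SimpleGraph.fromEdgeSet T).Walk c d),
        (kR (T \ {s(a, b)}) a c ∨ kR (T \ {s(a, b)}) b c) →
        (kR (T \ {s(a, b)}) a d ∨ kR (T \ {s(a, b)}) b d) := by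
      intro c d p
      induction p with
      | nil => exact id
      | @cons c c' d hadj p ih =>
        intro hc
        apply ih
        rw [SimpleGraph.fromEdgeSet_adj] at hadj
        by_cases he : s(c, c') = s(a, b)
        · rw [Sym2.eq_iff] at he
          rcases he with ⟨h1, h2⟩ | ⟨h1, h2⟩
          · right; rw [h2]; exact kR.refl _ _
          · left; rw [h2]; exact kR.refl _ _
        · have hcc : kR (T \ {s(a, b)}) c c' := kR.of_mem ⟨hadj.1, he⟩
          exact hc.imp (fun h => h.trans hcc) (fun h => h.trans hcc)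
    exact hgen a w p (Or.inl (kR.refl _ _))

lemma tree_of_kSep {α : Type u} {F : Set (Sym2 α)} {a b : α} (h : kSep F a b) :
    (SimpleGraph.fromEdgeSet (insert s(a, b) F)).IsTree := by
  have hins : F ⊆ insert s(a, b) F := Set.subset_insert _ _
  refine ⟨?_, ?_⟩
  · rw [SimpleGraph.connected_iff_exists_forall_reachable]
    refine ⟨a, fun w => ?_⟩
    rcases h.cover w with hw | hw
    · exact kR.mono hins hw
    · exact (kR.of_mem (Set.mem_insert _ _)).trans (kR.mono hins hw)
  · have h1 : SimpleGraph.fromEdgeSet (insert s(a, b) F)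
        = SimpleGraph.fromEdgeSet F ⊔ SimpleGraph.edge a b := by
      ext x y
      simp [SimpleGraph.edge_adj]
      tauto
    rw [h1]
    exact h.acyc.sup_edge_of_not_reachable h.nreach

open Classical in
/-- The indicator that `w` is reachable from `a` in `F`. -/
noncomputable def ki {α : Type u} (F : Set (Sym2 α)) (a w : α) : ℝ := if kR F a w then 1 else 0

open Classical in
/-- The set of the spanning trees. -/
noncomputable def kTT {α : Type u} [Fintype α] (H : SimpleGraph α) (A B : Set (Sym2 α)) :
    Finset (Set (Sym2 α)) :=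
  Finset.univ.filter fun T => IsSpTree H T ∧ A ⊆ T ∧ Disjoint T B

open Classical in
/-- The set of the two-component forests separating `a` and `b`. -/
noncomputable def kFF {α : Type u} [Fintype α] (H : SimpleGraph α) (A B : Set (Sym2 α))
    (a b : α) : Finset (Set (Sym2 α)) :=
  Finset.univ.filter fun F => (F ⊆ H.edgeSet ∧ A ⊆ F ∧ Disjoint F B) ∧ kSep F a b

lemma mem_kTT {α : Type u} [Fintype α] {H : SimpleGraph α} {A B T : Set (Sym2 α)} :
    T ∈ kTT H A B ↔ IsSpTree H T ∧ A ⊆ T ∧ Disjoint T B := by
  simp [kTT]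

lemma mem_kFF {α : Type u} [Fintype α] {H : SimpleGraph α} {A B F : Set (Sym2 α)} {a b : α} :
    F ∈ kFF H A B a b ↔ (F ⊆ H.edgeSet ∧ A ⊆ F ∧ Disjoint F B) ∧ kSep F a b := by
  simp [kFF]

lemma treeCount_eq {α : Type u} [Fintype α] (H : SimpleGraph α) (A B : Set (Sym2 α)) :
    treeCount H A B = (kTT H A B).card := by
  have h : {T : Set (Sym2 α) | IsSpTree H T ∧ A ⊆ T ∧ Disjoint T B}
      = (kTT H A B : Set (Set (Sym2 α))) := by
    ext T
    simp [mem_kTT]
  rw [treeCount, h, Set.ncard_coe_finset]

open Classical in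
lemma kbij {α : Type u} [Fintype α] (H : SimpleGraph α) (A B : Set (Sym2 α)) (a b : α)
    (hab : H.Adj a b) (hA : s(a, b) ∉ A) (hB : s(a, b) ∉ B) (φ : Set (Sym2 α) → ℝ) :
    ∑ T ∈ kTT H A B, (if s(a, b) ∈ T then φ (T \ {s(a, b)}) else 0)
      = ∑ F ∈ kFF H A B a b, φ F := by
  rw [← Finset.sum_filter]
  refine Finset.sum_nbij' (fun T => T \ {s(a, b)}) (fun F => insert s(a, b) F) ?_ ?_ ?_ ?_ ?_
  · intro T hT
    rw [Finset.mem_filter, mem_kTT] at hT
    obtain ⟨⟨hT, hTA, hTB⟩, hm⟩ := hT
    rw [mem_kFF]
    refine ⟨⟨Set.sdiff_subset.trans hT.1, ?_, hTB.mono_left Set.sdiff_subset⟩,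
      kSep_of_tree hT.2 hm hab.ne⟩
    intro e he
    refine ⟨hTA he, ?_⟩
    rintro rfl
    exact hA he
  · intro F hF
    rw [mem_kFF] at hF
    obtain ⟨⟨hF1, hF2, hF3⟩, hF4⟩ := hF
    rw [Finset.mem_filter, mem_kTT]
    refine ⟨⟨⟨?_, tree_of_kSep hF4⟩, hF2.trans (Set.subset_insert _ _), ?_⟩,
      Set.mem_insert _ _⟩
    · intro e he
      rcases Set.mem_insert_iff.1 he with rfl | he
      · exact hab
      · exact hF1 he
    · rw [Set.disjoint_insert_left]
      exact ⟨hB, hF3⟩
  · intro T hT
    rw [Finset.mem_filter] at hT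
    exact Set.insert_sdiff_self_of_mem hT.2
  · intro F hF
    rw [mem_kFF] at hF
    exact Set.insert_sdiff_self_of_notMem hF.2.notMem
  · intro T hT
    rfl

open Classical in
lemma kstep {α : Type u} {T : Set (Sym2 α)} (hT : (SimpleGraph.fromEdgeSet T).IsTree)
    {p q : α} (hpq : s(p, q) ∈ T) (hne : p ≠ q) {x y : α} (hxy : s(x, y) ∈ T) (hxyne : x ≠ y) :
    ki (T \ {s(x, y)}) y q - ki (T \ {s(x, y)}) y p =
      (if x = p ∧ y = q then (1 : ℝ) else 0) - (if x = q ∧ y = p then (1 : ℝ) else 0) := by
  have hs := kSep_of_tree hT hxy hxyne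
  by_cases he : s(x, y) = s(p, q)
  · rw [Sym2.eq_iff] at he
    rcases he with ⟨h1, h2⟩ | ⟨h1, h2⟩
    · subst h1; subst h2
      have h3 : ¬ (x = y ∧ y = x) := fun h => hne h.1
      rw [if_pos ⟨rfl, rfl⟩, if_neg h3]
      unfold ki
      rw [if_pos (kR.refl _ _), if_neg (fun h => hs.nreach (kR.symm h))]
    · subst h1; subst h2
      have h3 : ¬ (x = y ∧ y = x) := fun h => hne h.2
      rw [if_neg h3, if_pos ⟨rfl, rfl⟩]
      unfold ki
      rw [if_pos (kR.refl _ _), if_neg (fun h => hs.nreach (kR.symm h))]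
  · have h1 : ¬ (x = p ∧ y = q) := by
      rintro ⟨rfl, rfl⟩; exact he rfl
    have h2 : ¬ (x = q ∧ y = p) := by
      rintro ⟨rfl, rfl⟩; exact he Sym2.eq_swap
    rw [if_neg h1, if_neg h2]
    have h3 : kR (T \ {s(x, y)}) p q := kR.of_mem ⟨hpq, fun h => he (by simpa using h.symm)⟩
    unfold ki
    by_cases h4 : kR (T \ {s(x, y)}) y q
    · rw [if_pos h4, if_pos (h4.trans h3.symm)]; simp
    · rw [if_neg h4, if_neg (fun h => h4 (h.trans h3))]

open Classical in
lemma ktree {α : Type u} [Fintype α] {H : SimpleGraph α} {T : Set (Sym2 α)}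
    (hT : IsSpTree H T) (k : α → ℝ) (u v : α) :
    k v - k u = (1 / 2) * ∑ x, ∑ y,
      (if s(x, y) ∈ T then
        (ki (T \ {s(x, y)}) y v - ki (T \ {s(x, y)}) y u) * (k y - k x) else 0) := by
  set Ψ : α → ℝ := fun w => (1 / 2) * ∑ x, ∑ y,
      (if s(x, y) ∈ T then ki (T \ {s(x, y)}) y w * (k y - k x) else 0) with hΨ
  have hdiff : ∀ p q : α, Ψ q - Ψ p = (1 / 2) * ∑ x, ∑ y,
      (if s(x, y) ∈ T then
        (ki (T \ {s(x, y)}) y q - ki (T \ {s(x, y)}) y p) * (k y - k x) else 0) := by
    intro p q
    simp only [hΨ]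
    rw [← mul_sub, ← Finset.sum_sub_distrib]
    congr 1
    refine Finset.sum_congr rfl fun x _ => ?_
    rw [← Finset.sum_sub_distrib]
    refine Finset.sum_congr rfl fun y _ => ?_
    split_ifs
    · ring
    · ring
  have hadj : ∀ p q : α, (SimpleGraph.fromEdgeSet T).Adj p q → Ψ q - Ψ p = k q - k p := by
    intro p q hpq
    rw [SimpleGraph.fromEdgeSet_adj] at hpq
    rw [hdiff]
    have h1 : ∀ x y : α, (if s(x, y) ∈ T then
        (ki (T \ {s(x, y)}) y q - ki (T \ {s(x, y)}) y p) * (k y - k x) else 0)
        = (if x = p then (if y = q then (k q - k p) else 0) else 0)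
          + (if x = q then (if y = p then (k q - k p) else 0) else 0) := by
      intro x y
      by_cases hm : s(x, y) ∈ T
      · have hxy : x ≠ y := by
          have := hT.1 hm
          exact SimpleGraph.Adj.ne this
        rw [if_pos hm, kstep hT.2 hpq.1 hpq.2 hm hxy]
        by_cases hx : x = p
        · by_cases hy : y = q
          · have h3 : ¬ (x = q ∧ y = p) := fun h => hpq.2 (hx.symm.trans h.1)
            have h4 : ¬ (x = q) := fun h => hpq.2 (hx.symm.trans h)
            rw [if_pos ⟨hx, hy⟩, if_neg h3, if_pos hx, if_pos hy, if_neg h4, hx, hy]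
            ring
          · have h3 : ¬ (x = q) := fun h => hpq.2 (hx.symm.trans h)
            simp [hy, h3]
        · by_cases hx' : x = q
          · by_cases hy : y = p
            · have h3 : ¬ (x = p ∧ y = q) := fun h => hx h.1
              rw [if_neg h3, if_pos ⟨hx', hy⟩, if_neg hx, if_pos hx', if_pos hy, hx', hy]
              ring
            · simp [hx, hy]
          · simp [hx, hx']
      · rw [if_neg hm]
        by_cases hx : x = p
        · by_cases hy : y = q
          · exact absurd hpq.1 (by rw [← hx, ← hy]; exact hm)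
          · have h3 : ¬ (x = q) := fun h => hpq.2 (hx.symm.trans h)
            simp [hy, h3]
        · by_cases hx' : x = q
          · by_cases hy : y = p
            · exact absurd hpq.1 (by rw [← hx', ← hy, Sym2.eq_swap]; exact hm)
            · simp [hx, hy]
          · simp [hx, hx']
    simp only [h1]
    simp only [Finset.sum_add_distrib, Finset.sum_ite_eq', Finset.mem_univ, if_true,
      Finset.sum_ite_irrel, Finset.sum_const_zero]
    ring
  rw [← hdiff]
  have hw := hT.2.connected.preconnected u v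
  obtain ⟨p⟩ := hw
  induction p with
  | nil => simp
  | @cons c c' d h p ih =>
    have h1 := hadj c c' h
    linarith

open Classical in
lemma kkey {α : Type u} [Fintype α] (H : SimpleGraph α) (A B : Set (Sym2 α)) (u v x y : α)
    (hxy : H.Adj x y) (hA : s(x, y) ∉ A) (hB : s(x, y) ∉ B) :
    ∑ T ∈ kTT H A B, (if s(x, y) ∈ T then
        (ki (T \ {s(x, y)}) y v - ki (T \ {s(x, y)}) y u) else 0)
      = ∑ F ∈ kFF H A B u v, (ki F v y - ki F v x) := by
  rw [kbij H A B x y hxy hA hB (fun F => ki F y v - ki F y u)]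
  unfold kFF
  rw [Finset.sum_filter, Finset.sum_filter]
  refine Finset.sum_congr rfl fun F _ => ?_
  by_cases hP : F ⊆ H.edgeSet ∧ A ⊆ F ∧ Disjoint F B
  · simp only [hP, and_self, true_and]
    by_cases h1 : kSep F x y
    · by_cases h2 : kSep F u v
      · rw [if_pos h1, if_pos h2]
        have e1 : ki F y v = ki F v y := by
          unfold ki
          by_cases h : kR F y v
          · rw [if_pos h, if_pos h.symm]
          · rw [if_neg h, if_neg (fun h' => h (kR.symm h'))]
        have e2 : ki F y u = ki F v x := by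
          unfold ki
          by_cases h : kR F y u
          · have h3 : kR F v x := by
              rcases h2.cover x with h4 | h4
              · exact absurd (h.trans h4).symm h1.nreach
              · exact h4
            rw [if_pos h, if_pos h3]
          · have h3 : ¬ kR F v x := by
              intro h4
              rcases h1.cover u with h5 | h5
              · exact h2.nreach ((h4.trans h5).symm)
              · exact h h5
            rw [if_neg h, if_neg h3]
        rw [e1, e2]
      · rw [if_pos h1, if_neg h2]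
        unfold ki
        by_cases h3 : kR F y v
        · by_cases h4 : kR F y u
          · rw [if_pos h3, if_pos h4]; simp
          · exfalso
            have h5 : kR F x u := (h1.cover u).resolve_right h4
            exact h2 (h1.move h5 h3)
        · by_cases h4 : kR F y u
          · exfalso
            have h5 : kR F x v := (h1.cover v).resolve_right h3
            exact h2 (h1.move h5 h4).swap
          · rw [if_neg h3, if_neg h4]; simp
    · by_cases h2 : kSep F u v
      · rw [if_neg h1, if_pos h2]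
        unfold ki
        by_cases h3 : kR F v y
        · by_cases h4 : kR F v x
          · rw [if_pos h3, if_pos h4]; simp
          · exfalso
            have h5 : kR F u x := (h2.cover x).resolve_right h4
            exact h1 (h2.move h5 h3)
        · by_cases h4 : kR F v x
          · exfalso
            have h5 : kR F u y := (h2.cover y).resolve_right h3
            exact h1 (h2.move h5 h4).swap
          · rw [if_neg h3, if_neg h4]; simp
      · rw [if_neg h1, if_neg h2]
  · simp [hP]

open Classical in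
theorem kirchhoff {α : Type u} [Fintype α] (H : SimpleGraph α) (A B : Set (Sym2 α)) (u v : α)
    (huv : H.Adj u v) (hA : s(u, v) ∉ A) (hB : s(u, v) ∉ B) (hN : treeCount H A B ≠ 0) :
    ∃ h : α → ℝ, (∀ x y, s(x, y) ∈ A → h x = h y) ∧
      (h v - h u) * (treeCount H A B : ℝ) = (treeCount H (insert s(u, v) A) B : ℝ) ∧
      ∀ k : α → ℝ, (∀ x y, s(x, y) ∈ A → k x = k y) →
        k v - k u = (1 / 2) * ∑ x, ∑ y,
          if H.Adj x y ∧ s(x, y) ∉ B then (h y - h x) * (k y - k x) else 0 := by
  have hN' : (treeCount H A B : ℝ) ≠ 0 := by exact_mod_cast hN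
  set N : ℝ := (treeCount H A B : ℝ) with hNdef
  have hcard : ((kTT H A B).card : ℝ) = N := by rw [hNdef, treeCount_eq]
  refine ⟨fun w => (∑ F ∈ kFF H A B u v, ki F v w) / N, ?_, ?_, ?_⟩
  · intro x y hxy
    simp only
    congr 1
    refine Finset.sum_congr rfl fun F hF => ?_
    rw [mem_kFF] at hF
    have h1 : kR F x y := kR.of_mem (hF.1.2.1 hxy)
    unfold ki
    by_cases h : kR F v x
    · rw [if_pos h, if_pos (h.trans h1)]
    · rw [if_neg h, if_neg (fun h' => h (h'.trans h1.symm))]
  · simp only
    rw [← sub_div, div_mul_cancel₀ _ hN', ← Finset.sum_sub_distrib]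
    have h1 : ∑ F ∈ kFF H A B u v, (ki F v v - ki F v u) = ∑ F ∈ kFF H A B u v, (1 : ℝ) := by
      refine Finset.sum_congr rfl fun F hF => ?_
      rw [mem_kFF] at hF
      unfold ki
      rw [if_pos (kR.refl _ _), if_neg (fun h => hF.2.nreach (kR.symm h))]
      simp
    rw [h1, ← kbij H A B u v huv hA hB (fun _ => (1 : ℝ)), ← Finset.sum_filter]
    rw [treeCount_eq, Finset.sum_const, nsmul_eq_mul, mul_one]
    congr 2
    ext T
    simp only [Finset.mem_filter, mem_kTT, Set.insert_subset_iff]
    tauto
  · intro k hk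
    have h1 : N * (k v - k u) = ∑ T ∈ kTT H A B, (k v - k u) := by
      rw [Finset.sum_const, nsmul_eq_mul, hcard]
    have h2 : ∑ T ∈ kTT H A B, (k v - k u) = (1 / 2) * ∑ x, ∑ y, ∑ T ∈ kTT H A B,
        (if s(x, y) ∈ T then
          (ki (T \ {s(x, y)}) y v - ki (T \ {s(x, y)}) y u) * (k y - k x) else 0) := by
      rw [Finset.sum_congr rfl fun T hT => ktree (mem_kTT.1 hT).1 k u v]
      rw [← Finset.mul_sum]
      congr 1
      rw [Finset.sum_comm]
      refine Finset.sum_congr rfl fun x _ => ?_
      rw [Finset.sum_comm]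
    have h3 : ∀ x y, ∑ T ∈ kTT H A B,
        (if s(x, y) ∈ T then
          (ki (T \ {s(x, y)}) y v - ki (T \ {s(x, y)}) y u) * (k y - k x) else 0)
        = N * (if H.Adj x y ∧ s(x, y) ∉ B then
            ((∑ F ∈ kFF H A B u v, ki F v y) / N - (∑ F ∈ kFF H A B u v, ki F v x) / N)
              * (k y - k x) else 0) := by
      intro x y
      by_cases hxy : H.Adj x y ∧ s(x, y) ∉ B
      · rw [if_pos hxy]
        by_cases hxA : s(x, y) ∈ A
        · rw [hk x y hxA]
          simp
        · have h4 := kkey H A B u v x y hxy.1 hxA hxy.2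
          rw [Finset.sum_sub_distrib] at h4
          have h5 : ∑ T ∈ kTT H A B,
              (if s(x, y) ∈ T then
                (ki (T \ {s(x, y)}) y v - ki (T \ {s(x, y)}) y u) * (k y - k x) else 0)
              = (∑ T ∈ kTT H A B, (if s(x, y) ∈ T then
                (ki (T \ {s(x, y)}) y v - ki (T \ {s(x, y)}) y u) else 0)) * (k y - k x) := by
            rw [Finset.sum_mul]
            refine Finset.sum_congr rfl fun T _ => ?_
            split_ifs
            · rfl
            · ring
          rw [h5, h4]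
          field_simp
      · rw [if_neg hxy, mul_zero]
        refine Finset.sum_eq_zero fun T hT => ?_
        rw [mem_kTT] at hT
        have h4 : s(x, y) ∉ T := by
          intro h5
          exact hxy ⟨hT.1.1 h5, fun h6 => Set.disjoint_left.1 hT.2.2 h5 h6⟩
        rw [if_neg h4]
    simp only [h3, ← Finset.mul_sum] at h2
    have h4 : N * (k v - k u) = N * ((1 / 2) * ∑ x, ∑ y,
          if H.Adj x y ∧ s(x, y) ∉ B then
            ((∑ F ∈ kFF H A B u v, ki F v y) / N - (∑ F ∈ kFF H A B u v, ki F v x) / N)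
              * (k y - k x) else 0) := by
      rw [h1, h2]; ring
    exact mul_left_cancel₀ hN' h4

end Vale.Agent.P143
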