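import Vale.Agent.P143.Defs
import Vale.Agent.P143.Kirchhoff
import Vale.Agent.P143.Grad

set_option autoImplicit false

namespace Vale.Agent.P143

open Filter Topology Set MeasureTheory
open scoped InnerProductSpace

universe u

variable {V : Type u}

/-- Number of spanning trees of `H` containing `A` and avoiding `B`. -/
noncomputable def stCount {G : SimpleGraph V} (H : G.Subgraph) (A B : Set (Sym2 V)) : ℕ :=
  {T | IsSpanningTreeOf H T ∧ A ⊆ T ∧ Disjoint T B}.ncard

/-- the embedding of unordered pairs -/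
def em {G : SimpleGraph V} (H : G.Subgraph) : Sym2 H.verts → Sym2 V := Sym2.map Subtype.val

lemma em_mk {G : SimpleGraph V} (H : G.Subgraph) (x y : H.verts) :
    em H s(x, y) = s(x.1, y.1) := rfl

lemma em_inj {G : SimpleGraph V} (H : G.Subgraph) : Function.Injective (em H) :=
  Sym2.map.injective Subtype.val_injective

lemma edgeSet_subset_range {G : SimpleGraph V} (H : G.Subgraph) : H.edgeSet ⊆ range (em H) := by
  intro e he
  induction e with
  | h a b =>
    have hab : H.Adj a b := he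
    exact ⟨s(⟨a, hab.fst_mem⟩, ⟨b, hab.snd_mem⟩), rfl⟩

lemma mem_coe_edgeSet {G : SimpleGraph V} (H : G.Subgraph) (e : Sym2 H.verts) :
    e ∈ H.coe.edgeSet ↔ em H e ∈ H.edgeSet := by
  induction e with
  | h a b => exact Iff.rfl

lemma induce_image {G : SimpleGraph V} (H : G.Subgraph) (T : Set (Sym2 H.verts)) :
    (SimpleGraph.fromEdgeSet (em H '' T)).induce H.verts = SimpleGraph.fromEdgeSet T := by
  ext x y
  simp only [SimpleGraph.comap_adj, SimpleGraph.fromEdgeSet_adj, Function.Embedding.subtype_apply,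
    ne_eq]
  rw [← em_mk H x y, (em_inj H).mem_set_image, Subtype.coe_inj]

lemma isSpTree_iff {G : SimpleGraph V} (H : G.Subgraph) (T : Set (Sym2 H.verts)) :
    IsSpanningTreeOf H (em H '' T) ↔ IsSpTree H.coe T := by
  unfold IsSpanningTreeOf IsSpTree
  rw [induce_image, image_subset_iff]
  refine and_congr ?_ Iff.rfl
  constructor
  · intro h e he
    exact (mem_coe_edgeSet H e).2 (h he)
  · intro h e he
    exact (mem_coe_edgeSet H e).1 (h he)

lemma stCount_eq {G : SimpleGraph V} (H : G.Subgraph) {A B : Set (Sym2 V)}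
    (hA : A ⊆ H.edgeSet) : stCount H A B = treeCount H.coe (em H ⁻¹' A) (em H ⁻¹' B) := by
  unfold stCount treeCount
  rw [← Set.ncard_image_of_injective _ ((em_inj H).image_injective)]
  congr 1
  ext T
  simp only [mem_ofPred_eq, mem_image]
  constructor
  · rintro ⟨hT, hAT, hBT⟩
    have hTr : em H '' (em H ⁻¹' T) = T :=
      image_preimage_eq_iff.2 (hT.1.trans (edgeSet_subset_range H))
    refine ⟨em H ⁻¹' T, ⟨?_, ?_, ?_⟩, hTr⟩
    · rw [← isSpTree_iff, hTr]
      exact hT
    · exact preimage_mono hAT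
    · exact hBT.preimage _
  · rintro ⟨T', ⟨hT, hAT, hBT⟩, rfl⟩
    refine ⟨(isSpTree_iff H T').2 hT, ?_, ?_⟩
    · have hAr : em H '' (em H ⁻¹' A) = A :=
        image_preimage_eq_iff.2 (hA.trans (edgeSet_subset_range H))
      rw [← hAr]
      exact image_mono hAT
    · rw [Set.disjoint_image_left]
      exact hBT

open Classical in
lemma DD_summable {G : SimpleGraph V} {H : G.Subgraph} (hf : H.verts.Finite) (h : V → ℝ) :
    Summable fun p : V × V => (if H.Adj p.1 p.2 then h p.2 - h p.1 else 0) ^ 2 := by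
  apply summable_of_finite_support
  refine (hf.prod hf).subset ?_
  rintro ⟨x, y⟩ hxy
  by_cases hadj : H.Adj x y
  · exact ⟨hadj.fst_mem, hadj.snd_mem⟩
  · simp [hadj] at hxy

open Classical in
/-- Gradient of `h` along the edges of `H`. -/
noncomputable def DD {G : SimpleGraph V} {H : G.Subgraph} (hf : H.verts.Finite) (h : V → ℝ) :
    Hd V :=
  mkHd (fun p => if H.Adj p.1 p.2 then h p.2 - h p.1 else 0) (DD_summable hf h)

lemma DD_apply_adj {G : SimpleGraph V} {H : G.Subgraph} (hf : H.verts.Finite) (h : V → ℝ)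
    {x y : V} (hxy : H.Adj x y) : DD hf h (x, y) = h y - h x := by
  simp [DD, hxy]

lemma DD_apply_not {G : SimpleGraph V} {H : G.Subgraph} (hf : H.verts.Finite) (h : V → ℝ)
    {x y : V} (hxy : ¬ H.Adj x y) : DD hf h (x, y) = 0 := by
  simp [DD, hxy]

lemma inner_DD {G : SimpleGraph V} {H : G.Subgraph} (hf : H.verts.Finite) [Fintype H.verts]
    (h : V → ℝ) (B : Set (Sym2 V)) (z : Hd V) :
    ⟪restr (dset Bᶜ) (DD hf h), z⟫_ℝ
      = ∑ x : H.verts, ∑ y : H.verts, restr (dset Bᶜ) (DD hf h) (x.1, y.1) * z (x.1, y.1) := by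
  have h1 := hasSum_inner' (restr (dset Bᶜ) (DD hf h)) z
  let g : H.verts × H.verts → V × V := Prod.map Subtype.val Subtype.val
  have hg : Function.Injective g := Subtype.val_injective.prodMap Subtype.val_injective
  have h2 : ∀ p ∉ range g, restr (dset Bᶜ) (DD hf h) p * z p = 0 := by
    rintro ⟨x, y⟩ hp
    have hn : ¬ H.Adj x y := by
      intro hadj
      exact hp ⟨(⟨x, hadj.fst_mem⟩, ⟨y, hadj.snd_mem⟩), rfl⟩
    have h3 : restr (dset Bᶜ) (DD hf h) (x, y) = 0 := by
      by_cases hB : (x, y) ∈ dset Bᶜ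
      · rw [restr_apply_mem hB, DD_apply_not hf h hn]
      · rw [restr_apply_notMem hB]
    rw [h3, zero_mul]
  have h3 := (hg.hasSum_iff h2).2 h1
  have h4 := h3.unique (hasSum_fintype _)
  rw [h4, Fintype.sum_prod_type]
  rfl

/-- Kirchhoff's formula for subgraphs. -/
lemma kirchhoff_sub {G : SimpleGraph V} {H : G.Subgraph} (hf : H.verts.Finite)
    {A B : Set (Sym2 V)} (hA : A ⊆ H.edgeSet) {u v : V} (huv : H.Adj u v)
    (huA : s(u, v) ∉ A) (huB : s(u, v) ∉ B) (hN : stCount H A B ≠ 0) :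
    ∃ h : V → ℝ, (∀ x y, s(x, y) ∈ A → h x = h y) ∧
      (h v - h u) * (stCount H A B : ℝ) = (stCount H (insert s(u, v) A) B : ℝ) ∧
      ∀ k : V → ℝ, (∀ x y, s(x, y) ∈ A → k x = k y) →
        k v - k u = (1 / 2) * ⟪restr (dset Bᶜ) (DD hf h), DD hf k⟫_ℝ := by
  classical
  haveI : Fintype H.verts := hf.fintype
  set u' : H.verts := ⟨u, huv.fst_mem⟩ with hu'
  set v' : H.verts := ⟨v, huv.snd_mem⟩ with hv'
  have he : em H s(u', v') = s(u, v) := rfl
  have hA' : insert s(u, v) A ⊆ H.edgeSet := insert_subset huv hA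
  have hins : em H ⁻¹' (insert s(u, v) A) = insert s(u', v') (em H ⁻¹' A) := by
    ext e
    simp only [mem_preimage, mem_insert_iff]
    rw [← he, (em_inj H).eq_iff]
  rw [stCount_eq H hA] at hN
  obtain ⟨h', h1, h2, h3⟩ := kirchhoff H.coe (em H ⁻¹' A) (em H ⁻¹' B) u' v' huv huA huB hN
  set h : V → ℝ := fun x => if hx : x ∈ H.verts then h' ⟨x, hx⟩ else 0 with hh
  have hval : ∀ x : H.verts, h x.1 = h' x := by
    intro x
    simp [hh, x.2]
  refine ⟨h, ?_, ?_, ?_⟩
  · intro x y hxy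
    have hadj : H.Adj x y := hA hxy
    have := h1 ⟨x, hadj.fst_mem⟩ ⟨y, hadj.snd_mem⟩ hxy
    rw [← hval, ← hval] at this
    exact this
  · rw [stCount_eq H hA, stCount_eq H hA', hins, ← h2]
    rw [← hval v', ← hval u']
  · intro k hk
    have h4 := h3 (fun x => k x.1) (fun x y hxy => hk x.1 y.1 hxy)
    rw [inner_DD]
    change k v - k u = _ at h4
    rw [h4]
    congr 1
    refine Finset.sum_congr rfl fun x _ => Finset.sum_congr rfl fun y _ => ?_
    by_cases hadj : H.Adj x.1 y.1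
    · by_cases hB : s(x.1, y.1) ∈ B
      · have hn : ¬ (H.coe.Adj x y ∧ s(x, y) ∉ em H ⁻¹' B) := fun h => h.2 hB
        rw [if_neg hn, restr_apply_notMem (S := dset Bᶜ) (fun h => h hB), zero_mul]
      · have hp : (H.coe.Adj x y ∧ s(x, y) ∉ em H ⁻¹' B) := ⟨hadj, hB⟩
        rw [if_pos hp, restr_apply_mem (S := dset Bᶜ) hB, DD_apply_adj hf h hadj,
          DD_apply_adj hf k hadj, hval, hval]
    · have hn : ¬ (H.coe.Adj x y ∧ s(x, y) ∉ em H ⁻¹' B) := fun h => hadj h.1
      rw [if_neg hn, DD_apply_not hf k hadj, mul_zero]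

end Vale.Agent.P143
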