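import Vale.Agent.P143.Defs
import Vale.Agent.P143.Kirchhoff
import Vale.Agent.P143.Cap
import Vale.Agent.P143.KirV

set_option autoImplicit false

namespace Vale.Agent.P143

open Filter Topology Set MeasureTheory
open scoped InnerProductSpace

universe u

variable {V : Type u}

section bounds

variable {G : SimpleGraph V} {H : G.Subgraph} (hf : H.verts.Finite) {A B : Set (Sym2 V)}
  {u v : V} {h : V → ℝ}

lemma theta_self : restr (dset Bᶜ) (restr (dset Bᶜ) (DD hf h)) = restr (dset Bᶜ) (DD hf h) :=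
  restr_eq_self (restr_mem _ _)

lemma norm_theta (hA : ∀ x y, s(x, y) ∈ A → h x = h y)
    (hK : ∀ k : V → ℝ, (∀ x y, s(x, y) ∈ A → k x = k y) →
        k v - k u = (1 / 2) * ⟪restr (dset Bᶜ) (DD hf h), DD hf k⟫_ℝ) :
    ‖restr (dset Bᶜ) (DD hf h)‖ ^ 2 = 2 * (h v - h u) := by
  rw [← real_inner_self_eq_norm_sq, hK h hA]
  have h1 : ⟪restr (dset Bᶜ) (DD hf h), restr (dset Bᶜ) (DD hf h)⟫_ℝ
      = ⟪restr (dset Bᶜ) (DD hf h), DD hf h⟫_ℝ := by
    rw [← restr_inner, theta_self]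
  rw [h1]
  ring

lemma lo_le (hG : G.Connected) (hAH : A ⊆ H.edgeSet) (huv : H.Adj u v) (huB : s(u, v) ∉ B)
    (hA : ∀ x y, s(x, y) ∈ A → h x = h y)
    (hK : ∀ k : V → ℝ, (∀ x y, s(x, y) ∈ A → k x = k y) →
        k v - k u = (1 / 2) * ⟪restr (dset Bᶜ) (DD hf h), DD hf k⟫_ℝ) :
    lo G A B s(u, v) ≤ h v - h u := by
  have hn := norm_theta hf hA hK
  have hp : 0 ≤ h v - h u := by
    have := sq_nonneg ‖restr (dset Bᶜ) (DD hf h)‖
    linarith
  have key : ‖proj (LL G A B) (dl (u, v))‖ ^ 2 ≤ (h v - h u) / 2 := by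
    refine norm_proj_sq_le (by positivity) fun x hx => ?_
    obtain ⟨w, ⟨hwW, hwA⟩, rfl⟩ := mem_LL.1 hx
    obtain ⟨k, hk⟩ := exists_grad hG hwW
    have hkA : ∀ x y, s(x, y) ∈ A → k x = k y := by
      intro x y hxy
      have hadj : H.Adj x y := hAH hxy
      have h1 := hk x y hadj.adj_sub
      rw [hwA x y (fun h => h hxy)] at h1
      linarith
    have h1 : DD hf k = restr (dset H.edgeSet) w := by
      refine hd_ext fun a b => ?_
      by_cases hab : H.Adj a b
      · rw [DD_apply_adj hf k hab, restr_apply_mem (S := dset H.edgeSet) hab, hk a b hab.adj_sub]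
      · rw [DD_apply_not hf k hab, restr_apply_notMem (S := dset H.edgeSet) hab]
    have h2 : restr (dset H.edgeSet) (restr (dset Bᶜ) (DD hf h)) = restr (dset Bᶜ) (DD hf h) := by
      refine restr_eq_self fun a b hab => ?_
      by_cases hB : s(a, b) ∈ B
      · exact restr_apply_notMem (S := dset Bᶜ) (fun h => h hB) _
      · rw [restr_apply_mem (S := dset Bᶜ) hB]
        exact DD_apply_not hf h hab
    have h3 : ⟪restr (dset Bᶜ) (DD hf h), DD hf k⟫_ℝ
        = ⟪restr (dset Bᶜ) (DD hf h), restr (dset Bᶜ) w⟫_ℝ := by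
      rw [h1, ← restr_inner, h2, ← restr_inner, theta_self]
    have h4 : ⟪restr (dset Bᶜ) w, dl (u, v)⟫_ℝ
        = (1 / 2) * ⟪restr (dset Bᶜ) (DD hf h), restr (dset Bᶜ) w⟫_ℝ := by
      rw [inner_dl_right, restr_apply_mem (S := dset Bᶜ) huB, ← hk u v huv.adj_sub, hK k hkA, h3]
    rw [h4]
    have h5 := abs_real_inner_le_norm (restr (dset Bᶜ) (DD hf h)) (restr (dset Bᶜ) w)
    have h6 : ⟪restr (dset Bᶜ) (DD hf h), restr (dset Bᶜ) w⟫_ℝ ^ 2
        ≤ (‖restr (dset Bᶜ) (DD hf h)‖ * ‖restr (dset Bᶜ) w‖) ^ 2 := by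
      rw [← sq_abs]
      exact pow_le_pow_left₀ (abs_nonneg _) h5 2
    rw [mul_pow, hn] at h6
    nlinarith
  unfold lo
  rw [cap_eq (LL_le_EE G A B)]
  linarith

lemma norm_eta (huv : H.Adj u v) (huB : s(u, v) ∉ B)
    (hA : ∀ x y, s(x, y) ∈ A → h x = h y)
    (hK : ∀ k : V → ℝ, (∀ x y, s(x, y) ∈ A → k x = k y) →
        k v - k u = (1 / 2) * ⟪restr (dset Bᶜ) (DD hf h), DD hf k⟫_ℝ) :
    ‖(dl (u, v) - dl (v, u) : Hd V) - restr (dset Bᶜ) (DD hf h)‖ ^ 2
      = 2 * (1 - (h v - h u)) := by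
  have hn := norm_theta hf hA hK
  have hne : ((v, u) : V × V) ≠ (u, v) := by
    intro h2
    rw [Prod.mk.injEq] at h2
    exact huv.ne h2.2
  have h1 : ‖(dl (u, v) - dl (v, u) : Hd V)‖ ^ 2 = 2 := by
    rw [@norm_sub_sq_real, norm_dl, norm_dl, inner_dl_left, dl_apply_ne hne.symm]
    norm_num
  rw [@norm_sub_sq_real, h1, hn, inner_sub_left, inner_dl_left, inner_dl_left,
    restr_apply_mem (S := dset Bᶜ) huB, restr_apply_mem (S := dset Bᶜ) (by
      change s(v, u) ∉ B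
      rwa [Sym2.eq_swap]), DD_apply_adj hf h huv, DD_apply_adj hf h huv.symm]
  ring

lemma cycle_bound (huv : H.Adj u v) (huA : s(u, v) ∉ A) (huB : s(u, v) ∉ B)
    (hA : ∀ x y, s(x, y) ∈ A → h x = h y)
    (hK : ∀ k : V → ℝ, (∀ x y, s(x, y) ∈ A → k x = k y) →
        k v - k u = (1 / 2) * ⟪restr (dset Bᶜ) (DD hf h), DD hf k⟫_ℝ)
    {y : Hd V} (hyE : y ∈ EE G) (hyB : y ∈ suppS Bᶜ) (hy : ⟪DD hf h, y⟫_ℝ = 0) :
    ⟪restr (dset Aᶜ) y, dl (u, v)⟫_ℝ ^ 2
      ≤ (1 - (h v - h u)) / 2 * ‖restr (dset Aᶜ) y‖ ^ 2 := by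
  set η : Hd V := (dl (u, v) - dl (v, u) : Hd V) - restr (dset Bᶜ) (DD hf h) with hη
  have hn : ‖η‖ ^ 2 = 2 * (1 - (h v - h u)) := norm_eta hf huv huB hA hK
  have h1 : ⟪η, y⟫_ℝ = 2 * y (u, v) := by
    rw [hη, inner_sub_left, inner_sub_left, inner_dl_left, inner_dl_left, restr_inner,
      restr_eq_self hyB, hy, hyE.1 v u]
    ring
  have h2 : restr (dset Aᶜ) η = η := by
    refine restr_eq_self fun a b hab => ?_
    have hab' : s(a, b) ∈ A := by_contra fun h => hab h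
    have e1 : (a, b) ≠ (u, v) := by
      rintro h'
      rw [Prod.mk.injEq] at h'
      rw [h'.1, h'.2] at hab'
      exact huA hab'
    have e2 : (a, b) ≠ (v, u) := by
      rintro h'
      rw [Prod.mk.injEq] at h'
      rw [h'.1, h'.2, Sym2.eq_swap] at hab'
      exact huA hab'
    have e3 : restr (dset Bᶜ) (DD hf h) (a, b) = 0 := by
      by_cases hB : s(a, b) ∈ B
      · exact restr_apply_notMem (S := dset Bᶜ) (fun h => h hB) _
      · rw [restr_apply_mem (S := dset Bᶜ) hB]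
        by_cases hadj : H.Adj a b
        · rw [DD_apply_adj hf h hadj, hA a b hab', sub_self]
        · exact DD_apply_not hf h hadj
    change dl (u, v) (a, b) - dl (v, u) (a, b) - restr (dset Bᶜ) (DD hf h) (a, b) = 0
    rw [dl_apply_ne e1, dl_apply_ne e2, e3]
    ring
  have h3 : ⟪restr (dset Aᶜ) y, dl (u, v)⟫_ℝ = y (u, v) := by
    rw [inner_dl_right, restr_apply_mem (S := dset Aᶜ) huA]
  have h4 : ⟪η, restr (dset Aᶜ) y⟫_ℝ = 2 * y (u, v) := by
    rw [← restr_inner, h2, h1]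
  rw [h3]
  have h5 := abs_real_inner_le_norm η (restr (dset Aᶜ) y)
  have h6 : ⟪η, restr (dset Aᶜ) y⟫_ℝ ^ 2 ≤ (‖η‖ * ‖restr (dset Aᶜ) y‖) ^ 2 := by
    rw [← sq_abs]
    exact pow_le_pow_left₀ (abs_nonneg _) h5 2
  rw [mul_pow, hn, h4] at h6
  nlinarith

end bounds

lemma eventually_adj {G : SimpleGraph V} {H : ℕ → G.Subgraph} (hH : IsExhaustion G H)
    {a b : V} (hab : G.Adj a b) : ∀ᶠ n in atTop, (H n).Adj a b := by
  have h1 : (⨆ n, H n).Adj a b := by rw [hH.iSup_eq]; exact hab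
  rw [SimpleGraph.Subgraph.iSup_adj] at h1
  obtain ⟨n, hn⟩ := h1
  filter_upwards [eventually_ge_atTop n] with m hm
  exact (hH.mono hm).2 hn

lemma inner_DD_chainV {G : SimpleGraph V} {H : G.Subgraph} (hf : H.verts.Finite) (h : V → ℝ)
    {l : Seqs V} (hl : IsLoop G l) (hadj : ∀ i : Fin l.1, H.Adj (l.2 i.castSucc) (l.2 i.succ)) :
    ⟪DD hf h, chainV l⟫_ℝ = 0 := by
  rw [inner_chainV]
  have h1 : ∀ i : Fin l.1, DD hf h (l.2 i.castSucc, l.2 i.succ)
      - DD hf h (l.2 i.succ, l.2 i.castSucc)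
      = 2 * (h (l.2 i.succ) - h (l.2 i.castSucc)) := by
    intro i
    rw [DD_apply_adj hf h (hadj i), DD_apply_adj hf h (hadj i).symm]
    ring
  rw [Finset.sum_congr rfl fun i _ => h1 i, ← Finset.mul_sum, Finset.sum_sub_distrib]
  have h2 := Fin.sum_univ_succ (fun i : Fin (l.1 + 1) => h (l.2 i))
  have h3 := Fin.sum_univ_castSucc (fun i : Fin (l.1 + 1) => h (l.2 i))
  have h4 : h (l.2 0) = h (l.2 (Fin.last l.1)) := by rw [hl.2]
  rw [h2] at h3
  linarith

/-- gradients on large pieces are orthogonal to a given cycle -/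
lemma eventually_perp {G : SimpleGraph V} {H : ℕ → G.Subgraph} (hH : IsExhaustion G H)
    {y : Hd V} (hy : y ∈ ZZ G) :
    ∀ᶠ n in atTop, ∀ h : V → ℝ, ⟪DD (hH.finite_verts n) h, y⟫_ℝ = 0 := by
  refine Submodule.span_induction (p := fun y _ => ∀ᶠ n in atTop, ∀ h : V → ℝ,
    ⟪DD (hH.finite_verts n) h, y⟫_ℝ = 0) ?_ ?_ ?_ ?_ hy
  · rintro y ⟨l, hl, rfl⟩
    have h1 : ∀ᶠ n in atTop, ∀ i : Fin l.1, (H n).Adj (l.2 i.castSucc) (l.2 i.succ) :=
      eventually_all.2 fun i => eventually_adj hH (hl.1 i)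
    filter_upwards [h1] with n hn h
    exact inner_DD_chainV _ h hl hn
  · exact Eventually.of_forall fun n h => inner_zero_right _
  · intro x y _ _ hx hy
    filter_upwards [hx, hy] with n hnx hny h
    rw [inner_add_right, hnx h, hny h, add_zero]
  · intro c x _ hx
    filter_upwards [hx] with n hnx h
    rw [inner_smul_right, hnx h, mul_zero]

/-- cycles vanishing on the finite set `B` are dense -/
lemma WP_supp_le {G : SimpleGraph V} {B : Set (Sym2 V)} (hB : B.Finite) :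
    WP G ⊓ suppS Bᶜ ≤ (ZZ G ⊓ suppS Bᶜ).topologicalClosure := by
  rintro y ⟨hyW, hyB⟩
  set R0 : Hd V →ₗ[ℝ] Hd V := ((restr (dset B) : Hd V →L[ℝ] Hd V) : Hd V →ₗ[ℝ] Hd V) with hR0
  set F : Submodule ℝ (Hd V) := (ZZ G).map R0 with hF
  have : FiniteDimensional ℝ F := finiteDimensional_of_le_suppS hB (by
    rintro x ⟨z, hz, rfl⟩
    exact restr_mem _ _)
  let R : ZZ G →ₗ[ℝ] F := R0.submoduleMap (ZZ G)
  have hRs : Function.Surjective R := LinearMap.submoduleMap_surjective _ _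
  obtain ⟨σ, hσ⟩ := LinearMap.exists_rightInverse_of_surjective R (LinearMap.range_eq_top.2 hRs)
  let σ' : F →ₗ[ℝ] Hd V := (ZZ G).subtype.comp σ
  have hσc : Continuous σ' := LinearMap.continuous_of_finiteDimensional σ'
  have hyc : y ∈ closure (ZZ G : Set (Hd V)) := by
    rw [← Submodule.topologicalClosure_coe]
    exact hyW
  obtain ⟨z, hz, hzy⟩ := mem_closure_iff_seq_limit.1 hyc
  rw [← SetLike.mem_coe, Submodule.topologicalClosure_coe, mem_closure_iff_seq_limit]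
  have h1 : Tendsto (fun n => R ⟨z n, hz n⟩) atTop (𝓝 0) := by
    rw [tendsto_subtype_rng]
    have h2 : Tendsto (fun n => restr (dset B) (z n)) atTop (𝓝 (restr (dset B) y)) :=
      ((restr (dset B)).continuous.tendsto y).comp hzy
    rw [mem_suppS_compl_iff.1 hyB] at h2
    exact h2
  have h3 : Tendsto (fun n => z n - σ' (R ⟨z n, hz n⟩)) atTop (𝓝 y) := by
    have h4 : Tendsto (fun n => σ' (R ⟨z n, hz n⟩)) atTop (𝓝 (σ' 0)) :=
      (hσc.tendsto 0).comp h1
    rw [map_zero] at h4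
    simpa using hzy.sub h4
  refine ⟨_, fun n => ⟨?_, ?_⟩, h3⟩
  · exact Submodule.sub_mem _ (hz n) (σ (R ⟨z n, hz n⟩)).2
  · change z n - σ' (R ⟨z n, hz n⟩) ∈ suppS Bᶜ
    rw [mem_suppS_compl_iff, map_sub, sub_eq_zero]
    have h5 : R (σ (R ⟨z n, hz n⟩)) = R ⟨z n, hz n⟩ := by
      have := LinearMap.congr_fun hσ (R ⟨z n, hz n⟩)
      exact this
    have h6 := congrArg Subtype.val h5
    exact h6.symm

lemma exists_cycle_lt {G : SimpleGraph V} {A B : Set (Sym2 V)} (hB : B.Finite) {u v : V}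
    {c : ℝ} (hc : 0 ≤ c) (hlt : c < cap (LP G A B) s(u, v)) :
    ∃ y ∈ ZZ G, y ∈ suppS Bᶜ ∧
      c / 2 * ‖restr (dset Aᶜ) y‖ ^ 2 < ⟪restr (dset Aᶜ) y, dl (u, v)⟫_ℝ ^ 2 := by
  by_contra hcon
  push Not at hcon
  set R0 : Hd V →ₗ[ℝ] Hd V := ((restr (dset Aᶜ) : Hd V →L[ℝ] Hd V) : Hd V →ₗ[ℝ] Hd V) with hR0
  set K : Submodule ℝ (Hd V) := (ZZ G ⊓ suppS Bᶜ).map R0 with hK
  have h1 : ‖proj K (dl (u, v))‖ ^ 2 ≤ c / 2 := by
    refine norm_proj_sq_le (by positivity) ?_
    rintro x ⟨y, hy, rfl⟩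
    exact hcon y hy.1 hy.2
  have h2 : LP G A B ≤ K.topologicalClosure := by
    rintro x ⟨y, hy, rfl⟩
    have h3 := WP_supp_le hB hy
    rw [← SetLike.mem_coe, Submodule.topologicalClosure_coe] at h3 ⊢
    have h4 := image_closure_subset_closure_image (restr (dset Aᶜ) : Hd V →L[ℝ] Hd V).continuous
      (mem_image_of_mem _ h3)
    exact h4
  have h5 := norm_proj_mono h2 (dl (u, v))
  rw [cap_eq (LP_le_EE G A B)] at hlt
  linarith

lemma edgeSet_finite {G : SimpleGraph V} {H : G.Subgraph} (hf : H.verts.Finite) :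
    H.edgeSet.Finite := by
  have : Finite H.verts := hf.to_subtype
  exact (finite_range (em H)).subset (edgeSet_subset_range H)

lemma finite_trees {G : SimpleGraph V} {H : G.Subgraph} (hf : H.verts.Finite)
    (A B : Set (Sym2 V)) : {T | IsSpanningTreeOf H T ∧ A ⊆ T ∧ Disjoint T B}.Finite :=
  (edgeSet_finite hf).finite_subsets.subset fun _ hT => hT.1.1

lemma stCount_insert_eq_zero {G : SimpleGraph V} {H : G.Subgraph} (hf : H.verts.Finite)
    {A B : Set (Sym2 V)} (e : Sym2 V) (h : stCount H A B = 0) :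
    stCount H (insert e A) B = 0 := by
  unfold stCount at h ⊢
  rw [ncard_eq_zero (finite_trees hf _ _)] at h ⊢
  rw [eq_empty_iff_forall_notMem] at h ⊢
  intro T hT
  exact h T ⟨hT.1, (subset_insert _ _).trans hT.2.1, hT.2.2⟩

lemma stCount_eq_zero {G : SimpleGraph V} {H : G.Subgraph} {A B : Set (Sym2 V)}
    (h : ¬ A ⊆ H.edgeSet) : stCount H A B = 0 := by
  unfold stCount
  have : {T | IsSpanningTreeOf H T ∧ A ⊆ T ∧ Disjoint T B} = ∅ := by
    rw [eq_empty_iff_forall_notMem]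
    intro T hT
    exact h (hT.2.1.trans hT.1.1)
  rw [this, ncard_empty]

theorem tendsto_cond (G : SimpleGraph V) (hG : G.Connected) (H : ℕ → G.Subgraph)
    (hH : IsExhaustion G H) (A B : Set (Sym2 V)) (hA : A.Finite) (hB : B.Finite)
    (hAB : Disjoint A B) (e : Sym2 V) (heA : e ∉ A) (heB : e ∉ B) :
    ∃ s : ℕ → ℝ, Tendsto s atTop (𝓝 (lo G A B e)) ∧
      ∀ n, (stCount (H n) (insert e A) B : ℝ) = s n * stCount (H n) A B := by
  classical
  set s : ℕ → ℝ := fun n => if stCount (H n) A B = 0 then lo G A B e else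
    (stCount (H n) (insert e A) B : ℝ) / stCount (H n) A B with hs
  have hs0 : ∀ n, stCount (H n) A B = 0 → s n = lo G A B e := fun n h => by simp [hs, h]
  have hs1 : ∀ n, stCount (H n) A B ≠ 0 →
      s n = (stCount (H n) (insert e A) B : ℝ) / stCount (H n) A B := fun n h => by simp [hs, h]
  refine ⟨s, ?_, fun n => ?_⟩
  swap
  · by_cases h0 : stCount (H n) A B = 0
    · rw [stCount_insert_eq_zero (hH.finite_verts n) e h0, h0]
      simp
    · rw [hs1 n h0]
      have : (stCount (H n) A B : ℝ) ≠ 0 := by exact_mod_cast h0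
      field_simp
  have hsub : ∀ n, (H n).edgeSet ⊆ G.edgeSet := fun n => (H n).edgeSet_subset
  by_cases hE : e ∈ G.edgeSet
  swap
  · have h1 : ∀ n, s n = 0 := by
      intro n
      by_cases h0 : stCount (H n) A B = 0
      · rw [hs0 n h0, lo_of_notMem hE]
      · rw [hs1 n h0, stCount_eq_zero (A := insert e A)
          (fun h => hE (hsub n (h (mem_insert _ _))))]
        simp
    rw [lo_of_notMem hE]
    exact tendsto_const_nhds.congr fun n => (h1 n).symm
  by_cases hAG : A ⊆ G.edgeSet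
  swap
  · have h1 : ∀ n, s n = lo G A B e := fun n =>
      hs0 n (stCount_eq_zero fun h => hAG (h.trans (hsub n)))
    exact tendsto_const_nhds.congr fun n => (h1 n).symm
  -- main case
  induction e with
  | h u v =>
  have hadj : G.Adj u v := hE
  have hAn : ∀ᶠ n in atTop, A ⊆ (H n).edgeSet := by
    have h1 : ∀ᶠ n in atTop, ∀ a ∈ A, a ∈ (H n).edgeSet := by
      rw [eventually_all_finite hA]
      intro a ha
      have haG := hAG ha
      induction a with
      | h x y => exact eventually_adj hH haG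
    exact h1
  have huvn := eventually_adj hH hadj
  -- Kirchhoff data
  have hkir : ∀ n, A ⊆ (H n).edgeSet → (H n).Adj u v → stCount (H n) A B ≠ 0 →
      ∃ h : V → ℝ, (∀ x y, s(x, y) ∈ A → h x = h y) ∧ s n = h v - h u ∧
      ∀ k : V → ℝ, (∀ x y, s(x, y) ∈ A → k x = k y) →
        k v - k u = (1 / 2) * ⟪restr (dset Bᶜ) (DD (hH.finite_verts n) h),
          DD (hH.finite_verts n) k⟫_ℝ := by
    intro n h1 h2 h3
    obtain ⟨h, ha, hb, hc⟩ := kirchhoff_sub (hH.finite_verts n) h1 h2 heA heB h3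
    refine ⟨h, ha, ?_, hc⟩
    have h3' : (stCount (H n) A B : ℝ) ≠ 0 := by exact_mod_cast h3
    rw [hs1 n h3, ← hb]
    field_simp
  have hlohi := lo_eq_hi G A B hA hB hAB s(u, v) heA heB
  have hhi : hi G A B s(u, v) = 1 - cap (LP G A B) s(u, v) := by
    unfold hi
    rw [if_pos hE]
  refine tendsto_order.2 ⟨fun a ha => ?_, fun b hb => ?_⟩
  · filter_upwards [hAn, huvn] with n h1 h2
    by_cases h0 : stCount (H n) A B = 0
    · rw [hs0 n h0]
      exact ha
    · obtain ⟨h, hc1, hc2, hc3⟩ := hkir n h1 h2 h0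
      rw [hc2]
      exact lt_of_lt_of_le ha (lo_le (hH.finite_verts n) hG h1 h2 heB hc1 hc3)
  · by_cases hc : 1 - (lo G A B s(u, v) + b) / 2 < 0
    · filter_upwards [hAn, huvn] with n h1 h2
      by_cases h0 : stCount (H n) A B = 0
      · rw [hs0 n h0]
        exact hb
      · obtain ⟨h, hc1, hc2, hc3⟩ := hkir n h1 h2 h0
        have h3 := norm_eta (hH.finite_verts n) h2 heB hc1 hc3
        have h4 := sq_nonneg ‖(dl (u, v) - dl (v, u) : Hd V) -
          restr (dset Bᶜ) (DD (hH.finite_verts n) h)‖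
        rw [hc2]
        linarith
    · push Not at hc
      have hlt : 1 - (lo G A B s(u, v) + b) / 2 < cap (LP G A B) s(u, v) := by
        linarith
      obtain ⟨y, hyZ, hyB, hyc⟩ := exists_cycle_lt (A := A) hB hc hlt
      filter_upwards [hAn, huvn, eventually_perp hH hyZ] with n h1 h2 h5
      by_cases h0 : stCount (H n) A B = 0
      · rw [hs0 n h0]
        exact hb
      · obtain ⟨h, hc1, hc2, hc3⟩ := hkir n h1 h2 h0
        have h6 := cycle_bound (hH.finite_verts n) h2 heA heB hc1 hc3 (ZZ_le_EE G hyZ) hyB (h5 h)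
        have h7 := hyc.trans_le h6
        have h8 : 1 - (lo G A B s(u, v) + b) / 2 < 1 - (h v - h u) := by
          by_contra hcon
          push Not at hcon
          have h9 := sq_nonneg ‖restr (dset Aᶜ) y‖
          have h10 : (1 - (h v - h u)) / 2 * ‖restr (dset Aᶜ) y‖ ^ 2
              ≤ (1 - (lo G A B s(u, v) + b) / 2) / 2 * ‖restr (dset Aᶜ) y‖ ^ 2 := by
            gcongr
          linarith
        rw [hc2]
        linarith

end Vale.Agent.P143
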