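import Vale.Agent.P143.Defs

set_option autoImplicit false

namespace Vale.Agent.P143

open MeasureTheory Set Filter Topology

universe u

/-- The conclusion of the main theorem, for the vertex set `V`. -/
def MainStatement (V : Type u) [MeasurableSpace V] : Prop :=
  ∃ Φ : SimpleGraph V → (V → unitInterval) → Sym2 V → Prop, IsGraphRule Φ ∧
    ∀ ρ : Measure (SimpleGraph V × V), IsProbabilityMeasure ρ →
      (∀ᵐ p ∂ρ, p.1.Connected ∧ LocFin p.1) → IsUnimodular ρ →
      ∀ᵐ p ∂ρ, IsFUSF p.1 ((iidUniform V).map fun U => {e | e ∈ p.1.edgeSet ∧ Φ p.1 U e})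

section CayleyAux

variable {Γ : Type u} [Group Γ] {S : Set Γ}

lemma cayley_connected (hgen : Subgroup.closure S = ⊤) : (SimpleGraph.mulCayley S).Connected := by
  have key : ∀ g : Γ, ∀ x : Γ, (SimpleGraph.mulCayley S).Reachable x (x * g) := by
    intro g
    have hg : g ∈ Subgroup.closure S := by rw [hgen]; trivial
    induction hg using Subgroup.closure_induction with
    | mem s hs =>
      intro x
      by_cases h : x = x * s
      · rw [← h]
      · refine SimpleGraph.Adj.reachable ?_
        rw [SimpleGraph.mulCayley_adj']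
        exact ⟨h, s, hs, Or.inl rfl⟩
    | one => intro x; rw [mul_one]
    | mul a b _ _ iha ihb =>
      intro x
      rw [← mul_assoc]
      exact (iha x).trans (ihb (x * a))
    | inv a _ iha =>
      intro x
      have := iha (x * a⁻¹)
      rw [inv_mul_cancel_right] at this
      exact this.symm
  have hpre : (SimpleGraph.mulCayley S).Preconnected := by
    intro x y
    have := key (x⁻¹ * y) x
    rwa [mul_inv_cancel_left] at this
  exact ⟨hpre⟩

lemma cayley_locFin (hS : S.Finite) : LocFin (SimpleGraph.mulCayley S) := by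
  intro u
  refine ((hS.image fun s => u * s).union (hS.image fun s => u * s⁻¹)).subset ?_
  intro v hv
  rw [SimpleGraph.mem_neighborSet, SimpleGraph.mulCayley_adj'] at hv
  obtain ⟨_, s, hs, h | h⟩ := hv
  · exact Or.inl ⟨s, hs, h⟩
  · exact Or.inr ⟨s, hs, by rw [h]; simp⟩

lemma countable_of_fg (hS : S.Finite) (hgen : Subgroup.closure S = ⊤) : Countable Γ := by
  have := hS.countable.to_subtype
  have hsurj : Function.Surjective (FreeGroup.lift (fun s : S => (s : Γ))) := by
    rw [← MonoidHom.range_eq_top, FreeGroup.range_lift_eq_closure, Subtype.range_coe, hgen]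
  have : Countable (FreeGroup S) := inferInstanceAs (Countable (Quot _))
  exact hsurj.countable

/-- left multiplication as an automorphism of the Cayley graph -/
def leftIso (S : Set Γ) (γ : Γ) : SimpleGraph.mulCayley S ≃g SimpleGraph.mulCayley S where
  toEquiv := Equiv.mulLeft γ
  map_rel_iff' := by
    intro a b
    exact SimpleGraph.mulCayley_adj_mul_iff_right

end CayleyAux

theorem cayley_of_main
    (hmain : ∀ (V : Type u) [Countable V] [MeasurableSpace V] [MeasurableSingletonClass V],
      MainStatement V)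
    (Γ : Type u) [Group Γ] (S : Set Γ) (hS : S.Finite) (hgen : Subgroup.closure S = ⊤) :
    ∃ μ : Measure (Set (Sym2 Γ)), IsFUSF (SimpleGraph.mulCayley S) μ ∧ IsGroupFactorOfIID μ := by
  have hcount : Countable Γ := countable_of_fg hS hgen
  let _ : MeasurableSpace Γ := ⊤
  have : MeasurableSingletonClass Γ := ⟨fun _ => trivial⟩
  obtain ⟨Φ, hΦ, h⟩ := hmain Γ
  set G := SimpleGraph.mulCayley S with hG
  have hsing : MeasurableSingletonClass (SimpleGraph Γ) := by
    refine ⟨fun H => ?_⟩
    have h1 : ({H} : Set (SimpleGraph Γ)) = SimpleGraph.Adj ⁻¹' {H.Adj} := by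
      ext H'
      simp only [Set.mem_singleton_iff, Set.mem_preimage]
      exact ⟨fun h => by rw [h], fun h => SimpleGraph.ext h⟩
    rw [h1]
    exact SimpleGraph.measurable_adj (measurableSet_singleton _)
  have huni : IsUnimodular (Measure.dirac (G, (1 : Γ))) := by
    intro f _ hf
    rw [lintegral_dirac, lintegral_dirac]
    have h1 : ∀ v : Γ, f G 1 v = f G v⁻¹ 1 := by
      intro v
      have := hf G G (leftIso S v⁻¹) 1 v
      rw [← this]
      show f G (v⁻¹ * 1) (v⁻¹ * v) = f G v⁻¹ 1
      rw [mul_one, inv_mul_cancel]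
    show ∑' v, f G 1 v = ∑' v, f G v 1
    rw [← (Equiv.inv Γ).tsum_eq fun v => f G v 1]
    exact tsum_congr h1
  have h2 := h (Measure.dirac (G, (1 : Γ))) inferInstance (by
    rw [ae_dirac_eq]
    exact ⟨cayley_connected hgen, cayley_locFin hS⟩) huni
  rw [ae_dirac_eq] at h2
  have h3 : IsFUSF G ((iidUniform Γ).map fun U => {e | e ∈ G.edgeSet ∧ Φ G U e}) := h2
  refine ⟨_, h3, fun U => {e | e ∈ G.edgeSet ∧ Φ G U e}, ?_, ?_, rfl⟩
  · rw [measurable_set_iff]
    intro e
    have h4 := hΦ.measurable e
    have h5 : Measurable fun U : Γ → unitInterval => (G, U) := by fun_prop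
    have h6 : MeasurableSet {U : Γ → unitInterval | Φ G U e} := h5 h4
    have h7 : MeasurableSet {U : Γ → unitInterval | e ∈ G.edgeSet ∧ Φ G U e} :=
      (MeasurableSet.const _).inter h6
    exact measurableSet_setOfPred.1 h7
  · intro γ U
    ext e
    have h4 : ∀ e : Sym2 Γ, Φ G (fun x => U (γ⁻¹ * x)) (e.map fun x => γ * x) ↔ Φ G U e := by
      intro e
      have := hΦ.invariant G G (leftIso S γ) (fun x => U (γ⁻¹ * x)) e
      have e1 : (fun x => U (γ⁻¹ * x)) ∘ (leftIso S γ) = U := by
        funext x
        show U (γ⁻¹ * (γ * x)) = U x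
        rw [inv_mul_cancel_left]
      rw [e1] at this
      exact this
    have h5 : ∀ e : Sym2 Γ, (e.map fun x => γ * x) ∈ G.edgeSet ↔ e ∈ G.edgeSet := by
      intro e
      induction e with
      | _ a b =>
        rw [Sym2.map_mk, SimpleGraph.mem_edgeSet, SimpleGraph.mem_edgeSet]
        exact SimpleGraph.mulCayley_adj_mul_iff_right
    simp only [Set.mem_ofPred_eq, Set.mem_image]
    constructor
    · rintro ⟨h6, h7⟩
      have e2 : (e.map fun x => γ⁻¹ * x).map (fun x => γ * x) = e := by
        rw [Sym2.map_map]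
        have : ((fun x => γ * x) ∘ fun x => γ⁻¹ * x) = (id : Γ → Γ) := by
          funext x; simp
        rw [this, Sym2.map_id]
        rfl
      refine ⟨e.map fun x => γ⁻¹ * x, ⟨?_, ?_⟩, e2⟩
      · rw [← h5, e2]; exact h6
      · rw [← h4, e2]; exact h7
    · rintro ⟨e', ⟨h6, h7⟩, rfl⟩
      exact ⟨(h5 e').2 h6, (h4 e').2 h7⟩

end Vale.Agent.P143
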