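import Vale.Agent.P143.Cap

set_option autoImplicit false
set_option linter.unusedSectionVars false

namespace Vale.Agent.P143

open Filter Topology Set MeasureTheory
open scoped InnerProductSpace

universe u w

variable {V : Type u} [Countable V] {Ω : Type w} [MeasurableSpace Ω]
  {act : Equiv.Perm V → Ω → Ω}

lemma isClosed_MM (G : SimpleGraph V) (A B Q : Set (Sym2 V)) :
    IsClosed (MM G A B Q : Set (Hd V)) :=
  ((isClosed_EE G).inter (Submodule.isClosed_orthogonal _)).inter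
    (Submodule.isClosed_orthogonal _)

lemma adm_LL {Gr : Ω → SimpleGraph V} (h : RG act Gr) {A B : Ω → Set (Sym2 V)}
    (hA : RS act A) (hB : RS act B) : Adm act (fun ω => proj (LL (Gr ω) (A ω) (B ω))) := by
  have h1 : Adm act (fun ω => proj (WW (Gr ω) ⊓ suppS (A ω)ᶜ)) :=
    (adm_WW h).inf hA.compl.supp (fun _ => isClosed_WW _) fun _ => isClosed_suppS _
  refine (hB.compl.restr.mul h1).range (c := 1) one_pos (fun ω x => ?_) fun ω x => ?_
  · rw [one_mul, cmul_apply]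
    exact (norm_restr_le _ _).trans (norm_proj_le _ _)
  · rw [mem_LL]
    constructor
    · rintro ⟨y, hy, rfl⟩
      exact ⟨y, by rw [cmul_apply, proj_eq_self (K := WW (Gr ω) ⊓ suppS (A ω)ᶜ) hy]⟩
    · rintro ⟨y, rfl⟩
      have hcl : IsClosed ((WW (Gr ω) ⊓ suppS (A ω)ᶜ : Submodule ℝ (Hd V)) : Set (Hd V)) :=
        (isClosed_WW _).inter (isClosed_suppS _)
      exact ⟨_, proj_mem hcl y, rfl⟩

lemma adm_LP {Gr : Ω → SimpleGraph V} (h : RG act Gr) {A B : Ω → Set (Sym2 V)}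
    (hA : RS act A) (hB : RS act B) : Adm act (fun ω => proj (LP (Gr ω) (A ω) (B ω))) := by
  have h1 : Adm act (fun ω => proj (WP (Gr ω) ⊓ suppS (B ω)ᶜ)) :=
    (adm_WP h).inf hB.compl.supp (fun _ => isClosed_WP _) fun _ => isClosed_suppS _
  refine (hA.compl.restr.mul h1).range (c := 1) one_pos (fun ω x => ?_) fun ω x => ?_
  · rw [one_mul, cmul_apply]
    exact (norm_restr_le _ _).trans (norm_proj_le _ _)
  · rw [mem_LP]
    constructor
    · rintro ⟨y, hy, rfl⟩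
      exact ⟨y, by rw [cmul_apply, proj_eq_self (K := WP (Gr ω) ⊓ suppS (B ω)ᶜ) hy]⟩
    · rintro ⟨y, rfl⟩
      have hcl : IsClosed ((WP (Gr ω) ⊓ suppS (B ω)ᶜ : Submodule ℝ (Hd V)) : Set (Hd V)) :=
        (isClosed_WP _).inter (isClosed_suppS _)
      exact ⟨_, proj_mem hcl y, rfl⟩

lemma adm_MM {Gr : Ω → SimpleGraph V} (h : RG act Gr) {A B Q : Ω → Set (Sym2 V)}
    (hA : RS act A) (hB : RS act B) (hQ : RS act Q) :
    Adm act (fun ω => proj (MM (Gr ω) (A ω) (B ω) (Q ω))) :=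
  ((adm_EE h).inf (adm_LL h (hA.union hQ) hB).compl (fun _ => isClosed_EE _)
    fun _ => Submodule.isClosed_orthogonal _).inf (adm_LP h hA (hB.union hQ)).compl
    (fun _ => (isClosed_EE _).inter (Submodule.isClosed_orthogonal _))
    fun _ => Submodule.isClosed_orthogonal _

variable [MeasurableSpace V] [MeasurableSingletonClass V] {P : Measure (Ω × V)}

lemma two_hs_eq {K : Ω → Submodule ℝ (Hd V)} (hK : Adm act (fun ω => proj (K ω)))
    {q : Ω → V × V → ℝ}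
    (h : ∀ ω u v, 2 * ‖proj (K ω) (dl (u, v))‖ ^ 2 = q ω (u, v)) :
    2 * hs P (fun ω => proj (K ω)) = tr P q := by
  have h2 : ENNReal.ofReal 2 * hs P (fun ω => proj (K ω)) = tr P q := by
    unfold hs
    rw [← tr_const_mul two_pos.le (fun p => meas_norm_sq hK p)]
    exact tr_congr fun ω p => h ω p.1 p.2
  rwa [ENNReal.ofReal_ofNat] at h2

/-- the trace of the gap space -/
lemma hs_MM_le (hP : MTP act P) {Gr : Ω → SimpleGraph V} (h : RG act Gr)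
    {A B Q : Ω → Set (Sym2 V)} (hA : RS act A) (hB : RS act B) (hQ : RS act Q) :
    hs P (fun ω => proj (MM (Gr ω) (A ω) (B ω) (Q ω)))
      ≤ hs P (fun ω => proj (EE (Gr ω) ⊓ suppS (A ω ∪ Q ω)))
        + hs P (fun ω => proj (EE (Gr ω) ⊓ suppS (B ω ∪ Q ω))) := by
  set M : Ω → Submodule ℝ (Hd V) := fun ω => MM (Gr ω) (A ω) (B ω) (Q ω) with hM
  have hMadm : Adm act (fun ω => proj (M ω)) := adm_MM h hA hB hQ
  have hMcl : ∀ ω, IsClosed (M ω : Set (Hd V)) := fun ω => isClosed_MM _ _ _ _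
  set T₁ : Ω → Hd V →L[ℝ] Hd V := fun ω =>
    restr (dset (A ω ∪ Q ω)) * proj (WW (Gr ω)) + proj (WP (Gr ω) ⊓ suppS (A ω)) with hT₁
  set T₂ : Ω → Hd V →L[ℝ] Hd V := fun ω =>
    restr (dset (B ω ∪ Q ω)) * proj (WP (Gr ω)) + proj (WW (Gr ω) ⊓ suppS (B ω)) with hT₂
  have hT₁a : Adm act T₁ := ((hA.union hQ).restr.mul (adm_WW h)).add
    ((adm_WP h).inf hA.supp (fun _ => isClosed_WP _) fun _ => isClosed_suppS _)
  have hT₂a : Adm act T₂ := ((hB.union hQ).restr.mul (adm_WP h)).add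
    ((adm_WW h).inf hB.supp (fun _ => isClosed_WW _) fun _ => isClosed_suppS _)
  have hT₁b : ∀ ω x, ‖T₁ ω x‖ ≤ 2 * ‖x‖ := by
    intro ω x
    have h1 : T₁ ω x = restr (dset (A ω ∪ Q ω)) (proj (WW (Gr ω)) x)
      + proj (WP (Gr ω) ⊓ suppS (A ω)) x := rfl
    have h2 := (norm_restr_le (dset (A ω ∪ Q ω)) (proj (WW (Gr ω)) x)).trans
      (norm_proj_le (WW (Gr ω)) x)
    have h3 := norm_proj_le (WP (Gr ω) ⊓ suppS (A ω)) x
    rw [h1]
    refine (norm_add_le _ _).trans ?_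
    linarith
  have hT₂b : ∀ ω x, ‖T₂ ω x‖ ≤ 2 * ‖x‖ := by
    intro ω x
    have h1 : T₂ ω x = restr (dset (B ω ∪ Q ω)) (proj (WP (Gr ω)) x)
      + proj (WW (Gr ω) ⊓ suppS (B ω)) x := rfl
    have h2 := (norm_restr_le (dset (B ω ∪ Q ω)) (proj (WP (Gr ω)) x)).trans
      (norm_proj_le (WP (Gr ω)) x)
    have h3 := norm_proj_le (WW (Gr ω) ⊓ suppS (B ω)) x
    rw [h1]
    refine (norm_add_le _ _).trans ?_
    linarith
  set K₁ : Ω → Submodule ℝ (Hd V) := fun ω => LinearMap.ker (T₁ ω : Hd V →ₗ[ℝ] Hd V) with hK₁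
  have hK₁m : ∀ ω x, x ∈ K₁ ω ↔ T₁ ω x = 0 := fun ω x => LinearMap.mem_ker
  have hK₁cl : ∀ ω, IsClosed (K₁ ω : Set (Hd V)) := fun ω => isClosed_ker (T₁ ω) (hK₁m ω)
  have hK₁a : Adm act (fun ω => proj (K₁ ω)) := hT₁a.ker two_pos hT₁b hK₁m
  set M₁ : Ω → Submodule ℝ (Hd V) := fun ω => M ω ⊓ K₁ ω with hM₁
  have hM₁cl : ∀ ω, IsClosed (M₁ ω : Set (Hd V)) := fun ω => (hMcl ω).inter (hK₁cl ω)
  have hM₁a : Adm act (fun ω => proj (M₁ ω)) := hMadm.inf hK₁a hMcl hK₁cl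
  set M₂ : Ω → Submodule ℝ (Hd V) := fun ω => M ω ⊓ (M₁ ω)ᗮ with hM₂
  have hM₂cl : ∀ ω, IsClosed (M₂ ω : Set (Hd V)) := fun ω =>
    (hMcl ω).inter (Submodule.isClosed_orthogonal _)
  have hM₂a : Adm act (fun ω => proj (M₂ ω)) :=
    hMadm.inf hM₁a.compl hMcl fun _ => Submodule.isClosed_orthogonal _
  have hsplit : hs P (fun ω => proj (M ω))
      = hs P (fun ω => proj (M₁ ω)) + hs P (fun ω => proj (M₂ ω)) := by
    unfold hs
    rw [← tr_add (fun _ _ => by positivity) (fun _ _ => by positivity)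
      (fun p => meas_norm_sq hM₁a p)]
    refine tr_congr fun ω p => ?_
    exact norm_proj_split (hMcl ω) inf_le_left (dl p)
  have hEA : Adm act (fun ω => proj (EE (Gr ω) ⊓ suppS (A ω ∪ Q ω))) :=
    (adm_EE h).inf (hA.union hQ).supp (fun _ => isClosed_EE _) fun _ => isClosed_suppS _
  have hEB : Adm act (fun ω => proj (EE (Gr ω) ⊓ suppS (B ω ∪ Q ω))) :=
    (adm_EE h).inf (hB.union hQ).supp (fun _ => isClosed_EE _) fun _ => isClosed_suppS _
  have hcA : ∀ ω, IsClosed ((WP (Gr ω) ⊓ suppS (A ω) : Submodule ℝ (Hd V)) : Set (Hd V)) :=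
    fun ω => (isClosed_WP _).inter (isClosed_suppS _)
  have hcB : ∀ ω, IsClosed ((WW (Gr ω) ⊓ suppS (B ω) : Submodule ℝ (Hd V)) : Set (Hd V)) :=
    fun ω => (isClosed_WW _).inter (isClosed_suppS _)
  have hb1 : hs P (fun ω => proj (M₂ ω))
      ≤ hs P (fun ω => proj (EE (Gr ω) ⊓ suppS (A ω ∪ Q ω))) := by
    refine dim_le hP hM₂a hEA hT₁a two_pos hT₁b (fun ω x _ => ?_) fun ω x hx h0 => ?_
    · refine Submodule.le_topologicalClosure _ (Submodule.add_mem _ ⟨?_, ?_⟩ ⟨?_, ?_⟩)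
      · exact restr_mem_EE (proj_mem (isClosed_WW _) x).1 _
      · exact restr_mem _ _
      · exact WP_le_EE _ (proj_mem (hcA ω) x).1
      · exact suppS_mono subset_union_left (proj_mem (hcA ω) x).2
    · rw [closure_eq_of_isClosed (hM₂cl ω)] at hx
      have h1 : x ∈ M₁ ω := ⟨hx.1, (hK₁m ω x).2 h0⟩
      have h2 := (Submodule.mem_orthogonal _ _).1 hx.2 x h1
      simpa using h2
  have hb2 : hs P (fun ω => proj (M₁ ω))
      ≤ hs P (fun ω => proj (EE (Gr ω) ⊓ suppS (B ω ∪ Q ω))) := by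
    refine dim_le hP hM₁a hEB hT₂a two_pos hT₂b (fun ω x _ => ?_) fun ω x hx h0 => ?_
    · refine Submodule.le_topologicalClosure _ (Submodule.add_mem _ ⟨?_, ?_⟩ ⟨?_, ?_⟩)
      · exact restr_mem_EE (WP_le_EE _ (proj_mem (isClosed_WP _) x)) _
      · exact restr_mem _ _
      · exact (proj_mem (hcB ω) x).1.1
      · exact suppS_mono subset_union_left (proj_mem (hcB ω) x).2
    · rw [closure_eq_of_isClosed (hM₁cl ω)] at hx
      have hxM : x ∈ MM (Gr ω) (A ω) (B ω) (Q ω) := hx.1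
      refine key_inj (A := A ω) (B := B ω) (Q := Q ω) hxM.1.1 (fun y hy => ?_) (fun y hy => ?_)
        ((hK₁m ω x).1 hx.2) h0
      · rw [real_inner_comm]
        exact (Submodule.mem_orthogonal _ _).1 hxM.1.2 _ (mem_LL.2 ⟨y, hy, rfl⟩)
      · rw [real_inner_comm]
        exact (Submodule.mem_orthogonal _ _).1 hxM.2 _ (mem_LP.2 ⟨y, hy, rfl⟩)
  rw [hsplit, add_comm]
  exact add_le_add hb1 hb2

omit [MeasurableSpace V] [MeasurableSingletonClass V] in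
lemma meas_ind {S : Ω → Set (Sym2 V)} (hS : RS act S) (e : Sym2 V) :
    Measurable fun ω => ind (S ω) e := by
  classical
  have h1 : (fun ω => ind (S ω) e) = fun ω => if e ∈ S ω then (1 : ℝ) else 0 := by
    funext ω
    by_cases h : e ∈ S ω
    · rw [ind_of_mem h, if_pos h]
    · rw [ind_of_notMem h, if_neg h]
  rw [h1]
  exact Measurable.ite (hS.meas e) measurable_const measurable_const

/-- **The gap inequality.** -/
theorem gap_le (hP : MTP act P) {Gr : Ω → SimpleGraph V} (h : RG act Gr)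
    {A B Q : Ω → Set (Sym2 V)} (hA : RS act A) (hB : RS act B) (hQ : RS act Q)
    (hAB : ∀ ω, Disjoint (A ω) (B ω)) (hAQ : ∀ ω, Disjoint (A ω) (Q ω))
    (hBQ : ∀ ω, Disjoint (B ω) (Q ω))
    (hfin : tr P (fun ω p => ind ((Gr ω).edgeSet ∩ (A ω ∪ B ω ∪ Q ω)) s(p.1, p.2)) ≠ ⊤) :
    tr P (fun ω p => ind ((Gr ω).edgeSet \ (A ω ∪ B ω ∪ Q ω)) s(p.1, p.2) *
        (hi (Gr ω) (A ω) (B ω ∪ Q ω) s(p.1, p.2) - lo (Gr ω) (A ω ∪ Q ω) (B ω) s(p.1, p.2)))
      ≤ tr P (fun ω p => ind ((Gr ω).edgeSet ∩ Q ω) s(p.1, p.2)) := by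
  have hm : ∀ {S : Ω → Set (Sym2 V)}, RS act S → ∀ p : V × V,
      Measurable fun ω => ind ((Gr ω).edgeSet ∩ S ω) s(p.1, p.2) :=
    fun hS p => meas_ind (h.edgeSet.inter hS) _
  have h1 := hs_MM_le hP h hA hB hQ
  have h2 : 2 * hs P (fun ω => proj (MM (Gr ω) (A ω) (B ω) (Q ω)))
      = tr P (fun ω p => ind ((Gr ω).edgeSet ∩ (A ω ∪ B ω ∪ Q ω)) s(p.1, p.2))
      + tr P (fun ω p => ind ((Gr ω).edgeSet \ (A ω ∪ B ω ∪ Q ω)) s(p.1, p.2) *
        (hi (Gr ω) (A ω) (B ω ∪ Q ω) s(p.1, p.2)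
          - lo (Gr ω) (A ω ∪ Q ω) (B ω) s(p.1, p.2))) := by
    rw [two_hs_eq (q := fun ω p => ind ((Gr ω).edgeSet ∩ (A ω ∪ B ω ∪ Q ω)) s(p.1, p.2)
      + ind ((Gr ω).edgeSet \ (A ω ∪ B ω ∪ Q ω)) s(p.1, p.2) *
        (hi (Gr ω) (A ω) (B ω ∪ Q ω) s(p.1, p.2) - lo (Gr ω) (A ω ∪ Q ω) (B ω) s(p.1, p.2)))
      (adm_MM h hA hB hQ) (fun ω u v => norm_proj_MM (Gr ω) (A ω) (B ω) (Q ω) u v), ← tr_add]
    · exact fun ω p => ind_nonneg _ _
    · intro ω p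
      by_cases hp : s(p.1, p.2) ∈ (Gr ω).edgeSet \ (A ω ∪ B ω ∪ Q ω)
      · have h3 := norm_proj_MM (Gr ω) (A ω) (B ω) (Q ω) p.1 p.2
        rw [ind_of_notMem (S := (Gr ω).edgeSet ∩ _) (fun h' => hp.2 h'.2), zero_add] at h3
        rw [← h3]; positivity
      · rw [ind_of_notMem hp, zero_mul]
    · exact hm ((hA.union hB).union hQ)
  have h3 : 2 * hs P (fun ω => proj (EE (Gr ω) ⊓ suppS (A ω ∪ Q ω)))
      = tr P (fun ω p => ind ((Gr ω).edgeSet ∩ (A ω ∪ Q ω)) s(p.1, p.2)) :=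
    two_hs_eq ((adm_EE h).inf (hA.union hQ).supp (fun _ => isClosed_EE _)
      fun _ => isClosed_suppS _) fun ω u v => norm_proj_EE_supp' _ _ _ _
  have h4 : 2 * hs P (fun ω => proj (EE (Gr ω) ⊓ suppS (B ω ∪ Q ω)))
      = tr P (fun ω p => ind ((Gr ω).edgeSet ∩ (B ω ∪ Q ω)) s(p.1, p.2)) :=
    two_hs_eq ((adm_EE h).inf (hB.union hQ).supp (fun _ => isClosed_EE _)
      fun _ => isClosed_suppS _) fun ω u v => norm_proj_EE_supp' _ _ _ _
  have h5 : tr P (fun ω p => ind ((Gr ω).edgeSet ∩ (A ω ∪ Q ω)) s(p.1, p.2))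
      + tr P (fun ω p => ind ((Gr ω).edgeSet ∩ (B ω ∪ Q ω)) s(p.1, p.2))
      = tr P (fun ω p => ind ((Gr ω).edgeSet ∩ (A ω ∪ B ω ∪ Q ω)) s(p.1, p.2))
      + tr P (fun ω p => ind ((Gr ω).edgeSet ∩ Q ω) s(p.1, p.2)) := by
    rw [← tr_add (fun ω p => ind_nonneg _ _) (fun ω p => ind_nonneg _ _)
      (hm (hA.union hQ)), ← tr_add (fun ω p => ind_nonneg _ _)
      (fun ω p => ind_nonneg _ _) (hm ((hA.union hB).union hQ))]
    refine tr_congr fun ω p => ?_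
    unfold ind
    by_cases hE : s(p.1, p.2) ∈ (Gr ω).edgeSet
    · have e1 : s(p.1, p.2) ∈ A ω → s(p.1, p.2) ∉ B ω := fun a b =>
        (disjoint_left.1 (hAB ω)) a b
      have e2 : s(p.1, p.2) ∈ A ω → s(p.1, p.2) ∉ Q ω := fun a b =>
        (disjoint_left.1 (hAQ ω)) a b
      have e3 : s(p.1, p.2) ∈ B ω → s(p.1, p.2) ∉ Q ω := fun a b =>
        (disjoint_left.1 (hBQ ω)) a b
      by_cases ha : s(p.1, p.2) ∈ A ω
      · simp [hE, ha, e1 ha, e2 ha]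
      · by_cases hb : s(p.1, p.2) ∈ B ω
        · simp [hE, ha, hb, e3 hb]
        · by_cases hq : s(p.1, p.2) ∈ Q ω
          · simp [hE, ha, hb, hq]
          · simp [hE, ha, hb, hq]
    · simp [hE]
  have h6 := mul_le_mul_right h1 (2 : ENNReal)
  rw [mul_add, h2, h3, h4, h5] at h6
  exact (ENNReal.add_le_add_iff_left hfin).1 h6

end Vale.Agent.P143
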