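import Mathlib

set_option autoImplicit false

namespace Vale.Agent.P143

open Filter Topology
open scoped InnerProductSpace

universe u

section Hilbert

variable {H : Type u} [NormedAddCommGroup H] [InnerProductSpace ℝ H] [CompleteSpace H]

omit [CompleteSpace H] in
lemma cmul_apply (A B : H →L[ℝ] H) (x : H) : (A * B) x = A (B x) := rfl

/-- Orthogonal projection onto the closure of a subspace. -/
noncomputable def proj (K : Submodule ℝ H) : H →L[ℝ] H :=
  K.topologicalClosure.starProjection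

lemma proj_mem_closure (K : Submodule ℝ H) (x : H) : proj K x ∈ K.topologicalClosure :=
  Submodule.starProjection_apply_mem _ x

omit [CompleteSpace H] in
lemma closure_eq_of_isClosed {K : Submodule ℝ H} (hK : IsClosed (K : Set H)) :
    K.topologicalClosure = K := by
  exact le_antisymm (Submodule.topologicalClosure_minimal _ le_rfl hK) K.le_topologicalClosure

lemma proj_mem {K : Submodule ℝ H} (hK : IsClosed (K : Set H)) (x : H) : proj K x ∈ K := by
  have h := proj_mem_closure K x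
  rwa [closure_eq_of_isClosed hK] at h

lemma proj_inner (K : Submodule ℝ H) (x y : H) : ⟪proj K x, y⟫_ℝ = ⟪x, proj K y⟫_ℝ :=
  Submodule.inner_starProjection_left_eq_right _ x y

lemma proj_eq_self_of_mem_closure {K : Submodule ℝ H} {x : H} (hx : x ∈ K.topologicalClosure) :
    proj K x = x :=
  Submodule.starProjection_eq_self_iff.2 hx

lemma proj_eq_self {K : Submodule ℝ H} {x : H} (hx : x ∈ K) : proj K x = x :=
  proj_eq_self_of_mem_closure (K.le_topologicalClosure hx)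

omit [CompleteSpace H] in
lemma orthogonal_closure (K : Submodule ℝ H) : K.topologicalClosureᗮ = Kᗮ :=
  Submodule.orthogonal_closure K

lemma sub_proj_mem_orthogonal (K : Submodule ℝ H) (x : H) : x - proj K x ∈ Kᗮ := by
  have h := Submodule.sub_starProjection_mem_orthogonal (K := K.topologicalClosure) x
  rwa [orthogonal_closure] at h

lemma proj_unique {K : Submodule ℝ H} {x y : H} (hy : y ∈ K.topologicalClosure)
    (h : x - y ∈ Kᗮ) : proj K x = y := by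
  rw [← orthogonal_closure] at h
  exact Submodule.eq_starProjection_of_mem_orthogonal hy h

lemma proj_eq_zero {K : Submodule ℝ H} {x : H} (h : x ∈ Kᗮ) : proj K x = 0 :=
  proj_unique (Submodule.zero_mem _) (by simpa using h)

lemma proj_eq_zero_iff {K : Submodule ℝ H} {x : H} : proj K x = 0 ↔ x ∈ Kᗮ := by
  refine ⟨fun h => ?_, proj_eq_zero⟩
  have h2 := sub_proj_mem_orthogonal K x
  rwa [h, sub_zero] at h2

lemma norm_proj_le (K : Submodule ℝ H) (x : H) : ‖proj K x‖ ≤ ‖x‖ :=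
  Submodule.norm_starProjection_apply_le _ x

lemma proj_proj (K : Submodule ℝ H) (x : H) : proj K (proj K x) = proj K x :=
  proj_eq_self_of_mem_closure (proj_mem_closure K x)

lemma inner_proj_self (K : Submodule ℝ H) (x : H) : ⟪proj K x, x⟫_ℝ = ‖proj K x‖ ^ 2 := by
  rw [← real_inner_self_eq_norm_sq, proj_inner, proj_inner, proj_proj]

lemma inner_of_mem {K : Submodule ℝ H} {x y : H} (hy : y ∈ K.topologicalClosure) :
    ⟪proj K x, y⟫_ℝ = ⟪x, y⟫_ℝ := by
  rw [proj_inner, proj_eq_self_of_mem_closure hy]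

lemma inner_eq_zero_of_mem_closure {K : Submodule ℝ H} {x y : H} (hy : y ∈ K.topologicalClosure)
    (hx : x ∈ Kᗮ) : ⟪x, y⟫_ℝ = 0 := by
  rw [← inner_of_mem hy, proj_eq_zero hx, inner_zero_left]

lemma norm_sq_proj_add (K : Submodule ℝ H) (x : H) :
    ‖x‖ ^ 2 = ‖proj K x‖ ^ 2 + ‖x - proj K x‖ ^ 2 := by
  have h := @norm_add_sq_real _ _ _ (proj K x) (x - proj K x)
  have h0 : ⟪proj K x, x - proj K x⟫_ℝ = 0 := by
    rw [real_inner_comm]
    exact inner_eq_zero_of_mem_closure (proj_mem_closure K x) (sub_proj_mem_orthogonal K x)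
  rw [add_sub_cancel, h0] at h
  linarith

/-- Even powers of a positive symmetric contraction converge to the projection onto the fixed
space. -/
lemma tendsto_pow_even (C : H →L[ℝ] H) (hsym : ∀ x y, ⟪C x, y⟫_ℝ = ⟪x, C y⟫_ℝ)
    (hC : ∀ x, ‖C x‖ ≤ ‖x‖) (hpos : ∀ x, 0 ≤ ⟪C x, x⟫_ℝ) (K : Submodule ℝ H)
    (hK : ∀ x, x ∈ K ↔ C x = x) (x : H) :
    Tendsto (fun n => (C ^ (2 * n)) x) atTop (𝓝 (proj K x)) := by
  have hpowsym : ∀ (n : ℕ) (x y : H), ⟪(C ^ n) x, y⟫_ℝ = ⟪x, (C ^ n) y⟫_ℝ := by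
    intro n
    induction n with
    | zero => intro x y; simp
    | succ n ih =>
      intro x y
      rw [pow_succ', cmul_apply, hsym, ih]
      rw [← pow_succ' C n, pow_succ C n, cmul_apply]
  have hpownorm : ∀ (n : ℕ) (x : H), ‖(C ^ (n + 1)) x‖ ≤ ‖(C ^ n) x‖ := by
    intro n x
    rw [pow_succ', cmul_apply]
    exact hC _
  have hinner : ∀ (n m : ℕ), ⟪(C ^ n) x, (C ^ m) x⟫_ℝ = ⟪(C ^ (n + m)) x, x⟫_ℝ := by
    intro n m
    rw [← hpowsym m, ← cmul_apply, ← pow_add, add_comm m n]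
  set a : ℕ → ℝ := fun n => ‖(C ^ n) x‖ ^ 2 with ha
  have haanti : Antitone a := by
    apply antitone_nat_of_succ_le
    intro n
    exact pow_le_pow_left₀ (norm_nonneg _) (hpownorm n x) 2
  have habdd : BddBelow (Set.range a) := ⟨0, by rintro _ ⟨n, rfl⟩; positivity⟩
  have hconv : Tendsto a atTop (𝓝 (⨅ n, a n)) := tendsto_atTop_ciInf haanti habdd
  have hainner : ∀ n m : ℕ, ⟪(C ^ (2 * n)) x, (C ^ (2 * m)) x⟫_ℝ = a (n + m) := by
    intro n m
    rw [hinner]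
    simp only [ha]
    rw [← real_inner_self_eq_norm_sq, hinner]
    congr 3
    ring
  have hdist : ∀ n m : ℕ, ‖(C ^ (2 * n)) x - (C ^ (2 * m)) x‖ ^ 2
      = a (2 * n) + a (2 * m) - 2 * a (n + m) := by
    intro n m
    rw [@norm_sub_sq_real, hainner]
    simp only [ha]
    ring
  have hcauchy : CauchySeq (fun n => (C ^ (2 * n)) x) := by
    rw [Metric.cauchySeq_iff']
    intro ε hε
    set L := ⨅ n, a n with hL
    have hLle : ∀ n, L ≤ a n := fun n => ciInf_le habdd n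
    obtain ⟨N, hN⟩ := (Metric.tendsto_atTop.1 hconv) (ε ^ 2 / 2) (by positivity)
    refine ⟨N, fun n hn => ?_⟩
    rw [dist_eq_norm]
    have h1 := hN (2 * n) (by omega)
    have h2 := hN (2 * N) (by omega)
    rw [Real.dist_eq, abs_lt] at h1 h2
    have h3 := hdist n N
    have h4 := hLle (n + N)
    have h5 : ‖(C ^ (2 * n)) x - (C ^ (2 * N)) x‖ ^ 2 < ε ^ 2 := by
      rw [h3]; linarith [h1.2, h2.2]
    exact lt_of_pow_lt_pow_left₀ 2 hε.le h5
  obtain ⟨y, hy⟩ := cauchySeq_tendsto_of_complete hcauchy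
  have hCy : C (C y) = y := by
    have h1 : Tendsto (fun n => (C ^ (2 * (n + 1))) x) atTop (𝓝 y) :=
      hy.comp (tendsto_add_atTop_nat 1)
    have h2 : Tendsto (fun n => C (C ((C ^ (2 * n)) x))) atTop (𝓝 (C (C y))) :=
      ((C.continuous.comp C.continuous).tendsto y).comp hy
    have h3 : (fun n => (C ^ (2 * (n + 1))) x) = fun n => C (C ((C ^ (2 * n)) x)) := by
      funext n
      rw [show 2 * (n + 1) = 2 * n + 1 + 1 by ring, pow_succ', pow_succ']
      simp only [cmul_apply]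
    rw [h3] at h1
    exact tendsto_nhds_unique h2 h1
  have hCy' : C y = y := by
    set z := C y - y with hz
    have hz1 : C z = -z := by
      rw [hz, map_sub, hCy]; abel
    have h1 := hpos z
    rw [hz1, inner_neg_left, real_inner_self_eq_norm_sq] at h1
    have h2 : ‖z‖ ^ 2 ≤ 0 := by linarith
    have h3 : z = 0 := by
      rw [← norm_eq_zero]
      nlinarith [norm_nonneg z]
    rw [hz] at h3
    exact sub_eq_zero.1 h3
  have hyK : y ∈ K := (hK y).2 hCy'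
  have horth : x - y ∈ Kᗮ := by
    rw [Submodule.mem_orthogonal']
    intro z hz
    have hzfix : ∀ n : ℕ, (C ^ n) z = z := by
      intro n
      induction n with
      | zero => simp
      | succ n ih => rw [pow_succ', cmul_apply, ih, (hK z).1 hz]
    have h1 : Tendsto (fun n => ⟪(C ^ (2 * n)) x, z⟫_ℝ) atTop (𝓝 ⟪y, z⟫_ℝ) :=
      hy.inner tendsto_const_nhds
    have h2 : (fun n => ⟪(C ^ (2 * n)) x, z⟫_ℝ) = fun _ => ⟪x, z⟫_ℝ := by
      funext n
      rw [hpowsym, hzfix]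
    rw [h2] at h1
    rw [inner_sub_left, tendsto_nhds_unique h1 tendsto_const_nhds, sub_self]
  rw [proj_unique (K.le_topologicalClosure hyK) horth]
  exact hy

/-- lower bound for the norm of the projection -/
lemma inner_sq_le_norm_proj {K : Submodule ℝ H} {x d : H} (hx : x ∈ K.topologicalClosure) :
    ⟪x, d⟫_ℝ ^ 2 ≤ ‖x‖ ^ 2 * ‖proj K d‖ ^ 2 := by
  have h1 : ⟪x, d⟫_ℝ = ⟪x, proj K d⟫_ℝ := by
    rw [← proj_inner, proj_eq_self_of_mem_closure hx]
  rw [h1, ← mul_pow]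
  exact sq_le_sq' (by linarith [neg_le_of_abs_le (abs_real_inner_le_norm x (proj K d))])
    (real_inner_le_norm _ _)

/-- upper bound for the norm of the projection from bounds over a dense subspace -/
lemma norm_proj_sq_le {K : Submodule ℝ H} {d : H} {c : ℝ} (hc : 0 ≤ c)
    (h : ∀ x ∈ K, ⟪x, d⟫_ℝ ^ 2 ≤ c * ‖x‖ ^ 2) : ‖proj K d‖ ^ 2 ≤ c := by
  have hcl : ∀ x ∈ K.topologicalClosure, ⟪x, d⟫_ℝ ^ 2 ≤ c * ‖x‖ ^ 2 := by
    have hclosed : IsClosed {x : H | ⟪x, d⟫_ℝ ^ 2 ≤ c * ‖x‖ ^ 2} := by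
      apply isClosed_le <;> fun_prop
    intro x hx
    have hx' : x ∈ closure (K : Set H) := by
      rwa [← Submodule.topologicalClosure_coe]
    have hsub : (K : Set H) ⊆ {x : H | ⟪x, d⟫_ℝ ^ 2 ≤ c * ‖x‖ ^ 2} := fun y hy => h y hy
    exact closure_minimal hsub hclosed hx'
  have h1 := hcl _ (proj_mem_closure K d)
  rw [inner_proj_self] at h1
  rcases eq_or_lt_of_le (sq_nonneg ‖proj K d‖) with h0 | h0
  · rw [← h0]; exact hc
  · have h2 : (‖proj K d‖ ^ 2) * (‖proj K d‖ ^ 2) ≤ c * ‖proj K d‖ ^ 2 := by nlinarith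
    exact le_of_mul_le_mul_right h2 h0

/-- the projection is monotone in norm -/
lemma norm_proj_mono {K L : Submodule ℝ H} (h : K ≤ L.topologicalClosure) (d : H) :
    ‖proj K d‖ ^ 2 ≤ ‖proj L d‖ ^ 2 := by
  refine norm_proj_sq_le (by positivity) fun x hx => ?_
  rw [mul_comm]
  exact inner_sq_le_norm_proj (h hx)

/-- the basic positive contraction attached to a bounded operator -/
noncomputable def contr (c : ℝ) (T : H →L[ℝ] H) : H →L[ℝ] H :=
  1 - (c⁻¹ ^ 2) • (ContinuousLinearMap.adjoint T * T)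

lemma contr_apply (c : ℝ) (T : H →L[ℝ] H) (x : H) :
    contr c T x = x - (c⁻¹ ^ 2) • (ContinuousLinearMap.adjoint T (T x)) := rfl

lemma contr_sym (c : ℝ) (T : H →L[ℝ] H) (x y : H) :
    ⟪contr c T x, y⟫_ℝ = ⟪x, contr c T y⟫_ℝ := by
  simp only [contr_apply, inner_sub_left, inner_sub_right, inner_smul_left, inner_smul_right,
    ContinuousLinearMap.adjoint_inner_left, ContinuousLinearMap.adjoint_inner_right]
  simp

lemma contr_inner_self (c : ℝ) (T : H →L[ℝ] H) (x : H) :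
    ⟪contr c T x, x⟫_ℝ = ‖x‖ ^ 2 - c⁻¹ ^ 2 * ‖T x‖ ^ 2 := by
  simp only [contr_apply, inner_sub_left, inner_smul_left,
    ContinuousLinearMap.adjoint_inner_left, real_inner_self_eq_norm_sq]
  simp

lemma contr_pos {c : ℝ} (hc : 0 < c) {T : H →L[ℝ] H} (hT : ∀ x, ‖T x‖ ≤ c * ‖x‖) (x : H) :
    0 ≤ ⟪contr c T x, x⟫_ℝ := by
  rw [contr_inner_self]
  have h1 : ‖T x‖ ^ 2 ≤ (c * ‖x‖) ^ 2 := pow_le_pow_left₀ (norm_nonneg _) (hT x) 2
  have h2 : c⁻¹ ^ 2 * ‖T x‖ ^ 2 ≤ c⁻¹ ^ 2 * (c * ‖x‖) ^ 2 := by gcongr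
  have h3 : c⁻¹ ^ 2 * (c * ‖x‖) ^ 2 = ‖x‖ ^ 2 := by field_simp
  linarith

lemma norm_adjoint_le {c : ℝ} (hc : 0 ≤ c) {T : H →L[ℝ] H} (hT : ∀ x, ‖T x‖ ≤ c * ‖x‖) (x : H) :
    ‖ContinuousLinearMap.adjoint T x‖ ≤ c * ‖x‖ := by
  set y := ContinuousLinearMap.adjoint T x with hy
  rcases eq_or_lt_of_le (norm_nonneg y) with h0 | h0
  · rw [← h0]; positivity
  · have h1 : ‖y‖ * ‖y‖ ≤ (c * ‖x‖) * ‖y‖ := by
      calc ‖y‖ * ‖y‖ = ⟪y, y⟫_ℝ := by rw [real_inner_self_eq_norm_mul_norm]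
        _ = ⟪x, T y⟫_ℝ := by rw [hy, ContinuousLinearMap.adjoint_inner_left]
        _ ≤ ‖x‖ * ‖T y‖ := real_inner_le_norm _ _
        _ ≤ ‖x‖ * (c * ‖y‖) := by gcongr; exact hT y
        _ = (c * ‖x‖) * ‖y‖ := by ring
    exact le_of_mul_le_mul_right h1 h0

lemma norm_contr_le {c : ℝ} (hc : 0 < c) {T : H →L[ℝ] H} (hT : ∀ x, ‖T x‖ ≤ c * ‖x‖) (x : H) :
    ‖contr c T x‖ ≤ ‖x‖ := by
  refine le_of_sq_le_sq ?_ (norm_nonneg _)
  have h1 : ‖contr c T x‖ ^ 2 = ‖x‖ ^ 2 - 2 * (c⁻¹ ^ 2 * ‖T x‖ ^ 2)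
      + (c⁻¹ ^ 2) ^ 2 * ‖ContinuousLinearMap.adjoint T (T x)‖ ^ 2 := by
    rw [contr_apply, @norm_sub_sq_real, inner_smul_right,
      ContinuousLinearMap.adjoint_inner_right, real_inner_self_eq_norm_sq, norm_smul, mul_pow]
    simp
  have h2 : ‖ContinuousLinearMap.adjoint T (T x)‖ ^ 2 ≤ (c * ‖T x‖) ^ 2 :=
    pow_le_pow_left₀ (norm_nonneg _) (norm_adjoint_le hc.le hT _) 2
  have h3 : (c⁻¹ ^ 2) ^ 2 * ‖ContinuousLinearMap.adjoint T (T x)‖ ^ 2
      ≤ (c⁻¹ ^ 2) ^ 2 * (c * ‖T x‖) ^ 2 := by gcongr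
  have h4 : (c⁻¹ ^ 2) ^ 2 * (c * ‖T x‖) ^ 2 = c⁻¹ ^ 2 * ‖T x‖ ^ 2 := by field_simp
  have h5 : 0 ≤ c⁻¹ ^ 2 * ‖T x‖ ^ 2 := by positivity
  rw [h1]
  linarith

lemma contr_fix {c : ℝ} (hc : 0 < c) {T : H →L[ℝ] H} (x : H) :
    contr c T x = x ↔ T x = 0 := by
  constructor
  · intro h
    have h1 := contr_inner_self c T x
    rw [h, real_inner_self_eq_norm_sq] at h1
    have h2 : c⁻¹ ^ 2 * ‖T x‖ ^ 2 = 0 := by linarith
    have h3 : (c⁻¹ ^ 2 : ℝ) ≠ 0 := by positivity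
    have h4 : ‖T x‖ ^ 2 = 0 := by
      rcases mul_eq_zero.1 h2 with h | h
      · exact absurd h h3
      · exact h
    simpa using h4
  · intro h
    rw [contr_apply, h]
    simp

/-- Convergence to the kernel projection. -/
lemma tendsto_contr {c : ℝ} (hc : 0 < c) {T : H →L[ℝ] H} (hT : ∀ x, ‖T x‖ ≤ c * ‖x‖)
    {K : Submodule ℝ H} (hK : ∀ x, x ∈ K ↔ T x = 0) (x : H) :
    Tendsto (fun n => (contr c T ^ (2 * n)) x) atTop (𝓝 (proj K x)) :=
  tendsto_pow_even _ (contr_sym c T) (norm_contr_le hc hT) (contr_pos hc hT) K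
    (fun y => by rw [hK y, contr_fix hc]) x

end Hilbert

end Vale.Agent.P143
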