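import Vale.Agent.P143.LawLe

set_option autoImplicit false

namespace Vale.Agent.P143

open MeasureTheory Set Filter Topology ProbabilityTheory
open scoped ENNReal

universe u

/-! ### pairs of independent families -/

/-- Two independent i.i.d. families form an i.i.d. family of pairs. -/
theorem zip_map {E : Type u} :
    ((Measure.infinitePi fun _ : E => (volume : Measure unitInterval)).prod
      (Measure.infinitePi fun _ : E => (volume : Measure unitInterval))).map
        (fun z : (E → unitInterval) × (E → unitInterval) => fun e => (z.1 e, z.2 e)) =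
      Measure.infinitePi fun _ : E => (volume : Measure (unitInterval × unitInterval)) := by
  refine Measure.eq_infinitePi _ fun s t ht => ?_
  have hzip : Measurable
      (fun z : (E → unitInterval) × (E → unitInterval) => fun e => (z.1 e, z.2 e)) := by
    fun_prop
  have hpi : MeasurableSet (Set.pi (s : Set E) t) :=
    MeasurableSet.pi s.countable_toSet fun i _ => ht i
  rw [Measure.map_apply hzip hpi, Measure.prod_apply (hzip hpi)]
  have h1 : ∀ x : E → unitInterval, (Measure.infinitePi fun _ : E => (volume : Measure unitInterval))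
      (Prod.mk x ⁻¹' ((fun z : (E → unitInterval) × (E → unitInterval) => fun e => (z.1 e, z.2 e)) ⁻¹'
        (Set.pi (s : Set E) t))) =
      ∏ e ∈ s, (volume : Measure unitInterval) (Prod.mk (x e) ⁻¹' t e) := by
    intro x
    have h2 : Prod.mk x ⁻¹' ((fun z : (E → unitInterval) × (E → unitInterval) =>
        fun e => (z.1 e, z.2 e)) ⁻¹' (Set.pi (s : Set E) t)) =
        Set.pi (s : Set E) fun e => Prod.mk (x e) ⁻¹' t e := by
      ext y
      simp only [mem_preimage, Set.mem_pi]
    rw [h2, Measure.infinitePi_pi]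
    exact fun e _ => measurable_prodMk_left (ht e)
  simp_rw [h1]
  have hm : ∀ e, Measurable fun y : unitInterval =>
      (volume : Measure unitInterval) (Prod.mk y ⁻¹' t e) := fun e =>
    measurable_measure_prodMk_left (ht e)
  rw [lintegral_prod_eq_prod_lintegral_of_indepFun s
    (fun (e : E) (x : E → unitInterval) => (volume : Measure unitInterval) (Prod.mk (x e) ⁻¹' t e))
    (iIndepFun_infinitePi (X := fun e y => (volume : Measure unitInterval) (Prod.mk y ⁻¹' t e)) hm)
    (fun e => (hm e).comp (measurable_pi_apply e))]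
  refine Finset.prod_congr rfl fun e _ => ?_
  have h3 : ∫⁻ x : E → unitInterval, (volume : Measure unitInterval) (Prod.mk (x e) ⁻¹' t e)
      ∂(Measure.infinitePi fun _ : E => (volume : Measure unitInterval)) =
      ∫⁻ y : unitInterval, (volume : Measure unitInterval) (Prod.mk y ⁻¹' t e) :=
    (measurePreserving_eval_infinitePi (fun _ : E => (volume : Measure unitInterval))
      e).lintegral_comp (hm e)
  rw [h3, Measure.volume_eq_prod, Measure.prod_apply (ht e)]

/-! ### cylinders -/

/-- the cylinder of the configurations that agree with `x` on `F` -/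
def cyl {E : Type u} (F x : Set E) : Set (Set E) := {X | ∀ e ∈ F, (e ∈ X ↔ e ∈ x)}

theorem cyl_measurable {E : Type u} {F : Set E} (hF : F.Finite) (x : Set E) :
    MeasurableSet (cyl F x) := by
  have : cyl F x = ⋂ e ∈ F, {X : Set E | e ∈ X ↔ e ∈ x} := by
    ext X
    simp only [cyl, mem_ofPred_eq, mem_iInter]
  rw [this]
  refine MeasurableSet.biInter hF.countable fun e _ => ?_
  by_cases hx : e ∈ x
  · simpa [hx] using measurableSet_mem (α := E) e
  · simpa [hx] using measurableSet_notMem (α := E) e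

theorem cyl_eq_of_mem {E : Type u} {F x X : Set E} (h : X ∈ cyl F x) : cyl F x = cyl F X := by
  ext Y
  simp only [cyl, mem_ofPred_eq]
  refine forall₂_congr fun e he => ?_
  rw [h e he]

theorem cyl_inter {E : Type u} (F : Set E) (x : Set E) : cyl F x = cyl F (x ∩ F) := by
  ext Y
  simp only [cyl, mem_ofPred_eq, mem_inter_iff]
  refine forall₂_congr fun e he => ?_
  simp [he]

/-- probability measures on `Set E` that agree on cylinders are equal -/
theorem ext_cyl {E : Type u} (μ ν : Measure (Set E)) [IsProbabilityMeasure μ]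
    [IsProbabilityMeasure ν] (h : ∀ F : Set E, F.Finite → ∀ x, μ (cyl F x) = ν (cyl F x)) :
    μ = ν := by
  let C : Set (Set (Set E)) := {s | ∃ F : Set E, F.Finite ∧ ∃ x, s = cyl F x}
  refine ext_of_generate_finite C ?_ ?_ ?_ (by simp)
  · refine le_antisymm ?_ ?_
    · have h1 : @Measurable _ _ (MeasurableSpace.generateFrom C) Set.instMeasurableSpace
          (fun X : Set E => X) := by
        refine (@measurable_set_iff E (Set E) (MeasurableSpace.generateFrom C) _).2 fun e => ?_
        refine (@measurableSet_setOfPred (Set E) (MeasurableSpace.generateFrom C) _).1 ?_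
        refine MeasurableSpace.measurableSet_generateFrom ⟨{e}, finite_singleton e, {e}, ?_⟩
        ext X
        simp [cyl]
      exact fun s hs => h1 hs
    · refine MeasurableSpace.generateFrom_le ?_
      rintro _ ⟨F, hF, x, rfl⟩
      exact cyl_measurable hF x
  · rintro _ ⟨F, hF, x, rfl⟩ _ ⟨F', hF', x', rfl⟩ ⟨X, hX, hX'⟩
    refine ⟨F ∪ F', hF.union hF', X, ?_⟩
    rw [cyl_eq_of_mem hX, cyl_eq_of_mem hX']
    ext Y
    simp only [cyl, mem_inter_iff, mem_ofPred_eq, mem_union]
    constructor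
    · rintro ⟨h1, h2⟩ e (he | he)
      · exact h1 e he
      · exact h2 e he
    · intro h1
      exact ⟨fun e he => h1 e (Or.inl he), fun e he => h1 e (Or.inr he)⟩
  · rintro _ ⟨F, hF, x, rfl⟩
    exact h F hF x

/-- the cylinders over a fixed finite set partition the space -/
theorem sum_cyl {E : Type u} (μ : Measure (Set E)) [IsProbabilityMeasure μ] {F : Set E}
    (hF : F.Finite) : ∑ x ∈ hF.finite_subsets.toFinset, μ.real (cyl F x) = 1 := by
  rw [← measureReal_biUnion_finset]
  · have : (⋃ x ∈ hF.finite_subsets.toFinset, cyl F x) = univ := by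
      refine eq_univ_of_forall fun X => ?_
      simp only [mem_iUnion, Finite.mem_toFinset, mem_ofPred_eq, exists_prop]
      exact ⟨X ∩ F, inter_subset_right, fun e he => by simp [he]⟩
    rw [this]
    simp
  · intro x hx y hy hne
    simp only [Finite.coe_toFinset, mem_ofPred_eq] at hx hy
    rw [Function.onFun, Set.disjoint_left]
    intro X h1 h2
    refine hne (Set.ext fun e => ?_)
    constructor
    · intro he
      exact (h2 e (hx he)).1 ((h1 e (hx he)).2 he)
    · intro he
      exact (h1 e (hy he)).1 ((h2 e (hy he)).2 he)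
  · exact fun x _ => cyl_measurable hF x

/-- probability measures on `Set E` such that one dominates the other on cylinders are equal -/
theorem ext_cyl_le {E : Type u} (μ ν : Measure (Set E)) [IsProbabilityMeasure μ]
    [IsProbabilityMeasure ν] (h : ∀ F : Set E, F.Finite → ∀ x, ν (cyl F x) ≤ μ (cyl F x)) :
    ν = μ := by
  refine ext_cyl ν μ fun F hF x => ?_
  have hle : ∀ y ∈ hF.finite_subsets.toFinset, ν.real (cyl F y) ≤ μ.real (cyl F y) := fun y _ =>
    ENNReal.toReal_mono (measure_ne_top μ _) (h F hF y)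
  have hsum := (Finset.sum_eq_sum_iff_of_le hle).1 (by rw [sum_cyl ν hF, sum_cyl μ hF])
  have hx := hsum (x ∩ F) (by simp)
  rw [cyl_inter F x]
  rwa [measureReal_eq_measureReal_iff] at hx

/-! ### the main theorem -/

theorem law_eq {E : Type u} [Countable E] (μ : Measure (Set E)) [IsProbabilityMeasure μ]
    (lo hi : Set E → Set E → E → ℝ)
    (lo_mono : ∀ A A' B B' : Set E, ∀ e, A ⊆ A' → B' ⊆ B → e ∉ A' → e ∉ B →
      lo A' B' e ≤ lo A B e)
    (hi_mono : ∀ A A' B B' : Set E, ∀ e, A ⊆ A' → B' ⊆ B → e ∉ A' → e ∉ B →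
      hi A' B' e ≤ hi A B e)
    (lo_le_hi : ∀ A B : Set E, ∀ e, e ∉ A → e ∉ B → Disjoint A B → lo A B e ≤ hi A B e)
    (fin_eq : ∀ A B : Set E, ∀ e, A.Finite → B.Finite → e ∉ A → e ∉ B → Disjoint A B →
      lo A B e = hi A B e)
    (fin_prob : ∀ A B : Set E, ∀ e, A.Finite → B.Finite → e ∉ A → e ∉ B → Disjoint A B →
      μ.real {X | A ⊆ X ∧ Disjoint X B ∧ e ∈ X} = lo A B e * μ.real {X | A ⊆ X ∧ Disjoint X B})
    (lo_lim : ∀ A B : Set E, ∀ e, e ∉ A → e ∉ B → Disjoint A B →
      ∀ F : ℕ → Set E, Monotone F → (⋃ n, F n) = univ → ∀ ε > 0, ∀ᶠ n in atTop,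
        lo A B e - ε ≤ lo (A ∩ F n) (B ∩ F n) e)
    (hi_lim : ∀ A B : Set E, ∀ e, e ∉ A → e ∉ B → Disjoint A B →
      ∀ F : ℕ → Set E, Monotone F → (⋃ n, F n) = univ → ∀ ε > 0, ∀ᶠ n in atTop,
        hi (A ∩ F n) (B ∩ F n) e ≤ hi A B e + ε)
    (b : ℕ → (E → unitInterval × unitInterval) → E → ℕ)
    (hb : ∀ n m m', (∀ e, (m e).1 = (m' e).1) → b n m = b n m')
    (meas₁ : ∀ n k e, MeasurableSet {m : E → unitInterval × unitInterval |
      e ∈ (stat lo hi (b n m) (fun f => ((m f).2 : ℝ)) k).1})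
    (meas₂ : ∀ n k e, MeasurableSet {m : E → unitInterval × unitInterval |
      e ∈ (stat lo hi (b n m) (fun f => ((m f).2 : ℝ)) k).2})
    (mono₁ : ∀ n m, (⋃ k, (stat lo hi (b n m) (fun f => ((m f).2 : ℝ)) k).1)
      ⊆ ⋃ k, (stat lo hi (b (n + 1) m) (fun f => ((m f).2 : ℝ)) k).1)
    (mono₂ : ∀ n m, (⋃ k, (stat lo hi (b n m) (fun f => ((m f).2 : ℝ)) k).2)
      ⊆ ⋃ k, (stat lo hi (b (n + 1) m) (fun f => ((m f).2 : ℝ)) k).2)
    (det : ∀ᵐ m ∂(Measure.infinitePi fun _ : E => (volume : Measure (unitInterval × unitInterval))),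
      ∀ e, ∃ n k, e ∈ (stat lo hi (b n m) (fun f => ((m f).2 : ℝ)) k).1 ∨
        e ∈ (stat lo hi (b n m) (fun f => ((m f).2 : ℝ)) k).2) :
    Measurable (fun m : E → unitInterval × unitInterval =>
      ⋃ n, ⋃ k, (stat lo hi (b n m) (fun f => ((m f).2 : ℝ)) k).1) ∧
    (Measure.infinitePi fun _ : E => (volume : Measure (unitInterval × unitInterval))).map
      (fun m => ⋃ n, ⋃ k, (stat lo hi (b n m) (fun f => ((m f).2 : ℝ)) k).1) = μ := by
  classical
  set P : Measure (E → unitInterval × unitInterval) :=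
    Measure.infinitePi fun _ : E => (volume : Measure (unitInterval × unitInterval)) with hP
  let Φ : (E → unitInterval × unitInterval) → Set E := fun m =>
    ⋃ n, ⋃ k, (stat lo hi (b n m) (fun f => ((m f).2 : ℝ)) k).1
  let Ψ : (E → unitInterval × unitInterval) → Set E := fun m =>
    ⋃ n, ⋃ k, (stat lo hi (b n m) (fun f => ((m f).2 : ℝ)) k).2
  have hΦ : Measurable Φ := by
    refine measurable_set_iff.2 fun e => ?_
    refine measurableSet_setOfPred.1 ?_
    have : {m | e ∈ Φ m} = ⋃ n, ⋃ k, {m : E → unitInterval × unitInterval |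
        e ∈ (stat lo hi (b n m) (fun f => ((m f).2 : ℝ)) k).1} := by
      ext m
      simp only [Φ, mem_iUnion, mem_ofPred_eq]
    rw [this]
    exact MeasurableSet.iUnion fun n => MeasurableSet.iUnion fun k => meas₁ n k e
  refine ⟨hΦ, ?_⟩
  have hprob : IsProbabilityMeasure (P.map Φ) := Measure.isProbabilityMeasure_map hΦ.aemeasurable
  refine ext_cyl_le μ (P.map Φ) fun F hF x => ?_
  rw [Measure.map_apply hΦ (cyl_measurable hF x)]
  -- the events at the finite levels
  let D : ℕ → ℕ → Set (E → unitInterval × unitInterval) := fun n k =>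
    {m | ∀ e ∈ F, (e ∈ x → e ∈ (stat lo hi (b n m) (fun f => ((m f).2 : ℝ)) k).1) ∧
      (e ∉ x → e ∈ (stat lo hi (b n m) (fun f => ((m f).2 : ℝ)) k).2)}
  have hDmeas : ∀ n k, MeasurableSet (D n k) := by
    intro n k
    have : D n k = ⋂ e ∈ F,
        ({m | e ∈ x → e ∈ (stat lo hi (b n m) (fun f => ((m f).2 : ℝ)) k).1} ∩
          {m | e ∉ x → e ∈ (stat lo hi (b n m) (fun f => ((m f).2 : ℝ)) k).2}) := by
      ext m
      simp only [D, mem_ofPred_eq, mem_iInter, mem_inter_iff]
    rw [this]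
    refine MeasurableSet.biInter hF.countable fun e _ => ?_
    by_cases hx : e ∈ x
    · simpa [hx] using meas₁ n k e
    · simpa [hx] using meas₂ n k e
  have hD : ∀ n k, P (D n k) ≤ μ (cyl F x) := by
    intro n k
    have hzip : Measurable
        (fun z : (E → unitInterval) × (E → unitInterval) => fun e => (z.1 e, z.2 e)) := by
      fun_prop
    rw [hP, ← zip_map, Measure.map_apply hzip (hDmeas n k), Measure.prod_apply (hzip (hDmeas n k))]
    have h1 : ∀ s : E → unitInterval,
        (Measure.infinitePi fun _ : E => (volume : Measure unitInterval))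
          (Prod.mk s ⁻¹' ((fun z : (E → unitInterval) × (E → unitInterval) =>
            fun e => (z.1 e, z.2 e)) ⁻¹' D n k)) ≤ μ (cyl F x) := by
      intro s
      have h2 : ∀ θ : E → unitInterval, b n (fun e => (s e, θ e)) = b n (fun e => (s e, 0)) :=
        fun θ => hb n _ _ fun e => rfl
      have hs : Measurable fun θ : E → unitInterval => fun e => (s e, θ e) := by fun_prop
      have h3 := law_le μ lo hi (b n fun e => (s e, 0)) lo_mono hi_mono lo_le_hi fin_eq fin_prob
        lo_lim hi_lim (fun k e => by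
          have h4 := hs (meas₁ n k e)
          simpa only [preimage_ofPred_eq, h2] using h4) (fun k e => by
          have h4 := hs (meas₂ n k e)
          simpa only [preimage_ofPred_eq, h2] using h4) F hF x k
      refine le_trans (le_of_eq ?_) h3
      congr 1
      ext θ
      simp only [D, mem_preimage, mem_ofPred_eq, h2]
    calc _ ≤ ∫⁻ _ : E → unitInterval, μ (cyl F x)
          ∂(Measure.infinitePi fun _ : E => (volume : Measure unitInterval)) :=
        lintegral_mono h1
      _ = μ (cyl F x) := by simp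
  -- monotonicity
  have hstat : ∀ n m k k', k ≤ k' →
      (stat lo hi (b n m) (fun f => ((m f).2 : ℝ)) k).1 ⊆
        (stat lo hi (b n m) (fun f => ((m f).2 : ℝ)) k').1 ∧
      (stat lo hi (b n m) (fun f => ((m f).2 : ℝ)) k).2 ⊆
        (stat lo hi (b n m) (fun f => ((m f).2 : ℝ)) k').2 := by
    intro n m k k' hkk
    induction k', hkk using Nat.le_induction with
    | base => exact ⟨Subset.rfl, Subset.rfl⟩
    | succ k' _ ih => exact ⟨ih.1.trans subset_union_left, ih.2.trans subset_union_left⟩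
  let G : ℕ → Set (E → unitInterval × unitInterval) := fun n =>
    {m | ∀ e ∈ F, (e ∈ x → e ∈ ⋃ k, (stat lo hi (b n m) (fun f => ((m f).2 : ℝ)) k).1) ∧
      (e ∉ x → e ∈ ⋃ k, (stat lo hi (b n m) (fun f => ((m f).2 : ℝ)) k).2)}
  have hGD : ∀ n, G n = ⋃ k, D n k := by
    intro n
    ext m
    simp only [mem_iUnion]
    constructor
    · intro hm
      have h1 : ∀ e ∈ F, ∃ k, (e ∈ x → e ∈ (stat lo hi (b n m) (fun f => ((m f).2 : ℝ)) k).1) ∧
          (e ∉ x → e ∈ (stat lo hi (b n m) (fun f => ((m f).2 : ℝ)) k).2) := by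
        intro e he
        by_cases hx : e ∈ x
        · obtain ⟨k, hk⟩ := mem_iUnion.1 ((hm e he).1 hx)
          exact ⟨k, fun _ => hk, fun h => absurd hx h⟩
        · obtain ⟨k, hk⟩ := mem_iUnion.1 ((hm e he).2 hx)
          exact ⟨k, fun h => absurd h hx, fun _ => hk⟩
      choose! K hK using h1
      obtain ⟨N, hN⟩ := (hF.image K).bddAbove
      refine ⟨N, fun e he => ?_⟩
      have h2 := hstat n m (K e) N (hN ⟨e, he, rfl⟩)
      exact ⟨fun hx => h2.1 ((hK e he).1 hx), fun hx => h2.2 ((hK e he).2 hx)⟩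
    · rintro ⟨k, hk⟩ e he
      exact ⟨fun hx => mem_iUnion.2 ⟨k, (hk e he).1 hx⟩, fun hx => mem_iUnion.2 ⟨k, (hk e he).2 hx⟩⟩
  have hDmono : ∀ n, Monotone (D n) := by
    intro n k k' hkk m hm e he
    have h2 := hstat n m k k' hkk
    exact ⟨fun hx => h2.1 ((hm e he).1 hx), fun hx => h2.2 ((hm e he).2 hx)⟩
  have hG : ∀ n, P (G n) ≤ μ (cyl F x) := by
    intro n
    rw [hGD n, (hDmono n).measure_iUnion]
    exact iSup_le fun k => hD n k
  have hGmono : Monotone G := by
    refine monotone_nat_of_le_succ fun n m hm e he => ?_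
    exact ⟨fun hx => mono₁ n m ((hm e he).1 hx), fun hx => mono₂ n m ((hm e he).2 hx)⟩
  have hGG : P (⋃ n, G n) ≤ μ (cyl F x) := by
    rw [hGmono.measure_iUnion]
    exact iSup_le fun n => hG n
  refine le_trans (measure_mono_ae ?_) hGG
  filter_upwards [det] with m hdet hm
  have hm' : ∀ e ∈ F, (e ∈ Φ m ↔ e ∈ x) := hm
  have h1 : ∀ e ∈ F, ∃ n, (e ∈ x → e ∈ ⋃ k, (stat lo hi (b n m) (fun f => ((m f).2 : ℝ)) k).1) ∧
      (e ∉ x → e ∈ ⋃ k, (stat lo hi (b n m) (fun f => ((m f).2 : ℝ)) k).2) := by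
    intro e he
    by_cases hx : e ∈ x
    · obtain ⟨n, hn⟩ := mem_iUnion.1 ((hm' e he).2 hx)
      exact ⟨n, fun _ => hn, fun h => absurd hx h⟩
    · have hnot : e ∉ Φ m := fun h => hx ((hm' e he).1 h)
      obtain ⟨n, k, h2 | h2⟩ := hdet e
      · exact absurd (mem_iUnion.2 ⟨n, mem_iUnion.2 ⟨k, h2⟩⟩) hnot
      · exact ⟨n, fun h => absurd h hx, fun _ => mem_iUnion.2 ⟨k, h2⟩⟩
  choose! K hK using h1
  obtain ⟨N, hN⟩ := (hF.image K).bddAbove
  refine mem_iUnion.2 ⟨N, fun e he => ?_⟩
  have hKN : K e ≤ N := hN ⟨e, he, rfl⟩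
  have hmA : Monotone fun n => ⋃ k, (stat lo hi (b n m) (fun f => ((m f).2 : ℝ)) k).1 :=
    monotone_nat_of_le_succ fun n => mono₁ n m
  have hmB : Monotone fun n => ⋃ k, (stat lo hi (b n m) (fun f => ((m f).2 : ℝ)) k).2 :=
    monotone_nat_of_le_succ fun n => mono₂ n m
  exact ⟨fun hx => hmA hKN ((hK e he).1 hx), fun hx => hmB hKN ((hK e he).2 hx)⟩

end Vale.Agent.P143
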