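import Mathlib

/-!
# P143, part (D), auxiliary file: the threshold coupling

`μ` is a law on `Set E` (`E` countable), `r : E → L` is an injective ranking of `E` in a linear
order, and `p e` is a version of the conditional probability of `e ∈ X` given the past of `e`.
We construct a coupling of `X ~ μ` with a family `V : E → [0,1]` of i.i.d. uniform thresholds such
that `V e ≤ p e X` if `e ∈ X` and `p e X ≤ V e` if `e ∉ X`.
-/

set_option autoImplicit false

open MeasureTheory Set unitInterval
open scoped ENNReal

namespace Vale.Agent.P143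

universe u

/-! ### uniform variables on the unit interval -/

theorem lawAux_key1 (p : I) :
    (ENNReal.ofReal p) • (volume.map (fun w : I => p * w)) =
      (volume : Measure I).restrict (Iic p) := by
  symm
  refine Measure.ext_of_Iic _ _ fun a => ?_
  symm
  have hm : Measurable (fun w : I => p * w) := by fun_prop
  rw [Measure.smul_apply, Measure.map_apply hm measurableSet_Iic,
    Measure.restrict_apply measurableSet_Iic, Iic_inter_Iic, smul_eq_mul]
  by_cases hpa : p ≤ a
  · have : (fun w : I => p * w) ⁻¹' Iic a = univ := by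
      ext w
      simp only [mem_preimage, mem_Iic, mem_univ, iff_true]
      exact le_trans (unitInterval.mul_le_left) hpa
    rw [this, inf_eq_right.2 hpa]
    simp
  · push Not at hpa
    have hp0 : (0:ℝ) < p := lt_of_le_of_lt a.2.1 hpa
    have hap : (a:ℝ) < p := hpa
    have : (fun w : I => p * w) ⁻¹' Iic a = Iic (⟨(a:ℝ) / p, div_nonneg a.2.1 hp0.le,
        (div_le_one hp0).2 hap.le⟩ : I) := by
      ext w
      simp only [mem_preimage, mem_Iic]
      rw [← Subtype.coe_le_coe, ← Subtype.coe_le_coe]
      simp only [Icc.coe_mul]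
      rw [le_div_iff₀ hp0, mul_comm]
    rw [this, inf_eq_left.2 hpa.le, unitInterval.volume_Iic, unitInterval.volume_Iic,
      ← ENNReal.ofReal_mul hp0.le]
    congr 1
    field_simp

theorem lawAux_key1_apply (p : I) {A : Set I} (hA : MeasurableSet A) :
    ENNReal.ofReal p * volume ((fun w : I => p * w) ⁻¹' A) = volume (A ∩ Iic p) := by
  have h := congrArg (fun m => m A) (lawAux_key1 p)
  have hm : Measurable (fun w : I => p * w) := by fun_prop
  simpa [Measure.smul_apply, Measure.map_apply hm hA, Measure.restrict_apply hA] using h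

theorem lawAux_key2_apply (p : I) {A : Set I} (hA : MeasurableSet A) :
    ENNReal.ofReal (1 - p) * volume ((fun w : I => σ (σ p * w)) ⁻¹' A) = volume (A ∩ Ici p) := by
  have hσ : Measurable (σ : I → I) := unitInterval.measurable_symm
  have h1 : (fun w : I => σ (σ p * w)) ⁻¹' A = (fun w : I => σ p * w) ⁻¹' (σ ⁻¹' A) := rfl
  have h2 := lawAux_key1_apply (σ p) (hσ hA)
  rw [h1]
  rw [coe_symm_eq] at h2
  rw [h2]
  have h3 : σ ⁻¹' A ∩ Iic (σ p) = σ ⁻¹' (A ∩ Ici p) := by
    ext w
    simp only [mem_inter_iff, mem_preimage, mem_Iic, mem_Ici]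
    rw [unitInterval.le_symm_comm]
  rw [h3]
  exact unitInterval.measurePreserving_symm.measure_preimage
    (hA.inter measurableSet_Ici).nullMeasurableSet

theorem lawAux_key (p : I) {A : Set I} (hA : MeasurableSet A) :
    ENNReal.ofReal p * volume ((fun w : I => p * w) ⁻¹' A) +
      ENNReal.ofReal (1 - p) * volume ((fun w : I => σ (σ p * w)) ⁻¹' A) = volume A := by
  rw [lawAux_key1_apply p hA, lawAux_key2_apply p hA]
  have h1 : volume (A ∩ Ici p) = volume (A ∩ Ioi p) := by
    refine measure_congr ?_
    exact (Filter.EventuallyEq.refl _ A).inter Ioi_ae_eq_Ici.symm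
  rw [h1, ← compl_Iic]
  exact measure_inter_add_sdiff A measurableSet_Iic

/-! ### the thresholds as a function of the configuration and of auxiliary uniforms -/

/-- mass of a set of thresholds, conditionally on the element being present -/
noncomputable def massIn (A : Set I) (p : I) : ℝ≥0∞ := volume ((fun w : I => p * w) ⁻¹' A)

/-- mass of a set of thresholds, conditionally on the element being absent -/
noncomputable def massOut (A : Set I) (p : I) : ℝ≥0∞ :=
  volume ((fun w : I => σ (σ p * w)) ⁻¹' A)

theorem measurable_massIn {A : Set I} (hA : MeasurableSet A) : Measurable (massIn A) := by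
  have hm : Measurable (fun x : I × I => x.1 * x.2) := measurable_fst.mul measurable_snd
  exact measurable_measure_prodMk_left (ν := (volume : Measure I)) (hm hA)

theorem measurable_massOut {A : Set I} (hA : MeasurableSet A) : Measurable (massOut A) := by
  have hm : Measurable (fun x : I × I => σ (σ x.1 * x.2)) :=
    unitInterval.measurable_symm.comp
      ((unitInterval.measurable_symm.comp measurable_fst).mul measurable_snd)
  exact measurable_measure_prodMk_left (ν := (volume : Measure I)) (hm hA)

theorem mass_key {A : Set I} (hA : MeasurableSet A) (p : I) :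
    ENNReal.ofReal p * massIn A p + ENNReal.ofReal (1 - p) * massOut A p = volume A :=
  lawAux_key p hA

open Classical in
/-- the threshold of `e`: uniform in `[0,p]` if `e` is present, uniform in `[p,1]` if not -/
noncomputable def thr {E : Type u} (p : E → Set E → I) (z : Set E × (E → I)) (e : E) : I :=
  if e ∈ z.1 then p e z.1 * z.2 e else σ (σ (p e z.1) * z.2 e)

theorem measurable_thr {E : Type u} (p : E → Set E → I) (hp : ∀ e, Measurable (p e)) :
    Measurable (thr p) := by
  classical
  refine measurable_pi_lambda _ fun e => ?_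
  unfold thr
  have h1 : Measurable fun z : Set E × (E → I) => p e z.1 := (hp e).comp measurable_fst
  have h2 : Measurable fun z : Set E × (E → I) => z.2 e :=
    (measurable_pi_apply e).comp measurable_snd
  refine Measurable.ite ?_ (h1.mul h2)
    (unitInterval.measurable_symm.comp ((unitInterval.measurable_symm.comp h1).mul h2))
  exact measurable_fst (measurableSet_setOfPred.2 (measurable_set_mem e))

section conditioning

variable {Ω : Type u} {m m0 : MeasurableSpace Ω} {μ : Measure Ω} [IsProbabilityMeasure μ]

omit [IsProbabilityMeasure μ] in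
/-- from sets to functions: conditional probability of presence -/
theorem lint_in (hm : m ≤ m0) {D : Set Ω} {q : Ω → I} (hq : Measurable[m] q)
    (hcond : ∀ s, MeasurableSet[m] s → ∫⁻ X in s, ENNReal.ofReal (q X) ∂μ = μ (s ∩ D))
    {H : Ω → ℝ≥0∞} (hH : Measurable[m] H) :
    ∫⁻ X in D, H X ∂μ = ∫⁻ X, ENNReal.ofReal (q X) * H X ∂μ := by
  have hq0 : Measurable q := hq.mono hm le_rfl
  have hH0 : Measurable H := hH.mono hm le_rfl
  have hq' : Measurable fun X => ENNReal.ofReal (q X : ℝ) :=
    (measurable_subtype_coe.comp hq0).ennreal_ofReal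
  have h1 : (μ.restrict D).trim hm =
      (μ.withDensity fun X => ENNReal.ofReal (q X : ℝ)).trim hm := by
    refine @Measure.ext _ m _ _ fun s hs => ?_
    rw [trim_measurableSet_eq hm hs, trim_measurableSet_eq hm hs,
      withDensity_apply _ (hm s hs), hcond s hs, Measure.restrict_apply (hm s hs)]
  calc ∫⁻ X in D, H X ∂μ
      = ∫⁻ X, H X ∂((μ.restrict D).trim hm) := (lintegral_trim hm hH).symm
    _ = ∫⁻ X, H X ∂((μ.withDensity fun X => ENNReal.ofReal (q X : ℝ)).trim hm) := by rw [h1]
    _ = ∫⁻ X, H X ∂(μ.withDensity fun X => ENNReal.ofReal (q X : ℝ)) := lintegral_trim hm hH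
    _ = ∫⁻ X, ENNReal.ofReal (q X) * H X ∂μ := by
        rw [lintegral_withDensity_eq_lintegral_mul _ hq' hH0]
        rfl

/-- conditional probability of absence -/
theorem lint_out (hm : m ≤ m0) {D : Set Ω} (hD : MeasurableSet[m0] D) {q : Ω → I}
    (hq : Measurable[m] q)
    (hcond : ∀ s, MeasurableSet[m] s → ∫⁻ X in s, ENNReal.ofReal (q X) ∂μ = μ (s ∩ D))
    {H : Ω → ℝ≥0∞} (hH : Measurable[m] H) :
    ∫⁻ X in Dᶜ, H X ∂μ = ∫⁻ X, ENNReal.ofReal (1 - q X) * H X ∂μ := by
  have hq0 : Measurable q := hq.mono hm le_rfl
  have hH0 : Measurable H := hH.mono hm le_rfl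
  have hq' : Measurable fun X => ENNReal.ofReal (q X : ℝ) :=
    (measurable_subtype_coe.comp hq0).ennreal_ofReal
  have hq1 : Measurable fun X => ENNReal.ofReal (1 - (q X : ℝ)) :=
    (measurable_const.sub (measurable_subtype_coe.comp hq0)).ennreal_ofReal
  have h1 : (μ.restrict Dᶜ).trim hm =
      (μ.withDensity fun X => ENNReal.ofReal (1 - (q X : ℝ))).trim hm := by
    refine @Measure.ext _ m _ _ fun s hs => ?_
    rw [trim_measurableSet_eq hm hs, trim_measurableSet_eq hm hs,
      withDensity_apply _ (hm s hs), Measure.restrict_apply (hm s hs)]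
    have h2 : ∫⁻ X in s, ENNReal.ofReal (q X) ∂μ + ∫⁻ X in s, ENNReal.ofReal (1 - q X) ∂μ =
        μ s := by
      rw [← lintegral_add_left hq']
      have : ∀ X, ENNReal.ofReal (q X) + ENNReal.ofReal (1 - q X) = 1 := fun X => by
        rw [← ENNReal.ofReal_add (q X).2.1 (by linarith [(q X).2.2])]
        simp
      simp [this]
    have h3 : μ (s ∩ D) + μ (s ∩ Dᶜ) = μ s := measure_inter_add_sdiff s hD
    rw [hcond s hs, ← h3] at h2
    exact ((ENNReal.add_right_inj (measure_ne_top μ _)).1 h2).symm
  calc ∫⁻ X in Dᶜ, H X ∂μ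
      = ∫⁻ X, H X ∂((μ.restrict Dᶜ).trim hm) := (lintegral_trim hm hH).symm
    _ = ∫⁻ X, H X ∂((μ.withDensity fun X => ENNReal.ofReal (1 - (q X : ℝ))).trim hm) := by rw [h1]
    _ = ∫⁻ X, H X ∂(μ.withDensity fun X => ENNReal.ofReal (1 - (q X : ℝ))) :=
        lintegral_trim hm hH
    _ = ∫⁻ X, ENNReal.ofReal (1 - q X) * H X ∂μ := by
        rw [lintegral_withDensity_eq_lintegral_mul _ hq1 hH0]
        rfl

open Classical in
/-- the conditional mass of `{V ∈ A}` given the configuration -/
noncomputable def cmass (q : Ω → I) (A : Set I) (D : Set Ω) (X : Ω) : ℝ≥0∞ :=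
  if X ∈ D then massIn A (q X) else massOut A (q X)

/-- one step of the induction -/
theorem lint_step (hm : m ≤ m0) {D : Set Ω} (hD : MeasurableSet[m0] D) {q : Ω → I}
    (hq : Measurable[m] q)
    (hcond : ∀ s, MeasurableSet[m] s → ∫⁻ X in s, ENNReal.ofReal (q X) ∂μ = μ (s ∩ D))
    {A : Set I} (hA : MeasurableSet A) {H : Ω → ℝ≥0∞} (hH : Measurable[m] H) :
    ∫⁻ X, cmass q A D X * H X ∂μ = volume A * ∫⁻ X, H X ∂μ := by
  classical
  have hq0 : Measurable q := hq.mono hm le_rfl
  have hH0 : Measurable H := hH.mono hm le_rfl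
  have hin : Measurable[m] fun X => massIn A (q X) := (measurable_massIn hA).comp hq
  have hout : Measurable[m] fun X => massOut A (q X) := (measurable_massOut hA).comp hq
  have hin0 : Measurable fun X => massIn A (q X) := (measurable_massIn hA).comp hq0
  have hq' : Measurable fun X => ENNReal.ofReal (q X : ℝ) :=
    (measurable_subtype_coe.comp hq0).ennreal_ofReal
  rw [← lintegral_add_compl (fun X => cmass q A D X * H X) hD]
  have e1 : ∫⁻ X in D, cmass q A D X * H X ∂μ = ∫⁻ X in D, massIn A (q X) * H X ∂μ := by
    refine setLIntegral_congr_fun hD fun X hX => ?_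
    simp [cmass, hX]
  have e2 : ∫⁻ X in Dᶜ, cmass q A D X * H X ∂μ = ∫⁻ X in Dᶜ, massOut A (q X) * H X ∂μ := by
    refine setLIntegral_congr_fun hD.compl fun X hX => ?_
    have hX' : X ∉ D := hX
    simp [cmass, hX']
  have h1 := lint_in (μ := μ) hm hq hcond (hin.mul hH)
  have h2 := lint_out (μ := μ) hm hD hq hcond (hout.mul hH)
  simp only [Pi.mul_apply] at h1 h2
  have h3 : Measurable fun X => ENNReal.ofReal (q X : ℝ) * (massIn A (q X) * H X) :=
    hq'.mul (hin0.mul hH0)
  rw [e1, e2, h1, h2, ← lintegral_add_left h3, ← lintegral_const_mul _ hH0]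
  congr 1
  ext X
  rw [← mass_key hA (q X)]
  ring

end conditioning

section coupling

variable {E : Type u} (μ : Measure (Set E)) [IsProbabilityMeasure μ]

theorem map_thr {L : Type*} [LinearOrder L] (r : E → L) (hr : Function.Injective r)
    (m : E → MeasurableSpace (Set E)) (hm : ∀ e, m e ≤ Set.instMeasurableSpace)
    (hmono : ∀ e' e, r e' < r e → m e' ≤ m e)
    (hmem : ∀ e' e, r e' < r e → MeasurableSet[m e] {X : Set E | e' ∈ X})
    (p : E → Set E → I) (hp : ∀ e, Measurable[m e] (p e))
    (hcond : ∀ e, ∀ s, MeasurableSet[m e] s →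
      ∫⁻ X in s, ENNReal.ofReal (p e X) ∂μ = μ (s ∩ {X | e ∈ X})) :
    (μ.prod (Measure.infinitePi fun _ : E => (volume : Measure I))).map (thr p) =
      Measure.infinitePi fun _ : E => (volume : Measure I) := by
  classical
  have hmeas := measurable_thr p fun e => (hp e).mono (hm e) le_rfl
  refine Measure.eq_infinitePi _ fun s A hA => ?_
  have hpi : MeasurableSet (Set.pi (s : Set E) A) :=
    MeasurableSet.pi s.countable_toSet fun i _ => hA i
  rw [Measure.map_apply hmeas hpi, Measure.prod_apply (hmeas hpi)]
  have h1 : ∀ X : Set E, (Measure.infinitePi fun _ : E => (volume : Measure I))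
      (Prod.mk X ⁻¹' (thr p ⁻¹' (Set.pi (s : Set E) A))) = ∏ e ∈ s, cmass (p e) (A e) {Y : Set E | e ∈ Y} X := by
    intro X
    have h2 : Prod.mk X ⁻¹' (thr p ⁻¹' (Set.pi (s : Set E) A)) =
        Set.pi (s : Set E) fun e =>
          {w : I | (if e ∈ X then p e X * w else σ (σ (p e X) * w)) ∈ A e} := by
      ext U
      simp only [mem_preimage, Set.mem_pi, mem_ofPred_eq, thr]
    rw [h2, Measure.infinitePi_pi]
    · refine Finset.prod_congr rfl fun e _ => ?_
      by_cases he : e ∈ X
      · simp only [cmass, mem_ofPred_eq, he, if_true]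
        rfl
      · simp only [cmass, mem_ofPred_eq, he, if_false]
        rfl
    · intro e _
      by_cases he : e ∈ X
      · simp only [he, if_true]
        exact (measurable_const.mul measurable_id) (hA e)
      · simp only [he, if_false]
        exact (unitInterval.measurable_symm.comp (measurable_const.mul measurable_id)) (hA e)
  simp_rw [h1]
  clear hpi h1
  induction s using Finset.induction_on_max_value r with
  | empty => simp
  | insert a s has hle ih =>
    simp_rw [Finset.prod_insert has]
    rw [lint_step (μ := μ) (hm a) (measurableSet_setOfPred.2 (measurable_set_mem a)) (hp a)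
      (hcond a) (hA a), ih]
    refine Finset.measurable_fun_prod _ fun e he => ?_
    have hlt : r e < r a := lt_of_le_of_ne (hle e he) fun h => has (hr h ▸ he)
    have hpe : Measurable[m a] (p e) := (hp e).mono (hmono e a hlt) le_rfl
    unfold cmass
    exact Measurable.ite (hmem e a hlt) ((measurable_massIn (hA e)).comp hpe)
      ((measurable_massOut (hA e)).comp hpe)

end coupling

end Vale.Agent.P143
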