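import Vale.Agent.P143.Stat
import Vale.Agent.P143.LawLeAux

set_option autoImplicit false

namespace Vale.Agent.P143

open MeasureTheory Set Filter Topology unitInterval
open scoped ENNReal

universe u

/-! ### the σ-algebra of the trace on a set -/

/-- the σ-algebra generated by the trace of the configuration on `S` -/
@[reducible] def sigOn {E : Type u} (S : Set E) : MeasurableSpace (Set E) :=
  MeasurableSpace.comap (fun X : Set E => X ∩ S) Set.instMeasurableSpace

theorem measurable_interOn {E : Type u} (S : Set E) : Measurable fun X : Set E => X ∩ S := by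
  refine measurable_set_iff.2 fun a => ?_
  by_cases ha : a ∈ S
  · have : (fun X : Set E => a ∈ X ∩ S) = fun X => a ∈ X := by
      ext X; simp [ha]
    rw [this]
    exact measurable_set_mem a
  · have : (fun X : Set E => a ∈ X ∩ S) = fun _ => False := by
      ext X; simp [ha]
    rw [this]
    exact measurable_const

theorem sigOn_le {E : Type u} (S : Set E) : sigOn S ≤ Set.instMeasurableSpace :=
  (measurable_interOn S).comap_le

theorem sigOn_mono {E : Type u} {S S' : Set E} (h : S ⊆ S') : sigOn S ≤ sigOn S' := by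
  rintro _ ⟨B, hB, rfl⟩
  refine ⟨(fun X : Set E => X ∩ S) ⁻¹' B, measurable_interOn S hB, ?_⟩
  ext X
  simp only [mem_preimage]
  rw [inter_assoc, inter_eq_right.2 h]

theorem sigOn_mem {E : Type u} {S : Set E} {e : E} (he : e ∈ S) :
    MeasurableSet[sigOn S] {X : Set E | e ∈ X} := by
  refine ⟨{X | e ∈ X}, measurableSet_setOfPred.2 (measurable_set_mem e), ?_⟩
  ext X
  simp [he]

theorem sigOn_iUnion {E : Type u} (S : ℕ → Set E) :
    sigOn (⋃ n, S n) = ⨆ n, sigOn (S n) := by
  refine le_antisymm ?_ (iSup_le fun n => sigOn_mono (subset_iUnion S n))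
  have h : @Measurable _ _ (⨆ n, sigOn (S n)) _ fun X : Set E => X ∩ ⋃ n, S n := by
    refine (@measurable_set_iff E (Set E) (⨆ n, sigOn (S n)) _).2 fun a => ?_
    by_cases ha : a ∈ ⋃ n, S n
    · obtain ⟨n, hn⟩ := mem_iUnion.1 ha
      have : (fun X : Set E => a ∈ X ∩ ⋃ n, S n) = fun X => a ∈ X := by
        ext X; simp only [mem_inter_iff, ha, and_true]
      rw [this]
      exact (@measurableSet_setOfPred (Set E) (⨆ n, sigOn (S n)) _).1
        (le_iSup (fun n => sigOn (S n)) n _ (sigOn_mem hn))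
    · have : (fun X : Set E => a ∈ X ∩ ⋃ n, S n) = fun _ => False := by
        ext X; simp only [mem_inter_iff, ha, and_false]
      rw [this]
      exact @measurable_const _ _ _ (⨆ n, sigOn (S n)) _
  exact h.comap_le

/-- the event that the trace on `S` is `K` -/
def atomOn {E : Type u} (S K : Set E) : Set (Set E) := {X | X ∩ S = K}

theorem atomOn_measurable {E : Type u} {S K : Set E} (hS : S.Finite) (hK : K ⊆ S) :
    MeasurableSet[sigOn S] (atomOn S K) := by
  have h : atomOn S K = ⋂ e ∈ S, {X : Set E | e ∈ X ↔ e ∈ K} := by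
    ext X
    simp only [atomOn, mem_ofPred_eq, mem_iInter]
    constructor
    · intro h e he
      rw [← h]
      simp [he]
    · intro h
      ext e
      constructor
      · rintro ⟨h1, h2⟩
        exact (h e h2).1 h1
      · intro h1
        exact ⟨(h e (hK h1)).2 h1, hK h1⟩
  rw [h]
  refine @MeasurableSet.biInter _ _ (sigOn S) _ _ hS.countable fun e he => ?_
  by_cases heK : e ∈ K
  · simpa [heK] using sigOn_mem he
  · have := (sigOn_mem (E := E) he).compl
    simpa [heK, compl_ofPred] using this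

theorem atomOn_eq {E : Type u} {S K : Set E} (hK : K ⊆ S) :
    atomOn S K = {X | K ⊆ X ∧ Disjoint X (S \ K)} := by
  ext X
  simp only [atomOn, mem_ofPred_eq]
  constructor
  · rintro rfl
    refine ⟨inter_subset_left, ?_⟩
    rw [Set.disjoint_left]
    rintro e he ⟨h1, h2⟩
    exact h2 ⟨he, h1⟩
  · rintro ⟨h1, h2⟩
    ext e
    constructor
    · rintro ⟨h3, h4⟩
      by_contra h5
      exact Set.disjoint_left.1 h2 h3 ⟨h4, h5⟩
    · intro h3
      exact ⟨h1 h3, hK h3⟩

theorem sigOn_decomp {E : Type u} {S : Set E} {s : Set (Set E)} (hs : MeasurableSet[sigOn S] s)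
    (X : Set E) : X ∈ s ↔ X ∩ S ∈ s := by
  obtain ⟨B, -, rfl⟩ := hs
  simp [inter_assoc]

/-- the finite level conditional probabilities -/
theorem condExp_finite {E : Type u} (μ : Measure (Set E)) [IsProbabilityMeasure μ]
    (lo : Set E → Set E → E → ℝ) {S : Set E} (hS : S.Finite) {e : E} (he : e ∉ S)
    (fin_prob : ∀ A B : Set E, ∀ e, A.Finite → B.Finite → e ∉ A → e ∉ B → Disjoint A B →
      μ.real {X | A ⊆ X ∧ Disjoint X B ∧ e ∈ X} = lo A B e * μ.real {X | A ⊆ X ∧ Disjoint X B}) :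
    (fun X => lo (X ∩ S) (S \ X) e) =ᵐ[μ]
      μ[{X : Set E | e ∈ X}.indicator (fun _ => (1:ℝ)) | sigOn S] := by
  classical
  have hD : MeasurableSet {X : Set E | e ∈ X} := measurableSet_setOfPred.2 (measurable_set_mem e)
  have hfin : {K : Set E | K ⊆ S}.Finite := hS.finite_subsets
  set q : Set E → ℝ := fun X => lo (X ∩ S) (S \ X) e with hq
  have hqfun : ∀ X, q X = q (X ∩ S) := by
    intro X
    simp only [hq]
    congr 1
    · rw [inter_assoc, inter_self]
    · ext a; simp only [Set.mem_sdiff, mem_inter_iff]; tauto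
  have hqmeas : Measurable[sigOn S] q := by
    intro B _
    have : q ⁻¹' B = ⋃ K ∈ {K : Set E | K ⊆ S ∧ q K ∈ B}, atomOn S K := by
      ext X
      simp only [mem_preimage, mem_iUnion, mem_ofPred_eq, exists_prop, atomOn]
      constructor
      · intro h
        exact ⟨X ∩ S, ⟨inter_subset_right, by rwa [← hqfun]⟩, rfl⟩
      · rintro ⟨K, ⟨h1, h2⟩, h3⟩
        rw [hqfun, h3]; exact h2
    rw [this]
    refine @MeasurableSet.biUnion _ _ (sigOn S) _ _ ((hfin.subset fun K hK => hK.1).countable) ?_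
    intro K hK
    exact atomOn_measurable hS hK.1
  have hqmeas0 : Measurable q := hqmeas.mono (sigOn_le S) le_rfl
  have hqbdd : ∃ C, ∀ X, ‖q X‖ ≤ C := by
    obtain ⟨C, hC⟩ := (hfin.image fun K => ‖q K‖).bddAbove
    refine ⟨C, fun X => ?_⟩
    rw [hqfun]
    exact hC ⟨X ∩ S, inter_subset_right, rfl⟩
  have hqint : Integrable q μ := by
    obtain ⟨C, hC⟩ := hqbdd
    exact Integrable.of_bound hqmeas0.aestronglyMeasurable C (Eventually.of_forall hC)
  have hfint : Integrable ({X : Set E | e ∈ X}.indicator fun _ => (1:ℝ)) μ :=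
    (integrable_const (1:ℝ)).indicator hD
  refine ae_eq_condExp_of_forall_setIntegral_eq (sigOn_le S) hfint
    (fun s _ _ => hqint.integrableOn) ?_ hqmeas.stronglyMeasurable.aestronglyMeasurable
  intro s hs _
  have hdec : s = ⋃ K ∈ hfin.toFinset.filter (· ∈ s), atomOn S K := by
    ext X
    simp only [Finset.mem_filter, Finite.mem_toFinset, mem_ofPred_eq, mem_iUnion, exists_prop,
      atomOn]
    rw [sigOn_decomp hs]
    constructor
    · intro h; exact ⟨X ∩ S, ⟨inter_subset_right, h⟩, rfl⟩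
    · rintro ⟨K, ⟨h1, h2⟩, h3⟩; rw [h3]; exact h2
  have hmeasA : ∀ K ∈ hfin.toFinset.filter (· ∈ s), MeasurableSet (atomOn S K) := by
    intro K hK
    simp only [Finset.mem_filter, Finite.mem_toFinset, mem_ofPred_eq] at hK
    exact sigOn_le S _ (atomOn_measurable hS hK.1)
  have hdisj : (↑(hfin.toFinset.filter (· ∈ s)) : Set (Set E)).Pairwise
      (Function.onFun Disjoint (atomOn S)) := by
    intro K _ K' _ hne
    rw [Function.onFun, Set.disjoint_left]
    intro X h1 h2
    exact hne (h1.symm.trans h2)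
  rw [hdec, integral_biUnion_finset _ hmeasA hdisj fun K _ => hqint.integrableOn,
    integral_biUnion_finset _ hmeasA hdisj fun K _ => hfint.integrableOn]
  refine Finset.sum_congr rfl fun K hK => ?_
  have hm := hmeasA K hK
  simp only [Finset.mem_filter, Finite.mem_toFinset, mem_ofPred_eq] at hK
  have h1 : ∫ X in atomOn S K, q X ∂μ = lo K (S \ K) e * μ.real (atomOn S K) := by
    have : ∫ X in atomOn S K, q X ∂μ = ∫ X in atomOn S K, lo K (S \ K) e ∂μ := by
      refine setIntegral_congr_fun hm fun X hX => ?_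
      have hX' : X ∩ S = K := hX
      rw [hqfun, hX']
      simp only [hq]
      rw [inter_eq_left.2 hK.1]
    rw [this, setIntegral_const, smul_eq_mul, mul_comm]
  have h2 : ∫ X in atomOn S K, {X : Set E | e ∈ X}.indicator (fun _ => (1:ℝ)) X ∂μ =
      μ.real (atomOn S K ∩ {X | e ∈ X}) := by
    rw [setIntegral_indicator hD, setIntegral_const, smul_eq_mul, mul_one]
  rw [h1, h2, atomOn_eq hK.1]
  have h3 := fin_prob K (S \ K) e (hS.subset hK.1) (hS.subset sdiff_subset)
    (fun h => he (hK.1 h)) (fun h => he h.1) disjoint_sdiff_right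
  rw [← h3]
  congr 1
  ext X
  simp only [mem_inter_iff, mem_ofPred_eq, and_assoc]

/-! ### the conditional probabilities -/

/-- a version, with values in `[0,1]`, of the conditional probability of `e ∈ X` given the trace
of `X` on `S` -/
noncomputable def cp {E : Type u} (μ : Measure (Set E)) (S : Set E) (e : E) (X : Set E) : I :=
  projIcc 0 1 zero_le_one ((μ[{X : Set E | e ∈ X}.indicator (fun _ => (1:ℝ)) | sigOn S]) X)

theorem cp_measurable {E : Type u} (μ : Measure (Set E)) (S : Set E) (e : E) :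
    Measurable[sigOn S] (cp μ S e) :=
  (continuous_projIcc (a := (0:ℝ)) (b := 1) (h := zero_le_one)).measurable.comp
    stronglyMeasurable_condExp.measurable

theorem cp_ae {E : Type u} (μ : Measure (Set E)) [IsProbabilityMeasure μ] (S : Set E) (e : E) :
    (fun X => (cp μ S e X : ℝ)) =ᵐ[μ]
      μ[{X : Set E | e ∈ X}.indicator (fun _ => (1:ℝ)) | sigOn S] := by
  have hD : MeasurableSet {X : Set E | e ∈ X} := measurableSet_setOfPred.2 (measurable_set_mem e)
  have hfint : Integrable ({X : Set E | e ∈ X}.indicator fun _ => (1:ℝ)) μ :=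
    (integrable_const (1:ℝ)).indicator hD
  have h0 : 0 ≤ᵐ[μ] μ[{X : Set E | e ∈ X}.indicator (fun _ => (1:ℝ)) | sigOn S] := by
    refine condExp_nonneg (Eventually.of_forall fun X => ?_)
    exact indicator_nonneg (fun _ _ => zero_le_one) X
  have h1 : μ[{X : Set E | e ∈ X}.indicator (fun _ => (1:ℝ)) | sigOn S] ≤ᵐ[μ] fun _ => (1:ℝ) := by
    have h2 := condExp_mono (μ := μ) (m := sigOn S) hfint (integrable_const (1:ℝ))
      (Eventually.of_forall fun X => by
        simp only [indicator]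
        split_ifs <;> norm_num)
    rwa [condExp_const (sigOn_le S)] at h2
  filter_upwards [h0, h1] with X h2 h3
  simp only [cp, coe_projIcc]
  have h2' : (0:ℝ) ≤ (μ[{X : Set E | e ∈ X}.indicator (fun _ => (1:ℝ)) | sigOn S]) X := h2
  rw [min_eq_right h3, max_eq_right h2']

theorem cp_cond {E : Type u} (μ : Measure (Set E)) [IsProbabilityMeasure μ] (S : Set E) (e : E)
    (s : Set (Set E)) (hs : MeasurableSet[sigOn S] s) :
    ∫⁻ X in s, ENNReal.ofReal (cp μ S e X) ∂μ = μ (s ∩ {X | e ∈ X}) := by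
  have hD : MeasurableSet {X : Set E | e ∈ X} := measurableSet_setOfPred.2 (measurable_set_mem e)
  have hfint : Integrable ({X : Set E | e ∈ X}.indicator fun _ => (1:ℝ)) μ :=
    (integrable_const (1:ℝ)).indicator hD
  have hm : Measurable fun X => (cp μ S e X : ℝ) :=
    measurable_subtype_coe.comp ((cp_measurable μ S e).mono (sigOn_le S) le_rfl)
  have hint : Integrable (fun X => (cp μ S e X : ℝ)) μ :=
    Integrable.of_bound hm.aestronglyMeasurable 1 (Eventually.of_forall fun X => by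
      rw [Real.norm_eq_abs, abs_of_nonneg (cp μ S e X).2.1]
      exact (cp μ S e X).2.2)
  rw [← ofReal_integral_eq_lintegral_ofReal hint.integrableOn
    (Eventually.of_forall fun X => (cp μ S e X).2.1)]
  have h1 : ∫ X in s, (cp μ S e X : ℝ) ∂μ =
      ∫ X in s, (μ[{X : Set E | e ∈ X}.indicator (fun _ => (1:ℝ)) | sigOn S]) X ∂μ :=
    integral_congr_ae (ae_restrict_of_ae (cp_ae μ S e))
  rw [h1, setIntegral_condExp (sigOn_le S) hfint hs, setIntegral_indicator hD, setIntegral_const,
    smul_eq_mul, mul_one, ofReal_measureReal]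

theorem cp_tendsto {E : Type u} (μ : Measure (Set E)) [IsProbabilityMeasure μ]
    (lo : Set E → Set E → E → ℝ) (S : Set E) {e : E} (he : e ∉ S)
    (fin_prob : ∀ A B : Set E, ∀ e, A.Finite → B.Finite → e ∉ A → e ∉ B → Disjoint A B →
      μ.real {X | A ⊆ X ∧ Disjoint X B ∧ e ∈ X} = lo A B e * μ.real {X | A ⊆ X ∧ Disjoint X B})
    (F : ℕ → Set E) (hF : Monotone F) (hfin : ∀ n, (F n).Finite) (hFu : (⋃ n, F n) = univ) :
    ∀ᵐ X ∂μ, Tendsto (fun n => lo (X ∩ (S ∩ F n)) ((S ∩ F n) \ X) e) atTop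
      (𝓝 (cp μ S e X)) := by
  let ℱ : Filtration ℕ (Set.instMeasurableSpace : MeasurableSpace (Set E)) :=
    { seq := fun n => sigOn (S ∩ F n)
      mono' := fun i j hij => sigOn_mono (inter_subset_inter_right S (hF hij))
      le' := fun n => sigOn_le _ }
  have h1 := tendsto_ae_condExp (μ := μ) (ℱ := ℱ) ({X : Set E | e ∈ X}.indicator fun _ => (1:ℝ))
  have h2 : (⨆ n, ℱ n) = sigOn S := by
    have h3 : S = ⋃ n, S ∩ F n := by rw [← inter_iUnion, hFu, inter_univ]
    conv_rhs => rw [h3, sigOn_iUnion]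
  rw [h2] at h1
  have h4 : ∀ᵐ X ∂μ, ∀ n, lo (X ∩ (S ∩ F n)) ((S ∩ F n) \ X) e =
      (μ[{X : Set E | e ∈ X}.indicator (fun _ => (1:ℝ)) | ℱ n]) X := by
    rw [ae_all_iff]
    intro n
    exact condExp_finite μ lo ((hfin n).subset inter_subset_right) (fun h => he h.1) fin_prob
  filter_upwards [h1, h4, cp_ae μ S e] with X h5 h6 h7
  simp only [h6, h7]
  exact h5

/-! ### the deterministic part -/

theorem stat_lt {E : Type u} (lo hi : Set E → Set E → E → ℝ) (b : E → ℕ) (θ : E → ℝ) (k : ℕ) :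
    (stat lo hi b θ k).1 ⊆ {f | b f < k} ∧ (stat lo hi b θ k).2 ⊆ {f | b f < k} := by
  induction k with
  | zero => simp [stat_zero]
  | succ k ih =>
    refine ⟨?_, ?_⟩
    · rintro f (h | h)
      · exact lt_trans (ih.1 h) (Nat.lt_succ_self k)
      · exact Nat.lt_succ_of_le h.1.le
    · rintro f (h | h)
      · exact lt_trans (ih.2 h) (Nat.lt_succ_self k)
      · exact Nat.lt_succ_of_le h.1.le

/-- if the thresholds are on the correct side of the conditional probabilities, then the
statuses are correct -/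
theorem stat_correct {E : Type u} (lo hi : Set E → Set E → E → ℝ) (b : E → ℕ)
    (lo_mono : ∀ A A' B B' : Set E, ∀ e, A ⊆ A' → B' ⊆ B → e ∉ A' → e ∉ B →
      lo A' B' e ≤ lo A B e)
    (hi_mono : ∀ A A' B B' : Set E, ∀ e, A ⊆ A' → B' ⊆ B → e ∉ A' → e ∉ B →
      hi A' B' e ≤ hi A B e)
    (fin_eq : ∀ A B : Set E, ∀ e, A.Finite → B.Finite → e ∉ A → e ∉ B → Disjoint A B →
      lo A B e = hi A B e)
    (lo_lim : ∀ A B : Set E, ∀ e, e ∉ A → e ∉ B → Disjoint A B →
      ∀ F : ℕ → Set E, Monotone F → (⋃ n, F n) = univ → ∀ ε > 0, ∀ᶠ n in atTop,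
        lo A B e - ε ≤ lo (A ∩ F n) (B ∩ F n) e)
    (hi_lim : ∀ A B : Set E, ∀ e, e ∉ A → e ∉ B → Disjoint A B →
      ∀ F : ℕ → Set E, Monotone F → (⋃ n, F n) = univ → ∀ ε > 0, ∀ᶠ n in atTop,
        hi (A ∩ F n) (B ∩ F n) e ≤ hi A B e + ε)
    (F : ℕ → Set E) (hF : Monotone F) (hfin : ∀ n, (F n).Finite) (hFu : (⋃ n, F n) = univ)
    (T : E → Set E) (hT1 : ∀ e, e ∉ T e) (hT2 : ∀ e f, b f < b e → f ∈ T e)
    (hT3 : ∀ e, T e ⊆ {f | b f ≤ b e})
    (X : Set E) (p : E → ℝ) (θ : E → ℝ)
    (hp : ∀ e, Tendsto (fun n => lo (X ∩ (T e ∩ F n)) ((T e ∩ F n) \ X) e) atTop (𝓝 (p e)))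
    (hin : ∀ e ∈ X, θ e < p e) (hout : ∀ e ∉ X, p e ≤ θ e) (k : ℕ) :
    (stat lo hi b θ k).1 ⊆ X ∧ Disjoint (stat lo hi b θ k).2 X := by
  induction k with
  | zero => simp [stat_zero]
  | succ k ih =>
    obtain ⟨hA, hB⟩ := ih
    obtain ⟨hAk, hBk⟩ := stat_lt lo hi b θ k
    set A := (stat lo hi b θ k).1 with hAdef
    set B := (stat lo hi b θ k).2 with hBdef
    have hlo : ∀ e, b e = k → lo (({f | b f ≤ k} \ B) \ {e}) B e ≤ p e := by
      intro e he
      have heB : e ∉ B := fun h => absurd (hBk h) (by simp [he])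
      have hdisj : Disjoint (({f | b f ≤ k} \ B) \ {e}) B :=
        Set.disjoint_left.2 fun f hf => hf.1.2
      refine le_of_forall_sub_le fun ε hε => ?_
      refine ge_of_tendsto (hp e) ?_
      filter_upwards [lo_lim (({f | b f ≤ k} \ B) \ {e}) B e (fun h => h.2 rfl) heB hdisj F hF
        hFu ε hε] with n hn
      refine hn.trans (lo_mono _ _ _ _ e ?_ ?_ (fun h => h.1.2 rfl) (fun h => hT1 e h.1.1))
      · rintro f ⟨h1, h2, h3⟩
        refine ⟨⟨⟨?_, ?_⟩, ?_⟩, h3⟩
        · have := hT3 e h2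
          simpa [he] using this
        · exact fun h4 => Set.disjoint_left.1 hB h4 h1
        · rintro rfl
          exact hT1 _ h2
      · rintro f ⟨h1, h2⟩
        exact ⟨⟨hT2 e f (by rw [he]; exact hBk h1), h2⟩, fun h4 => Set.disjoint_left.1 hB h1 h4⟩
    have hhi : ∀ e, b e = k → p e ≤ hi A (({f | b f ≤ k} \ A) \ {e}) e := by
      intro e he
      have heA : e ∉ A := fun h => absurd (hAk h) (by simp [he])
      have hdisj : Disjoint A (({f | b f ≤ k} \ A) \ {e}) :=
        Set.disjoint_left.2 fun f hf h => h.1.2 hf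
      refine le_of_forall_pos_le_add fun ε hε => ?_
      refine le_of_tendsto (hp e) ?_
      filter_upwards [hi_lim A (({f | b f ≤ k} \ A) \ {e}) e heA (fun h => h.2 rfl) hdisj F hF
        hFu ε hε] with n hn
      rw [fin_eq _ _ e (((hfin n).subset inter_subset_right).subset inter_subset_right)
        (((hfin n).subset inter_subset_right).subset sdiff_subset)
        (fun h => hT1 e h.2.1) (fun h => hT1 e h.1.1)
        (Set.disjoint_left.2 fun f hf h => h.2 hf.1)]
      refine le_trans (hi_mono _ _ _ _ e ?_ ?_ (fun h => hT1 e h.2.1) (fun h => h.1.2 rfl)) hn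
      · rintro f ⟨h1, h2⟩
        exact ⟨hA h1, hT2 e f (by rw [he]; exact hAk h1), h2⟩
      · rintro f ⟨⟨h1, h2⟩, h3⟩
        refine ⟨⟨⟨?_, ?_⟩, ?_⟩, h2⟩
        · have := hT3 e h1
          simpa [he] using this
        · exact fun h4 => h3 (hA h4)
        · rintro rfl
          exact hT1 _ h1
    refine ⟨?_, ?_⟩
    · rintro e (h | ⟨h1, h2⟩)
      · exact hA h
      · by_contra h3
        exact absurd (lt_of_lt_of_le h2 (hlo e h1)) (not_lt.2 (hout e h3))
    · rw [Set.disjoint_left]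
      rintro e (h | ⟨h1, h2⟩) h3
      · exact Set.disjoint_left.1 hB h h3
      · exact absurd (hin e h3) (not_lt.2 ((hhi e h1).trans h2))

/-! ### the main theorem of this part -/

theorem law_le {E : Type u} [Countable E] (μ : Measure (Set E)) [IsProbabilityMeasure μ]
    (lo hi : Set E → Set E → E → ℝ) (b : E → ℕ)
    (lo_mono : ∀ A A' B B' : Set E, ∀ e, A ⊆ A' → B' ⊆ B → e ∉ A' → e ∉ B →
      lo A' B' e ≤ lo A B e)
    (hi_mono : ∀ A A' B B' : Set E, ∀ e, A ⊆ A' → B' ⊆ B → e ∉ A' → e ∉ B →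
      hi A' B' e ≤ hi A B e)
    (lo_le_hi : ∀ A B : Set E, ∀ e, e ∉ A → e ∉ B → Disjoint A B → lo A B e ≤ hi A B e)
    (fin_eq : ∀ A B : Set E, ∀ e, A.Finite → B.Finite → e ∉ A → e ∉ B → Disjoint A B →
      lo A B e = hi A B e)
    (fin_prob : ∀ A B : Set E, ∀ e, A.Finite → B.Finite → e ∉ A → e ∉ B → Disjoint A B →
      μ.real {X | A ⊆ X ∧ Disjoint X B ∧ e ∈ X} = lo A B e * μ.real {X | A ⊆ X ∧ Disjoint X B})
    (lo_lim : ∀ A B : Set E, ∀ e, e ∉ A → e ∉ B → Disjoint A B →
      ∀ F : ℕ → Set E, Monotone F → (⋃ n, F n) = univ → ∀ ε > 0, ∀ᶠ n in atTop,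
        lo A B e - ε ≤ lo (A ∩ F n) (B ∩ F n) e)
    (hi_lim : ∀ A B : Set E, ∀ e, e ∉ A → e ∉ B → Disjoint A B →
      ∀ F : ℕ → Set E, Monotone F → (⋃ n, F n) = univ → ∀ ε > 0, ∀ᶠ n in atTop,
        hi (A ∩ F n) (B ∩ F n) e ≤ hi A B e + ε)
    (meas₁ : ∀ k e, MeasurableSet {θ : E → unitInterval |
      e ∈ (stat lo hi b (fun f => (θ f : ℝ)) k).1})
    (meas₂ : ∀ k e, MeasurableSet {θ : E → unitInterval |
      e ∈ (stat lo hi b (fun f => (θ f : ℝ)) k).2})
    (F : Set E) (hF : F.Finite) (x : Set E) (k : ℕ) :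
    (Measure.infinitePi fun _ : E => (volume : Measure unitInterval))
        {θ | ∀ e ∈ F, (e ∈ x → e ∈ (stat lo hi b (fun f => (θ f : ℝ)) k).1) ∧
          (e ∉ x → e ∈ (stat lo hi b (fun f => (θ f : ℝ)) k).2)}
      ≤ μ {X | ∀ e ∈ F, (e ∈ X ↔ e ∈ x)} := by
  classical
  obtain ⟨idx, hidx⟩ := exists_injective_nat E
  let r : E → ℕ ×ₗ ℕ := fun e => toLex (b e, idx e)
  have hr : Function.Injective r := fun e f h => hidx (congrArg (fun z => (ofLex z).2) h)
  let T : E → Set E := fun e => {f | r f < r e}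
  have hT1 : ∀ e, e ∉ T e := fun e => lt_irrefl (r e)
  have hT2 : ∀ e f, b f < b e → f ∈ T e := fun e f h => Prod.Lex.toLex_lt_toLex.2 (Or.inl h)
  have hT3 : ∀ e, T e ⊆ {f | b f ≤ b e} := by
    intro e f hf
    rcases Prod.Lex.toLex_lt_toLex.1 hf with h | h
    · exact h.le
    · exact h.1.le
  have hT4 : ∀ e' e, r e' < r e → T e' ⊆ T e := fun e' e h f hf => lt_trans hf h
  let Fn : ℕ → Set E := fun n => {e | idx e < n}
  have hFm : Monotone Fn := fun i j hij e he => lt_of_lt_of_le he hij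
  have hFfin : ∀ n, (Fn n).Finite := fun n => (Set.finite_lt_nat n).preimage hidx.injOn
  have hFu : (⋃ n, Fn n) = univ := by
    refine eq_univ_of_forall fun e => mem_iUnion.2 ⟨idx e + 1, Nat.lt_succ_self _⟩
  let p : E → Set E → I := fun e => cp μ (T e) e
  let ν : Measure (E → I) := Measure.infinitePi fun _ : E => (volume : Measure I)
  have hp0 : ∀ e, Measurable (p e) := fun e => (cp_measurable μ (T e) e).mono (sigOn_le _) le_rfl
  have hmap : (μ.prod ν).map (thr p) = ν :=
    map_thr μ r hr (fun e => sigOn (T e)) (fun e => sigOn_le _)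
      (fun e' e h => sigOn_mono (hT4 e' e h)) (fun e' e h => sigOn_mem h) p
      (fun e => cp_measurable μ (T e) e) (fun e => cp_cond μ (T e) e)
  -- almost sure facts
  have h1 : ∀ᵐ X ∂μ, ∀ e, Tendsto (fun n => lo (X ∩ (T e ∩ Fn n)) ((T e ∩ Fn n) \ X) e) atTop
      (𝓝 (p e X)) := by
    rw [ae_all_iff]
    exact fun e => cp_tendsto μ lo (T e) (hT1 e) fin_prob Fn hFm hFfin hFu
  have h2 : ∀ᵐ X ∂μ, ∀ e, e ∈ X → 0 < (p e X : ℝ) := by
    rw [ae_all_iff]
    intro e
    have hs : MeasurableSet[sigOn (T e)] {X : Set E | p e X = 0} :=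
      cp_measurable μ (T e) e (measurableSet_singleton (0 : I))
    have h3 := cp_cond μ (T e) e _ hs
    have h4 : ∫⁻ X in {X : Set E | p e X = 0}, ENNReal.ofReal (cp μ (T e) e X) ∂μ = 0 := by
      rw [setLIntegral_congr_fun (g := fun _ => 0) (sigOn_le _ _ hs)]
      · simp
      · intro X hX
        have hX' : cp μ (T e) e X = 0 := hX
        simp [hX']
    rw [h4] at h3
    refine measure_mono_null ?_ h3.symm
    intro X hX
    simp only [mem_compl_iff, mem_ofPred_eq, not_forall] at hX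
    obtain ⟨h5, h6⟩ := hX
    refine ⟨?_, h5⟩
    have h7 : (p e X : ℝ) ≤ 0 := not_lt.1 h6
    exact Subtype.ext (le_antisymm h7 (p e X).2.1)
  have h3 : ∀ᵐ U ∂ν, ∀ e, (U e : ℝ) < 1 := by
    rw [ae_all_iff]
    intro e
    have h4 : ∀ᵐ w : I ∂(volume : Measure I), (w : ℝ) < 1 := by
      have h5 : {w : I | ¬ (w : ℝ) < 1} = {1} := by
        ext w
        simp only [mem_ofPred_eq, not_lt, mem_singleton_iff]
        constructor
        · exact fun h => Subtype.ext (le_antisymm w.2.2 h)
        · rintro rfl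
          exact le_rfl
      rw [ae_iff, h5, measure_singleton]
    have h6 : Measure.QuasiMeasurePreserving (fun U : E → I => U e) ν (volume : Measure I) :=
      (measurePreserving_eval_infinitePi (fun _ : E => (volume : Measure I)) e).quasiMeasurePreserving
    exact h6.ae h4
  have hall : ∀ᵐ z ∂(μ.prod ν), z.1 ∈ {X : Set E | (∀ e, Tendsto
      (fun n => lo (X ∩ (T e ∩ Fn n)) ((T e ∩ Fn n) \ X) e) atTop (𝓝 (p e X))) ∧
      ∀ e, e ∈ X → 0 < (p e X : ℝ)} ∧ z.2 ∈ {U : E → I | ∀ e, (U e : ℝ) < 1} := by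
    have h4 := (Measure.quasiMeasurePreserving_fst (μ := μ) (ν := ν)).ae (h1.and h2)
    have h5 := (Measure.quasiMeasurePreserving_snd (μ := μ) (ν := ν)).ae h3
    filter_upwards [h4, h5] with z h6 h7
    exact ⟨h6, h7⟩
  set Sθ : Set (E → I) := {θ | ∀ e ∈ F, (e ∈ x → e ∈ (stat lo hi b (fun f => (θ f : ℝ)) k).1) ∧
          (e ∉ x → e ∈ (stat lo hi b (fun f => (θ f : ℝ)) k).2)} with hSθ
  set SX : Set (Set E) := {X | ∀ e ∈ F, (e ∈ X ↔ e ∈ x)} with hSX
  have hSθm : MeasurableSet Sθ := by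
    have : Sθ = ⋂ e ∈ F, ({θ | e ∈ x → e ∈ (stat lo hi b (fun f => (θ f : ℝ)) k).1} ∩
        {θ | e ∉ x → e ∈ (stat lo hi b (fun f => (θ f : ℝ)) k).2}) := by
      ext θ
      simp only [hSθ, mem_ofPred_eq, mem_iInter, mem_inter_iff]
    rw [this]
    refine MeasurableSet.biInter hF.countable fun e _ => ?_
    by_cases hx : e ∈ x
    · simpa [hx] using meas₁ k e
    · simpa [hx] using meas₂ k e
  have hSXm : MeasurableSet SX := by
    have : SX = ⋂ e ∈ F, {X : Set E | e ∈ X ↔ e ∈ x} := by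
      ext X
      simp only [hSX, mem_ofPred_eq, mem_iInter]
    rw [this]
    refine MeasurableSet.biInter hF.countable fun e _ => ?_
    by_cases hx : e ∈ x
    · simpa [hx] using measurableSet_mem (α := E) e
    · simpa [hx] using measurableSet_notMem (α := E) e
  have hthr : Measurable (thr p) := measurable_thr p hp0
  calc ν Sθ = (μ.prod ν) (thr p ⁻¹' Sθ) := by
        conv_lhs => rw [← hmap]
        rw [Measure.map_apply hthr hSθm]
    _ ≤ (μ.prod ν) (Prod.fst ⁻¹' SX) := by
        refine measure_mono_ae ?_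
        filter_upwards [hall] with z hz hz2
        obtain ⟨⟨h4, h5⟩, h6⟩ := hz
        have hz3 : thr p z ∈ Sθ := hz2
        have hcor := stat_correct lo hi b lo_mono hi_mono fin_eq lo_lim hi_lim Fn hFm hFfin hFu T
          hT1 hT2 hT3 z.1 (fun e => (p e z.1 : ℝ)) (fun e => (thr p z e : ℝ)) h4
          (fun e he => by
            have h7 := h5 e he
            have h8 := h6 e
            simp only [thr, he, if_true, Icc.coe_mul]
            nlinarith)
          (fun e he => by
            have h7 : p e z.1 ≤ thr p z e := by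
              simp only [thr, he, if_false]
              rw [unitInterval.le_symm_comm]
              exact unitInterval.mul_le_left
            exact h7) k
        intro e heF
        constructor
        · intro he
          by_contra hx
          exact Set.disjoint_left.1 hcor.2 ((hz3 e heF).2 hx) he
        · intro hx
          exact hcor.1 ((hz3 e heF).1 hx)
    _ = μ SX := (measurePreserving_fst (μ := μ) (ν := ν)).measure_preimage
        hSXm.nullMeasurableSet

end Vale.Agent.P143
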