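import Vale.Agent.P143.Cap

set_option autoImplicit false

namespace Vale.Agent.P143

open Filter Topology Set MeasureTheory
open scoped InnerProductSpace

universe u

variable {V : Type u}

lemma dset_finite {A : Set (Sym2 V)} (hA : A.Finite) : (dset A).Finite := by
  have h : dset A = ⋃ e ∈ A, {p : V × V | s(p.1, p.2) = e} := by
    ext p
    simp [dset]
  rw [h]
  refine hA.biUnion fun e _ => ?_
  induction e with
  | h a b =>
    refine (Set.toFinite {(a, b), (b, a)}).subset ?_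
    rintro ⟨x, y⟩ hxy
    have hxy' : s(x, y) = s(a, b) := hxy
    rw [Sym2.eq_iff] at hxy'
    rcases hxy' with ⟨rfl, rfl⟩ | ⟨rfl, rfl⟩ <;> simp

lemma finiteDimensional_suppS {A : Set (Sym2 V)} (hA : A.Finite) :
    FiniteDimensional ℝ (suppS A) := by
  have : Finite (dset A) := (dset_finite hA).to_subtype
  let f : suppS A →ₗ[ℝ] (dset A → ℝ) :=
    { toFun := fun x p => (x : Hd V) p.1
      map_add' := by intro x y; rfl
      map_smul' := by intro c x; rfl }
  refine Module.Finite.of_injective f ?_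
  intro x y hxy
  apply Subtype.ext
  refine hd_ext fun a b => ?_
  by_cases h : s(a, b) ∈ A
  · exact congrFun hxy ⟨(a, b), h⟩
  · rw [x.2 a b h, y.2 a b h]

lemma finiteDimensional_of_le_suppS {A : Set (Sym2 V)} (hA : A.Finite)
    {K : Submodule ℝ (Hd V)} (hK : K ≤ suppS A) : FiniteDimensional ℝ K := by
  have := finiteDimensional_suppS hA
  exact Submodule.finiteDimensional_of_le hK

/-- A vector of `EE` orthogonal to the part of `EE ⊓ Pᗮ` vanishing on the finite set `A` is a sum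
of a vector of the closed space `P` and a vector supported on `A`. -/
lemma mem_sup_of_perp {G : SimpleGraph V} {P Q : Submodule ℝ (Hd V)}
    (hP : IsClosed (P : Set (Hd V))) (hPE : P ≤ EE G)
    (hQ : ∀ x ∈ EE G, (∀ y ∈ P, ⟪x, y⟫_ℝ = 0) → x ∈ Q)
    {A : Set (Sym2 V)} (hA : A.Finite) {z : Hd V} (hz : z ∈ EE G)
    (hperp : ∀ x ∈ Q, x ∈ suppS Aᶜ → ⟪z, x⟫_ℝ = 0) :
    ∃ w ∈ P, ∃ a ∈ suppS A, z = w + a := by
  have : FiniteDimensional ℝ (EE G ⊓ suppS A : Submodule ℝ (Hd V)) :=
    finiteDimensional_of_le_suppS hA inf_le_right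
  set S : Submodule ℝ (Hd V) := P ⊔ (EE G ⊓ suppS A) with hS
  have hScl : IsClosed (S : Set (Hd V)) := Submodule.isClosed_sup_finiteDimensional _ _ hP
  have hSE : S ≤ EE G := sup_le hPE inf_le_left
  set r : Hd V := z - proj S z with hr
  have hrS : r ∈ Sᗮ := sub_proj_mem_orthogonal S z
  have hrE : r ∈ EE G := Submodule.sub_mem _ hz (hSE (proj_mem hScl z))
  have hrQ : r ∈ Q := by
    refine hQ r hrE fun y hy => ?_
    rw [real_inner_comm]
    exact (Submodule.mem_orthogonal _ _).1 hrS y (Submodule.mem_sup_left hy)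
  have hrA : r ∈ suppS Aᶜ := by
    rw [mem_suppS_compl_iff]
    have h1 : ⟪restr (dset A) r, r⟫_ℝ = 0 :=
      (Submodule.mem_orthogonal _ _).1 hrS _
        (Submodule.mem_sup_right ⟨restr_mem_EE hrE A, restr_mem A r⟩)
    have h2 : ⟪restr (dset A) r, restr (dset A) r⟫_ℝ = 0 := by
      rw [← restr_inner, restr_eq_self (restr_mem A r)]
      exact h1
    exact inner_self_eq_zero.1 h2
  have h3 : ⟪z, r⟫_ℝ = 0 := hperp r hrQ hrA
  have h4 : ⟪proj S z, r⟫_ℝ = 0 :=
    (Submodule.mem_orthogonal _ _).1 hrS _ (proj_mem hScl z)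
  have h5 : ⟪r, r⟫_ℝ = 0 := by
    conv_lhs => rw [hr]
    rw [inner_sub_left, ← hr, h3, h4, sub_zero]
  have h6 : r = 0 := inner_self_eq_zero.1 h5
  have h7 : z = proj S z := sub_eq_zero.1 h6
  have h8 : z ∈ S := by rw [h7]; exact proj_mem hScl z
  obtain ⟨w, hw, a, ha, hwa⟩ := Submodule.mem_sup.1 h8
  exact ⟨w, hw, a, ha.2, hwa.symm⟩

/-- the gap space vanishes off `A ∪ B` -/
lemma gap_vanish {G : SimpleGraph V} {A B : Set (Sym2 V)} (hA : A.Finite) (hB : B.Finite)
    (hAB : Disjoint A B) {z : Hd V} (hz : z ∈ EE G)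
    (h1 : ∀ x ∈ LL G A B, ⟪x, z⟫_ℝ = 0) (h2 : ∀ x ∈ LP G A B, ⟪x, z⟫_ℝ = 0) :
    restr (dset (A ∪ B)ᶜ) z = 0 := by
  set z0 := restr (dset (A ∪ B)ᶜ) z with hz0
  have hz0E : z0 ∈ EE G := restr_mem_EE hz _
  have hz0s : z0 ∈ suppS (A ∪ B)ᶜ := restr_mem _ _
  -- first splitting
  have hsub1 : ∀ x : Hd V, x ∈ suppS Aᶜ → restr (dset (A ∪ B)ᶜ) x = restr (dset Bᶜ) x := by
    intro x hx
    refine hd_ext fun a b => ?_
    by_cases hb : s(a, b) ∈ B
    · rw [restr_apply_notMem (S := dset Bᶜ) (fun h => h hb),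
        restr_apply_notMem (S := dset (A ∪ B)ᶜ) (fun h => h (Or.inr hb))]
    · rw [restr_apply_mem (S := dset Bᶜ) hb]
      by_cases ha : s(a, b) ∈ A
      · rw [restr_apply_notMem (S := dset (A ∪ B)ᶜ) (fun h => h (Or.inl ha)),
          hx a b (fun h => h ha)]
      · rw [restr_apply_mem (S := dset (A ∪ B)ᶜ) (fun h => h.elim ha hb)]
  have hsub2 : ∀ x : Hd V, x ∈ suppS Bᶜ → restr (dset (A ∪ B)ᶜ) x = restr (dset Aᶜ) x := by
    intro x hx
    refine hd_ext fun a b => ?_
    by_cases ha : s(a, b) ∈ A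
    · rw [restr_apply_notMem (S := dset Aᶜ) (fun h => h ha),
        restr_apply_notMem (S := dset (A ∪ B)ᶜ) (fun h => h (Or.inl ha))]
    · rw [restr_apply_mem (S := dset Aᶜ) ha]
      by_cases hb : s(a, b) ∈ B
      · rw [restr_apply_notMem (S := dset (A ∪ B)ᶜ) (fun h => h (Or.inr hb)),
          hx a b (fun h => h hb)]
      · rw [restr_apply_mem (S := dset (A ∪ B)ᶜ) (fun h => h.elim ha hb)]
  obtain ⟨w', hw', a, ha, hz1⟩ := mem_sup_of_perp (P := WP G) (Q := WW G) (isClosed_WP G)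
    (WP_le_EE G) (fun x hx h => ⟨hx,
      (Submodule.mem_orthogonal' _ _).2 fun y hy => h y (Submodule.le_topologicalClosure _ hy)⟩) hA hz0E
    (fun x hxW hxA => by
      rw [hz0, restr_inner, hsub1 x hxA, real_inner_comm]
      exact h1 _ (mem_LL.2 ⟨x, ⟨hxW, hxA⟩, rfl⟩))
  obtain ⟨w, hw, b, hb, hz2⟩ := mem_sup_of_perp (P := WW G) (Q := WP G) (isClosed_WW G)
    inf_le_left (fun x hx h => by
      have h3 : proj (WW G) x = 0 := by
        apply proj_eq_zero
        rw [Submodule.mem_orthogonal']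
        exact h
      have h4 := EE_decomp hx
      rw [h3, zero_add] at h4
      rw [← h4]
      exact proj_mem (isClosed_WP G) x) hB hz0E
    (fun x hxW hxB => by
      rw [hz0, restr_inner, hsub2 x hxB, real_inner_comm]
      exact h2 _ (mem_LP.2 ⟨x, ⟨hxW, hxB⟩, rfl⟩))
  have e1 : w' = z0 - a := by rw [hz1]; abel
  have e2 : w = z0 - b := by rw [hz2]; abel
  have h5 : ⟪w, w'⟫_ℝ = 0 := WW_perp_WP hw hw'
  have hza : ⟪z0, a⟫_ℝ = 0 := by
    rw [← restr_eq_self ha, ← restr_inner]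
    have : restr (dset A) z0 = 0 :=
      mem_suppS_compl_iff.1 (suppS_mono (compl_subset_compl.2 subset_union_left) hz0s)
    rw [this, inner_zero_left]
  have hzb : ⟪b, z0⟫_ℝ = 0 := by
    rw [← restr_eq_self hb, restr_inner]
    have : restr (dset B) z0 = 0 :=
      mem_suppS_compl_iff.1 (suppS_mono (compl_subset_compl.2 subset_union_right) hz0s)
    rw [this, inner_zero_right]
  have hab : ⟪b, a⟫_ℝ = 0 := by
    rw [← restr_eq_self hb, restr_inner]
    have : restr (dset B) a = 0 :=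
      mem_suppS_compl_iff.1 (suppS_mono (subset_compl_iff_disjoint_right.2 hAB) ha)
    rw [this, inner_zero_right]
  rw [e1, e2, inner_sub_left, inner_sub_right, inner_sub_right, hza, hzb, hab] at h5
  simp only [sub_zero] at h5
  exact inner_self_eq_zero.1 h5

theorem lo_eq_hi (G : SimpleGraph V) (A B : Set (Sym2 V)) (hA : A.Finite) (hB : B.Finite)
    (hAB : Disjoint A B) (e : Sym2 V) (heA : e ∉ A) (heB : e ∉ B) :
    lo G A B e = hi G A B e := by
  induction e with
  | h u v =>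
    by_cases hE : s(u, v) ∈ G.edgeSet
    · have h1 := norm_proj_MM G A B ∅ u v
      rw [union_empty, union_empty, union_empty] at h1
      have hn : s(u, v) ∉ G.edgeSet ∩ (A ∪ B) := fun h => h.2.elim heA heB
      have hm : s(u, v) ∈ G.edgeSet \ (A ∪ B) := ⟨hE, fun h => h.elim heA heB⟩
      rw [ind_of_notMem hn, ind_of_mem hm, zero_add, one_mul] at h1
      have h2 : proj (MM G A B ∅) (dl (u, v)) = 0 := by
        refine proj_dl_eq_zero fun x hx => ?_
        unfold MM at hx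
        rw [union_empty, union_empty] at hx
        have h3 := gap_vanish hA hB hAB hx.1.1 (fun y hy => (Submodule.mem_orthogonal _ _).1 hx.1.2 y hy)
          (fun y hy => (Submodule.mem_orthogonal _ _).1 hx.2 y hy)
        have h4 : restr (dset (A ∪ B)ᶜ) x (u, v) = 0 := by rw [h3]; rfl
        rwa [restr_apply_mem (S := dset (A ∪ B)ᶜ) (fun h => h.elim heA heB)] at h4
      rw [h2] at h1
      simp at h1
      linarith
    · rw [lo_of_notMem hE, hi_of_notMem hE]

end Vale.Agent.P143
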