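import Vale.Agent.P143.Defs
import Vale.Agent.P143.MarksAux

set_option autoImplicit false

namespace Vale.Agent.P143

open MeasureTheory Set Filter Topology

universe u

theorem exists_marks (V : Type u) [Countable V] :
    ∃ mk : SimpleGraph V → (V → unitInterval) → Sym2 V → unitInterval × unitInterval,
      (Measurable fun p : SimpleGraph V × (V → unitInterval) => mk p.1 p.2) ∧
      (∀ (G G' : SimpleGraph V) (φ : G ≃g G') (U : V → unitInterval) (e : Sym2 V),
        mk G' U (e.map φ) = mk G (U ∘ φ) e) ∧
      ∀ G : SimpleGraph V, LocFin G →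
        (iidUniform V).map (fun U (e : G.edgeSet) => mk G U e) =
          Measure.infinitePi fun _ : G.edgeSet => (volume : Measure (unitInterval × unitInterval)) := by
  obtain ⟨f, hf, hflaw⟩ := Measure.exists_measurable_map_eq
    (Measure.infinitePi fun _ : ℕ => (volume : Measure unitInterval))
  obtain ⟨g, hg, hglaw⟩ := Measure.exists_measurable_map_eq
    (volume : Measure (unitInterval × unitInterval))
  refine ⟨fun G U => MarksE.mark f g G.Adj U, ?_, ?_, ?_⟩
  · refine measurable_pi_lambda _ fun e => ?_
    refine MarksE.measurable_mark₂ (g 0) (fun p : SimpleGraph V × (V → unitInterval) => p.1.Adj)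
      (fun u v => ?_) (fun p v => f (p.2 v) 0) (fun v => ?_)
      (fun p v n => g (f (p.2 v) (n + 1))) (fun v n => ?_) e
    · have h1 : Measurable fun G : SimpleGraph V => G.Adj u v :=
        (measurable_pi_apply v).comp ((measurable_pi_apply u).comp SimpleGraph.measurable_adj)
      exact measurableSet_setOfPred.2 (h1.comp measurable_fst)
    · fun_prop
    · fun_prop
  · intro G G' φ U e
    exact MarksE.mark_equiv f g φ.toEquiv G.Adj G'.Adj (fun x y => φ.map_rel_iff.symm) (U ∘ φ) U
      (fun x => rfl) e
  · intro G hG
    have := MarksE.law_mark hf hflaw hg (A := G.Adj) (fun x y h => h.symm) (fun x => G.irrefl)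
      hG G.edgeSet (fun x y h => h)
    rw [hglaw] at this
    exact this

end Vale.Agent.P143
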