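import Vale.Agent.P143.AllDet
import Vale.Agent.P143.LawEq
import Vale.Agent.P143.Exist
import Vale.Agent.P143.Marks
import Vale.Agent.P143.Final

set_option autoImplicit false
set_option linter.unusedSectionVars false

namespace Vale.Agent.P143

open Filter Topology Set MeasureTheory

universe u w

variable {V : Type u}

lemma eq_ga {G G' : SimpleGraph V} (φ : G ≃g G') : G' = ga φ.toEquiv G := by
  ext a b
  unfold ga
  rw [SimpleGraph.comap_adj]
  have h := φ.map_adj_iff (v := φ.toEquiv.symm a) (w := φ.toEquiv.symm b)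
  rw [← h]
  have h3 : ∀ x, φ (φ.toEquiv.symm x) = x := fun x => φ.toEquiv.apply_symm_apply x
  rw [h3, h3]

/-- the edges determined to be present -/
def Pres (ω : Env V) : Set (Sym2 V) := ⋃ n, ⋃ k, (st n ω k).1

lemma mem_Pres {ω : Env V} {e : Sym2 V} : e ∈ Pres ω ↔ ∃ n k, e ∈ (st n ω k).1 := by
  unfold Pres
  simp

lemma Pres_subset (ω : Env V) : Pres ω ⊆ ω.1.edgeSet := by
  intro e he
  obtain ⟨n, k, h⟩ := mem_Pres.1 he
  by_contra hcon
  unfold st at h
  rw [mem_stat_one, lo_of_notMem hcon] at h
  exact absurd h.2 (not_lt.2 (ω.2 e).2.2.1)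

/-- only the marks of the edges matter -/
lemma st_congr_marks {G : SimpleGraph V} {m m' : Mk V} (h : ∀ e ∈ G.edgeSet, m e = m' e)
    (n k : ℕ) : st n (G, m) k = st n (G, m') k := by
  have hb : batch G n m = batch G n m' := by
    funext e
    by_cases he : e ∈ G.edgeSet
    · rw [batch_of_mem he, batch_of_mem he, h e he]
    · rw [batch_of_notMem he, batch_of_notMem he]
  unfold st
  simp only
  rw [hb]
  refine stat_congr_zero G.edgeSet (fun A B e he => lo_of_notMem he)
    (fun A B e he => hi_of_notMem he) (fun e => (m e).2.2.1) (fun e => (m' e).2.2.1)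
    (fun e he => ?_) k
  rw [h e he]

variable [Countable V]

lemma meas_st_one (n k : ℕ) (e : Sym2 V) : MeasurableSet {ω : Env V | e ∈ (st n ω k).1} :=
  (rs_st n k).1.meas e

lemma meas_st_two (n k : ℕ) (e : Sym2 V) : MeasurableSet {ω : Env V | e ∈ (st n ω k).2} :=
  (rs_st n k).2.meas e

lemma meas_Pres (e : Sym2 V) : MeasurableSet {ω : Env V | e ∈ Pres ω} := by
  have h1 : {ω : Env V | e ∈ Pres ω} = ⋃ n, ⋃ k, {ω | e ∈ (st n ω k).1} := by
    ext ω
    simp [mem_Pres]
  rw [h1]
  exact MeasurableSet.iUnion fun n => MeasurableSet.iUnion fun k => meas_st_one n k e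

lemma Pres_equi (σ : Equiv.Perm V) (ω : Env V) (e : Sym2 V) :
    e.map σ ∈ Pres (actE σ ω) ↔ e ∈ Pres ω := by
  rw [mem_Pres, mem_Pres]
  exact exists_congr fun n => exists_congr fun k => (rs_st n k).1.equi σ ω e

/-- The law of the present edges is the free uniform spanning forest. -/
lemma law_Pres {G : SimpleGraph V} (hG : G.Connected)
    (hdet : ∀ᵐ m ∂(mksM V), ∀ e : Sym2 V, ∃ n k, e ∈ (st n (G, m) k).1 ∨
      e ∈ (st n (G, m) k).2) :
    Measurable (fun m : Mk V => Pres (G, m)) ∧ IsFUSF G ((mksM V).map fun m => Pres (G, m)) := by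
  obtain ⟨μ, hμ, hprob⟩ := exists_fusf G hG
  have hinst := hμ.isProbabilityMeasure
  have hsec : Measurable fun m : Mk V => ((G, m) : Env V) :=
    measurable_const.prodMk measurable_id
  have h := law_eq μ (lo G) (hi G) (lo_mono' G) (hi_mono' G)
    (fun A B e _ _ _ => lo_le_hi G A B e)
    (fun A B e hA hB h1 h2 h3 => lo_eq_hi G A B hA hB h3 e h1 h2)
    (fun A B e hA hB h1 h2 h3 => hprob A B e hA hB h1 h2 h3)
    (fun A B e h1 h2 _ F hF hU ε hε => lo_lim G A B e h1 h2 F hF hU ε hε)
    (fun A B e h1 h2 _ F hF hU ε hε => hi_lim G A B e h1 h2 F hF hU ε hε)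
    (fun n m => batch G n m)
    (fun n m m' hm => by
      funext e
      by_cases he : e ∈ G.edgeSet
      · rw [batch_of_mem he, batch_of_mem he, hm e]
      · rw [batch_of_notMem he, batch_of_notMem he])
    (fun n k e => hsec (meas_st_one n k e))
    (fun n k e => hsec (meas_st_two n k e))
    (fun n m => by
      refine iUnion_subset fun k => ?_
      exact (st_refine n k (G, m)).1.trans (subset_iUnion (fun k => (st (n + 1) (G, m) k).1) _))
    (fun n m => by
      refine iUnion_subset fun k => ?_
      exact (st_refine n k (G, m)).2.trans (subset_iUnion (fun k => (st (n + 1) (G, m) k).2) _))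
    hdet
  refine ⟨h.1, ?_⟩
  have h2 : (mksM V).map (fun m => Pres (G, m)) = μ := h.2
  rw [h2]
  exact hμ

open Classical in
/-- extension of the marks by a constant -/
noncomputable def ext0 (G : SimpleGraph V) (m : G.edgeSet → unitInterval × unitInterval) : Mk V :=
  fun e => if h : e ∈ G.edgeSet then m ⟨e, h⟩ else (0, 0)

omit [Countable V] in
lemma ext0_of_mem (G : SimpleGraph V) (m : G.edgeSet → unitInterval × unitInterval) {e : Sym2 V}
    (h : e ∈ G.edgeSet) : ext0 G m e = m ⟨e, h⟩ := dif_pos h

omit [Countable V] in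
lemma measurable_ext0 (G : SimpleGraph V) : Measurable (ext0 G) := by
  refine measurable_pi_lambda _ fun e => ?_
  by_cases h : e ∈ G.edgeSet
  · have h1 : (fun m : G.edgeSet → unitInterval × unitInterval => ext0 G m e)
        = fun m => m ⟨e, h⟩ := by
      funext m; exact ext0_of_mem G m h
    rw [h1]
    exact measurable_pi_apply _
  · have h1 : (fun m : G.edgeSet → unitInterval × unitInterval => ext0 G m e)
        = fun _ => (0, 0) := by
      funext m; exact dif_neg h
    rw [h1]
    exact measurable_const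

omit [Countable V] in
lemma Pres_ext0 (G : SimpleGraph V) (m : Mk V) :
    Pres (G, m) = Pres (G, ext0 G (fun e : G.edgeSet => m e)) := by
  unfold Pres
  refine iUnion_congr fun n => iUnion_congr fun k => ?_
  rw [st_congr_marks (m := m) (m' := ext0 G (fun e : G.edgeSet => m e))
    (fun e he => (ext0_of_mem G (fun e : G.edgeSet => m e) he).symm)]

/-- transfer of the law from edge marks to vertex labels -/
lemma law_transfer {G : SimpleGraph V} {mk : (V → unitInterval) → Mk V} (hmk : Measurable mk)
    (hlaw : (iidUniform V).map (fun U (e : G.edgeSet) => mk U e) =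
      Measure.infinitePi fun _ : G.edgeSet => (volume : Measure (unitInterval × unitInterval)))
    (hP : Measurable (fun m : Mk V => Pres (G, m))) :
    (iidUniform V).map (fun U => Pres (G, mk U)) = (mksM V).map fun m => Pres (G, m) := by
  set Ψ : (G.edgeSet → unitInterval × unitInterval) → Set (Sym2 V) :=
    fun m' => Pres (G, ext0 G m') with hΨ
  have hΨm : Measurable Ψ := hP.comp (measurable_ext0 G)
  set R : Mk V → (G.edgeSet → unitInterval × unitInterval) := fun m e => m e with hR
  have hRm : Measurable R := measurable_pi_lambda _ fun e => measurable_pi_apply _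
  have h1 : (fun m : Mk V => Pres (G, m)) = Ψ ∘ R := by
    funext m; exact Pres_ext0 G m
  have h2 : (fun U => Pres (G, mk U)) = Ψ ∘ (R ∘ mk) := by
    funext U; exact Pres_ext0 G (mk U)
  have h3 : (mksM V).map R = Measure.infinitePi fun _ : G.edgeSet =>
      (volume : Measure (unitInterval × unitInterval)) := by
    unfold mksM
    exact Measure.infinitePi_map_restrict' _
  rw [h1, h2, ← Measure.map_map hΨm hRm, ← Measure.map_map hΨm (hRm.comp hmk), h3]
  congr 1

/-- **Main theorem.** -/
theorem main (V : Type u) [Countable V] [MeasurableSpace V] [MeasurableSingletonClass V] :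
    MainStatement V := by
  obtain ⟨mk, hmkm, hmki, hmkl⟩ := exists_marks V
  refine ⟨fun G U e => e ∈ Pres (G, mk G U), ⟨fun e => ?_, ?_⟩, ?_⟩
  · have h : Measurable fun p : SimpleGraph V × (V → unitInterval) => ((p.1, mk p.1 p.2) : Env V) :=
      measurable_fst.prodMk hmkm
    exact h (meas_Pres e)
  · intro G G' φ U e
    have h1 : ((G', mk G' U) : Env V) = actE φ.toEquiv (G, mk G (U ∘ φ)) := by
      refine Prod.ext (eq_ga φ) ?_
      funext e'
      change mk G' U e' = mk G (U ∘ φ) (e'.map φ.toEquiv.symm)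
      rw [← hmki G G' φ U]
      congr 1
      have := map_map_symm φ.toEquiv.symm e'
      exact this.symm
    change e.map φ ∈ Pres (G', mk G' U) ↔ e ∈ Pres (G, mk G (U ∘ φ))
    rw [h1]
    exact Pres_equi φ.toEquiv _ e
  · intro ρ hρp hρ hu
    have hlf : ∀ᵐ p ∂ρ, LocFin p.1 := by
      filter_upwards [hρ] with p hp using hp.2
    filter_upwards [hρ, all_det hu hlf] with p hp hdet
    obtain ⟨h1, h2⟩ := law_Pres hp.1 hdet
    have hmk1 : Measurable (mk p.1) := hmkm.comp (measurable_const.prodMk measurable_id)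
    have h3 := law_transfer hmk1 (hmkl p.1 hp.2) h1
    have h4 : (fun U => {e | e ∈ p.1.edgeSet ∧ e ∈ Pres (p.1, mk p.1 U)})
        = fun U => Pres (p.1, mk p.1 U) := by
      funext U
      ext e
      exact ⟨fun h => h.2, fun h => ⟨Pres_subset _ h, h⟩⟩
    rw [h4, h3]
    exact h2

end Vale.Agent.P143
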