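import Vale.Agent.P143.RandSpace

set_option autoImplicit false
set_option linter.unusedSectionVars false

namespace Vale.Agent.P143

open Filter Topology Set MeasureTheory
open scoped InnerProductSpace

universe u w

section gen

variable {H : Type u} [NormedAddCommGroup H] [InnerProductSpace ℝ H]

lemma hasSum_apply_inner {ι : Type w} {t : ι → H →L[ℝ] H} {T : H →L[ℝ] H} (h : HasSum t T)
    (x y : H) : HasSum (fun l => ⟪y, t l x⟫_ℝ) ⟪y, T x⟫_ℝ := by
  have h2 : HasSum (fun l => t l x) (T x) := (ContinuousLinearMap.apply ℝ H x).hasSum h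
  have h3 := (innerSL ℝ y).hasSum h2
  simpa only [innerSL_apply_apply] using h3

lemma one_add_apply' (F : H →L[ℝ] H) (x : H) : ((1 : H →L[ℝ] H) + F) x = x + F x := rfl

lemma one_sub_apply' (F : H →L[ℝ] H) (x : H) : ((1 : H →L[ℝ] H) - F) x = x - F x := rfl

lemma smul_apply' (a : ℝ) (F : H →L[ℝ] H) (x : H) : (a • F) x = a • F x := rfl

end gen

section

variable {V : Type u}

/-- Equivariance of projections. -/
lemma proj_equi (τ : Hd V ≃ₗᵢ[ℝ] Hd V) {K K' : Submodule ℝ (Hd V)}
    (h1 : ∀ x ∈ K, τ x ∈ K') (h2 : ∀ x ∈ K', τ.symm x ∈ K) (x : Hd V) :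
    proj K' (τ x) = τ (proj K x) := by
  refine proj_unique ?_ ?_
  · have hcl : (K : Set (Hd V)) ⊆ τ ⁻¹' (K'.topologicalClosure : Set (Hd V)) := fun y hy =>
      K'.le_topologicalClosure (h1 y hy)
    have hclosed : IsClosed (τ ⁻¹' (K'.topologicalClosure : Set (Hd V))) :=
      (Submodule.isClosed_topologicalClosure K').preimage τ.continuous
    have h3 := closure_minimal hcl hclosed
    have h4 := proj_mem_closure K x
    rw [← SetLike.mem_coe, Submodule.topologicalClosure_coe] at h4
    exact h3 h4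
  · rw [← map_sub, Submodule.mem_orthogonal]
    intro y hy
    have h3 := (Submodule.mem_orthogonal _ _).1 (sub_proj_mem_orthogonal K x) _ (h2 y hy)
    have h4 := τ.inner_map_map (τ.symm y) (x - proj K x)
    rw [LinearIsometryEquiv.apply_symm_apply] at h4
    rw [h4, h3]

lemma chainV_perm (σ : Equiv.Perm V) (l : Seqs V) :
    chainV (⟨l.1, fun i => σ (l.2 i)⟩ : Seqs V) = permL σ (chainV l) := by
  unfold chainV
  rw [map_sum]
  refine Finset.sum_congr rfl fun i _ => ?_
  rw [map_sub, permL_dl, permL_dl]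

/-- the rank one operator of a vector -/
noncomputable def rk (c : Hd V) : Hd V →L[ℝ] Hd V := (innerSL ℝ c).smulRight c

lemma rk_apply (c x : Hd V) : rk c x = ⟪c, x⟫_ℝ • c := rfl

lemma norm_rk_le (c : Hd V) : ‖rk c‖ ≤ ‖c‖ ^ 2 := by
  refine ContinuousLinearMap.opNorm_le_bound _ (by positivity) fun x => ?_
  rw [rk_apply, norm_smul, Real.norm_eq_abs]
  calc |⟪c, x⟫_ℝ| * ‖c‖ ≤ (‖c‖ * ‖x‖) * ‖c‖ := by
        gcongr
        exact abs_real_inner_le_norm c x
    _ = ‖c‖ ^ 2 * ‖x‖ := by ring

end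

variable {V : Type u} [Countable V] {Ω : Type w} [MeasurableSpace Ω]
  {act : Equiv.Perm V → Ω → Ω}

lemma meas_isLoop {Gr : Ω → SimpleGraph V} (h : RG act Gr) (l : Seqs V) :
    MeasurableSet {ω | IsLoop (Gr ω) l} := by
  have h1 : {ω | IsLoop (Gr ω) l}
      = (⋂ i : Fin l.1, {ω | (Gr ω).Adj (l.2 i.castSucc) (l.2 i.succ)})
        ∩ {_ω | l.2 0 = l.2 (Fin.last l.1)} := by
    ext ω
    simp [IsLoop]
  rw [h1]
  refine MeasurableSet.inter (MeasurableSet.iInter fun i => h.meas _ _) (MeasurableSet.const _)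

open Classical in
lemma meas_ZZ {Gr : Ω → SimpleGraph V} (h : RG act Gr) :
    MeasOp (fun ω => proj (ZZ (Gr ω))ᗮ) := by
  have : Encodable (Seqs V) := Encodable.ofCountable _
  obtain ⟨ε, hε, s, hs, hs1⟩ := posSumOfEncodable (ε := 1) one_pos (Seqs V)
  set a : Seqs V → ℝ := fun l => ε l / (1 + ‖chainV l‖ ^ 2) with ha
  have hapos : ∀ l, 0 < a l := fun l => div_pos (hε l) (by positivity)
  set t : Ω → Seqs V → Hd V →L[ℝ] Hd V :=
    fun ω l => (if IsLoop (Gr ω) l then a l else 0) • rk (chainV l) with ht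
  have hb : ∀ ω l, ‖t ω l‖ ≤ ε l := by
    intro ω l
    simp only [ht]
    rw [norm_smul]
    by_cases hl : IsLoop (Gr ω) l
    · rw [if_pos hl, Real.norm_eq_abs, abs_of_pos (hapos l)]
      calc a l * ‖rk (chainV l)‖ ≤ a l * ‖chainV l‖ ^ 2 := by
            gcongr
            · exact (hapos l).le
            · exact norm_rk_le _
        _ = ε l * (‖chainV l‖ ^ 2 / (1 + ‖chainV l‖ ^ 2)) := by
            simp only [ha]; ring
        _ ≤ ε l * 1 := by
            refine mul_le_mul_of_nonneg_left ?_ (hε l).le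
            rw [div_le_one (by positivity)]
            linarith
        _ = ε l := mul_one _
    · rw [if_neg hl]
      simpa using (hε l).le
  have hsum : ∀ ω, Summable (t ω) := fun ω =>
    Summable.of_norm_bounded hs.summable (hb ω)
  set T : Ω → Hd V →L[ℝ] Hd V := fun ω => ∑' l, t ω l with hT
  have hTb : ∀ ω x, ‖T ω x‖ ≤ 1 * ‖x‖ := by
    intro ω x
    have h1 : ‖T ω‖ ≤ s := tsum_of_norm_bounded hs (hb ω)
    exact ((T ω).le_opNorm x).trans (mul_le_mul_of_nonneg_right (h1.trans hs1) (norm_nonneg _))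
  have hinner : ∀ ω x y, HasSum (fun l => (if IsLoop (Gr ω) l then a l else 0)
      * (⟪chainV l, x⟫_ℝ * ⟪chainV l, y⟫_ℝ)) ⟪T ω x, y⟫_ℝ := by
    intro ω x y
    have h1 : HasSum (fun l => t ω l) (T ω) := (hsum ω).hasSum
    have h3 := hasSum_apply_inner h1 x y
    have h4 : (fun l => ⟪y, (t ω l) x⟫_ℝ) = fun l => (if IsLoop (Gr ω) l then a l else 0)
      * (⟪chainV l, x⟫_ℝ * ⟪chainV l, y⟫_ℝ) := by
      funext l
      simp only [ht]
      rw [smul_apply', rk_apply, inner_smul_right, inner_smul_right,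
        real_inner_comm (chainV l) y]
    have h6 : ⟪y, T ω x⟫_ℝ = ⟪T ω x, y⟫_ℝ := real_inner_comm _ _
    rw [h4, h6] at h3
    exact h3
  refine MeasOp.ker (T := T) (fun x y => ?_) one_pos hTb fun ω x => ?_
  · refine measurable_of_hasSum (fun l => ?_) fun ω => hinner ω x y
    exact (Measurable.ite (meas_isLoop h l) measurable_const measurable_const).mul
      measurable_const
  · constructor
    · intro hx
      refine ext_inner_right ℝ fun y => ?_
      rw [inner_zero_left]
      have h1 := hinner ω x y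
      have h2 : (fun l => (if IsLoop (Gr ω) l then a l else 0)
          * (⟪chainV l, x⟫_ℝ * ⟪chainV l, y⟫_ℝ)) = fun _ => 0 := by
        funext l
        by_cases hl : IsLoop (Gr ω) l
        · have h3 : ⟪chainV l, x⟫_ℝ = 0 :=
            (Submodule.mem_orthogonal _ _).1 hx _ (Submodule.subset_span ⟨l, hl, rfl⟩)
          rw [h3]; simp
        · simp [hl]
      rw [h2] at h1
      exact h1.unique hasSum_zero
    · intro hx
      have h1 := hinner ω x x
      rw [hx, inner_zero_left] at h1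
      have h2 := (hasSum_zero_iff_of_nonneg (fun l => ?_)).1 h1
      · have h3 : ZZ (Gr ω) ≤ (ℝ ∙ x)ᗮ := by
          refine Submodule.span_le.2 ?_
          rintro y ⟨l, hl, rfl⟩
          have h4 := congrFun h2 l
          simp only [hl, if_true, Pi.zero_apply] at h4
          have h5 : ⟪chainV l, x⟫_ℝ = 0 := by
            rcases mul_eq_zero.1 h4 with h | h
            · exact absurd h (hapos l).ne'
            · simpa using h
          exact Submodule.mem_orthogonal_singleton_iff_inner_left.2 h5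
        rw [Submodule.mem_orthogonal]
        intro y hy
        exact Submodule.mem_orthogonal_singleton_iff_inner_left.1 (h3 hy)
      · by_cases hl : IsLoop (Gr ω) l
        · simp only [hl, if_true]
          have := (hapos l).le
          exact mul_nonneg this (mul_self_nonneg _)
        · simp [hl]

lemma isLoop_perm {Gr : Ω → SimpleGraph V} (h : RG act Gr) (σ : Equiv.Perm V) (ω : Ω)
    (l : Seqs V) : IsLoop (Gr (act σ ω)) (⟨l.1, fun i => σ (l.2 i)⟩ : Seqs V)
      ↔ IsLoop (Gr ω) l := by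
  unfold IsLoop
  refine and_congr (forall_congr' fun i => h.equi σ ω _ _) ?_
  exact σ.injective.eq_iff

lemma adm_ZZ {Gr : Ω → SimpleGraph V} (h : RG act Gr) :
    Adm act (fun ω => proj (ZZ (Gr ω))) := by
  have h1 : ∀ σ ω x, proj (ZZ (Gr (act σ ω))) (permL σ x) = permL σ (proj (ZZ (Gr ω)) x) := by
    intro σ ω x
    refine proj_equi (permL σ) ?_ ?_ x
    · intro y hy
      have h2 : ZZ (Gr ω) ≤ (ZZ (Gr (act σ ω))).comap
          ((permL σ).toLinearEquiv : Hd V →ₗ[ℝ] Hd V) := by
        refine Submodule.span_le.2 ?_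
        rintro z ⟨l, hl, rfl⟩
        refine Submodule.subset_span ⟨⟨l.1, fun i => σ (l.2 i)⟩, (isLoop_perm h σ ω l).2 hl, ?_⟩
        exact (chainV_perm σ l).symm
      exact h2 hy
    · intro y hy
      have h2 : ZZ (Gr (act σ ω)) ≤ (ZZ (Gr ω)).comap
          ((permL σ).symm.toLinearEquiv : Hd V →ₗ[ℝ] Hd V) := by
        refine Submodule.span_le.2 ?_
        rintro z ⟨l, hl, rfl⟩
        have h3 : l = (⟨l.1, fun i => σ (σ.symm (l.2 i))⟩ : Seqs V) := by
          simp
        have h4 : IsLoop (Gr ω) (⟨l.1, fun i => σ.symm (l.2 i)⟩ : Seqs V) := by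
          rw [← isLoop_perm h σ ω]
          rw [h3] at hl
          exact hl
        refine Submodule.subset_span ⟨⟨l.1, fun i => σ.symm (l.2 i)⟩, h4, ?_⟩
        change (permL σ).symm (chainV l) = _
        rw [LinearIsometryEquiv.symm_apply_eq, ← chainV_perm]
        congr 1
      exact h2 hy
  have h2 : (fun ω => proj (ZZ (Gr ω))) = fun ω => 1 - proj (ZZ (Gr ω))ᗮ := by
    funext ω
    ext1 x
    rw [one_sub_apply', proj_orthogonal, sub_sub_cancel]
  refine Adm.of_meas ?_ h1
  rw [h2]
  exact MeasOp.one.sub (meas_ZZ h)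

/-- antisymmetric functions -/
def AS (V : Type u) : Submodule ℝ (Hd V) where
  carrier := {x | x + flipL x = 0}
  add_mem' := by
    intro x y hx hy
    have : (x + y) + flipL (x + y) = (x + flipL x) + (y + flipL y) := by
      rw [map_add]; abel
    rw [mem_ofPred_eq] at hx hy ⊢
    rw [this, hx, hy, add_zero]
  zero_mem' := by simp
  smul_mem' := by
    intro c x hx
    rw [mem_ofPred_eq] at hx ⊢
    rw [map_smul, ← smul_add, hx, smul_zero]

lemma mem_AS {x : Hd V} : x ∈ AS V ↔ x + flipL x = 0 := Iff.rfl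

lemma EE_eq (G : SimpleGraph V) : EE G = AS V ⊓ suppS G.edgeSet := by
  ext x
  rw [mem_EE_iff, Submodule.mem_inf, mem_AS, mem_suppS_iff]

lemma adm_EE {Gr : Ω → SimpleGraph V} (h : RG act Gr) :
    Adm act (fun ω => proj (EE (Gr ω))) := by
  have hT : Adm act (fun _ : Ω => (1 : Hd V →L[ℝ] Hd V) + flipL) := by
    refine Adm.const fun σ x => hd_ext fun u v => ?_
    rfl
  have h1 : Adm act (fun _ : Ω => proj (AS V)) := by
    refine hT.ker (c := 2) two_pos (fun ω x => ?_) fun ω x => ?_
    · have h2 : ‖flipL x‖ = ‖x‖ := (reidx (Equiv.prodComm V V)).norm_map x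
      rw [one_add_apply']
      calc ‖x + flipL x‖ ≤ ‖x‖ + ‖flipL x‖ := norm_add_le _ _
        _ = 2 * ‖x‖ := by rw [h2]; ring
    · rw [one_add_apply', mem_AS]
  have h2 := h1.inf h.edgeSet.supp (fun ω => ?_) fun ω => isClosed_suppS _
  · simpa only [← EE_eq] using h2
  · exact isClosed_ker ((1 : Hd V →L[ℝ] Hd V) + flipL) fun x => by
      rw [one_add_apply', mem_AS]

lemma adm_WP {Gr : Ω → SimpleGraph V} (h : RG act Gr) :
    Adm act (fun ω => proj (WP (Gr ω))) := by
  have h1 : (fun ω => proj (WP (Gr ω))) = fun ω => proj (ZZ (Gr ω)) := by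
    funext ω
    exact proj_WP_eq _
  rw [h1]
  exact adm_ZZ h

lemma adm_WW {Gr : Ω → SimpleGraph V} (h : RG act Gr) :
    Adm act (fun ω => proj (WW (Gr ω))) :=
  (adm_EE h).inf (adm_ZZ h).compl (fun _ => isClosed_EE _) fun _ =>
    Submodule.isClosed_orthogonal _

end Vale.Agent.P143
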