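import Vale.Agent.P143.Space

set_option autoImplicit false
set_option linter.unusedSectionVars false

namespace Vale.Agent.P143

open Filter Topology Set MeasureTheory
open scoped InnerProductSpace

universe u w

variable {V : Type u} [Countable V] {Ω : Type w} [MeasurableSpace Ω]

/-! ### measurable families of operators -/

/-- Measurable families of operators. -/
def MeasOp (T : Ω → Hd V →L[ℝ] Hd V) : Prop := ∀ x y, Measurable fun ω => ⟪T ω x, y⟫_ℝ

namespace MeasOp

lemma sub {S T : Ω → Hd V →L[ℝ] Hd V} (hS : MeasOp S) (hT : MeasOp T) :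
    MeasOp (fun ω => S ω - T ω) := by
  intro x y
  simp only [sub_apply, inner_sub_left]
  exact (hS x y).sub (hT x y)

lemma smul {T : Ω → Hd V →L[ℝ] Hd V} (c : ℝ) (hT : MeasOp T) :
    MeasOp (fun ω => c • T ω) := by
  intro x y
  simpa [inner_smul_left] using (hT x y).const_mul c

lemma adjoint {T : Ω → Hd V →L[ℝ] Hd V} (hT : MeasOp T) :
    MeasOp (fun ω => ContinuousLinearMap.adjoint (T ω)) := by
  intro x y
  have h : (fun ω => ⟪ContinuousLinearMap.adjoint (T ω) x, y⟫_ℝ) = fun ω => ⟪T ω y, x⟫_ℝ := by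
    funext ω
    rw [ContinuousLinearMap.adjoint_inner_left, real_inner_comm]
  rw [h]
  exact hT y x

lemma one : MeasOp (fun _ : Ω => (1 : Hd V →L[ℝ] Hd V)) := fun _ _ => measurable_const

lemma mul {S T : Ω → Hd V →L[ℝ] Hd V} (hS : MeasOp S) (hT : MeasOp T) :
    MeasOp (fun ω => S ω * T ω) := by
  intro x y
  have hS' := hS.adjoint
  refine measurable_of_hasSum
    (f := fun q ω => (T ω x) q * (ContinuousLinearMap.adjoint (S ω) y) q) (fun q => ?_)
    fun ω => ?_
  · have h1 := hT x (dl q)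
    have h2 := hS' y (dl q)
    simp only [inner_dl_right] at h1 h2
    exact h1.mul h2
  · have h := hasSum_inner' (T ω x) (ContinuousLinearMap.adjoint (S ω) y)
    rwa [ContinuousLinearMap.adjoint_inner_right] at h

lemma pow {T : Ω → Hd V →L[ℝ] Hd V} (hT : MeasOp T) (n : ℕ) :
    MeasOp (fun ω => T ω ^ n) := by
  induction n with
  | zero => simpa using one
  | succ n ih =>
    have := ih.mul hT
    simpa [pow_succ] using this

lemma lim {T : ℕ → Ω → Hd V →L[ℝ] Hd V} {S : Ω → Hd V →L[ℝ] Hd V}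
    (hT : ∀ n, MeasOp (T n)) (h : ∀ ω x, Tendsto (fun n => T n ω x) atTop (𝓝 (S ω x))) :
    MeasOp S := by
  intro x y
  refine measurable_of_tendsto_metrizable (fun n => (hT n) x y) ?_
  rw [tendsto_pi_nhds]
  intro ω
  exact (h ω x).inner tendsto_const_nhds

lemma ker {T : Ω → Hd V →L[ℝ] Hd V} (hT : MeasOp T) {c : ℝ} (hc : 0 < c)
    (hb : ∀ ω x, ‖T ω x‖ ≤ c * ‖x‖) {K : Ω → Submodule ℝ (Hd V)}
    (hK : ∀ ω x, x ∈ K ω ↔ T ω x = 0) : MeasOp (fun ω => proj (K ω)) := by
  refine lim (T := fun n ω => Vale.Agent.P143.contr c (T ω) ^ (2 * n)) (fun n => ?_)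
    fun ω x => tendsto_contr hc (hb ω) (hK ω) x
  refine pow ?_ (2 * n)
  unfold Vale.Agent.P143.contr
  exact one.sub ((hT.adjoint.mul hT).smul _)

end MeasOp

/-! ### random graphs and random edge sets -/

/-- Random graphs. -/
structure RG (act : Equiv.Perm V → Ω → Ω) (Gr : Ω → SimpleGraph V) : Prop where
  meas : ∀ u v, MeasurableSet {ω | (Gr ω).Adj u v}
  equi : ∀ σ ω u v, (Gr (act σ ω)).Adj (σ u) (σ v) ↔ (Gr ω).Adj u v

/-- Random edge sets. -/
structure RS (act : Equiv.Perm V → Ω → Ω) (A : Ω → Set (Sym2 V)) : Prop where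
  meas : ∀ e, MeasurableSet {ω | e ∈ A ω}
  equi : ∀ σ ω e, e.map σ ∈ A (act σ ω) ↔ e ∈ A ω

variable {act : Equiv.Perm V → Ω → Ω}

lemma RG.edgeSet {Gr : Ω → SimpleGraph V} (h : RG act Gr) : RS act (fun ω => (Gr ω).edgeSet) := by
  refine ⟨fun e => ?_, fun σ ω e => ?_⟩
  · induction e with
    | h x y => simpa using h.meas x y
  · induction e with
    | h x y => simpa using h.equi σ ω x y

namespace RS

lemma compl {A : Ω → Set (Sym2 V)} (h : RS act A) : RS act (fun ω => (A ω)ᶜ) :=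
  ⟨fun e => (h.meas e).compl, fun σ ω e => not_congr (h.equi σ ω e)⟩

lemma union {A B : Ω → Set (Sym2 V)} (h : RS act A) (h' : RS act B) :
    RS act (fun ω => A ω ∪ B ω) :=
  ⟨fun e => (h.meas e).union (h'.meas e), fun σ ω e => or_congr (h.equi σ ω e) (h'.equi σ ω e)⟩

lemma inter {A B : Ω → Set (Sym2 V)} (h : RS act A) (h' : RS act B) :
    RS act (fun ω => A ω ∩ B ω) :=
  ⟨fun e => (h.meas e).inter (h'.meas e), fun σ ω e => and_congr (h.equi σ ω e) (h'.equi σ ω e)⟩

lemma diff {A B : Ω → Set (Sym2 V)} (h : RS act A) (h' : RS act B) :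
    RS act (fun ω => A ω \ B ω) := by
  have := h.inter h'.compl
  simpa [sdiff_eq] using this

lemma mem_perm {A : Ω → Set (Sym2 V)} (h : RS act A) (σ : Equiv.Perm V) (ω : Ω) (u v : V) :
    s(u, v) ∈ A (act σ ω) ↔ s(σ.symm u, σ.symm v) ∈ A ω := by
  rw [← h.equi σ ω]
  simp

lemma restr {A : Ω → Set (Sym2 V)} (h : RS act A) :
    Adm act (fun ω => restr (dset (A ω))) := by
  classical
  refine ⟨meas_of_coef fun p q => ?_, fun σ ω x => ?_⟩
  · have h1 : (fun ω => Vale.Agent.P143.restr (dset (A ω)) (dl p) q)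
        = fun ω => if s(q.1, q.2) ∈ A ω then (dl p : Hd V) q else 0 := by
      funext ω
      exact restr_apply _ _ _
    rw [h1]
    exact Measurable.ite (h.meas _) measurable_const measurable_const
  · refine hd_ext fun u v => ?_
    rw [permL_apply]
    by_cases h1 : s(u, v) ∈ A (act σ ω)
    · rw [restr_apply_mem (S := dset (A (act σ ω))) h1,
        restr_apply_mem (S := dset (A ω)) ((h.mem_perm σ ω u v).1 h1), permL_apply]
    · rw [restr_apply_notMem (S := dset (A (act σ ω))) h1,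
        restr_apply_notMem (S := dset (A ω)) (fun h2 => h1 ((h.mem_perm σ ω u v).2 h2))]

lemma supp {A : Ω → Set (Sym2 V)} (h : RS act A) : Adm act (fun ω => proj (suppS (A ω))) :=
  Adm.ker h.compl.restr one_pos (fun ω x => by simpa using norm_restr_le _ x)
    fun _ _ => mem_suppS_iff

end RS

lemma Adm.of_meas {T : Ω → Hd V →L[ℝ] Hd V} (h : MeasOp T)
    (h' : ∀ σ ω x, T (act σ ω) (permL σ x) = permL σ (T ω x)) : Adm act T := ⟨h, h'⟩

/-- Intersections. -/
lemma Adm.inf {M N : Ω → Submodule ℝ (Hd V)} (hM : Adm act (fun ω => proj (M ω)))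
    (hN : Adm act (fun ω => proj (N ω))) (hMc : ∀ ω, IsClosed (M ω : Set (Hd V)))
    (hNc : ∀ ω, IsClosed (N ω : Set (Hd V))) : Adm act (fun ω => proj (M ω ⊓ N ω)) := by
  have hT : Adm act (fun ω => (1 - proj (M ω)) + (1 - proj (N ω))) :=
    (Adm.one.sub hM).add (Adm.one.sub hN)
  refine hT.ker (c := 2) two_pos (fun ω x => ?_) fun ω x => ?_
  · have h1 : ((1 - proj (M ω)) + (1 - proj (N ω))) x
        = (x - proj (M ω) x) + (x - proj (N ω) x) := rfl
    have h2 : ‖x - proj (M ω) x‖ ≤ ‖x‖ := by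
      rw [← proj_orthogonal]; exact norm_proj_le _ _
    have h3 : ‖x - proj (N ω) x‖ ≤ ‖x‖ := by
      rw [← proj_orthogonal]; exact norm_proj_le _ _
    rw [h1]
    calc _ ≤ ‖x - proj (M ω) x‖ + ‖x - proj (N ω) x‖ := norm_add_le _ _
      _ ≤ 2 * ‖x‖ := by linarith
  · have h1 : ((1 - proj (M ω)) + (1 - proj (N ω))) x
        = (x - proj (M ω) x) + (x - proj (N ω) x) := rfl
    constructor
    · rintro ⟨h2, h3⟩
      rw [h1, proj_eq_self h2, proj_eq_self h3]
      simp
    · intro h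
      have h2 : ‖x - proj (M ω) x‖ ^ 2 + ‖x - proj (N ω) x‖ ^ 2 = 0 := by
        have h4 : ⟪((1 - proj (M ω)) + (1 - proj (N ω))) x, x⟫_ℝ = 0 := by
          rw [h, inner_zero_left]
        rw [h1, inner_add_left, ← proj_orthogonal, ← proj_orthogonal, inner_proj_self,
          inner_proj_self, proj_orthogonal, proj_orthogonal] at h4
        exact h4
      have h5a := sq_nonneg (norm (x - proj (M ω) x))
      have h5b := sq_nonneg (norm (x - proj (N ω) x))
      have h5 : ‖x - proj (M ω) x‖ ^ 2 = 0 := by linarith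
      have h6 : ‖x - proj (N ω) x‖ ^ 2 = 0 := by linarith
      have h7 : x = proj (M ω) x := by
        have : x - proj (M ω) x = 0 := by simpa using h5
        exact sub_eq_zero.1 this
      have h8 : x = proj (N ω) x := by
        have : x - proj (N ω) x = 0 := by simpa using h6
        exact sub_eq_zero.1 this
      exact ⟨by rw [h7]; exact proj_mem (hMc ω) x, by rw [h8]; exact proj_mem (hNc ω) x⟩

/-- Closures of ranges. -/
lemma Adm.range {T : Ω → Hd V →L[ℝ] Hd V} (hT : Adm act T) {c : ℝ} (hc : 0 < c)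
    (hb : ∀ ω x, ‖T ω x‖ ≤ c * ‖x‖) {R : Ω → Submodule ℝ (Hd V)}
    (hR : ∀ ω x, x ∈ R ω ↔ ∃ y, T ω y = x) : Adm act (fun ω => proj (R ω)) := by
  have h1 : Adm act (fun ω => proj (R ω)ᗮ) := by
    refine hT.adjoint.ker hc (fun ω x => norm_adjoint_le hc.le (hb ω) x) fun ω x => ?_
    rw [Submodule.mem_orthogonal]
    constructor
    · intro h
      refine ext_inner_right ℝ fun y => ?_
      rw [ContinuousLinearMap.adjoint_inner_left, inner_zero_left, real_inner_comm]
      exact h _ ((hR ω _).2 ⟨y, rfl⟩)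
    · intro h y hy
      obtain ⟨z, rfl⟩ := (hR ω y).1 hy
      rw [real_inner_comm, ← ContinuousLinearMap.adjoint_inner_left, h, inner_zero_left]
  have h2 := h1.compl
  have h3 : (fun ω => proj (R ω)ᗮᗮ) = fun ω => proj (R ω) := by
    funext ω
    ext1 x
    rw [proj_orthogonal, proj_orthogonal, sub_sub_cancel]
  rwa [h3] at h2

end Vale.Agent.P143
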