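import Vale.Agent.P143.Fiber

set_option autoImplicit false
set_option linter.unusedSectionVars false

namespace Vale.Agent.P143

open Filter Topology Set MeasureTheory

universe u w

variable {V : Type u} [Countable V] [MeasurableSpace V] [MeasurableSingletonClass V]

/-- the expected number of pairs of `S` at the root -/
noncomputable def dens (ρ : Measure (SimpleGraph V × V)) (S : Env V → Set (Sym2 V)) : ENNReal :=
  tr (envP ρ) (fun ω p => ind (S ω) s(p.1, p.2))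

variable {ρ : Measure (SimpleGraph V × V)}

lemma tr_envP (ρ : Measure (SimpleGraph V × V)) [IsProbabilityMeasure ρ]
    {q : Env V → V × V → ℝ} (hm : ∀ p, Measurable fun ω => q ω p) :
    tr (envP ρ) q = ∫⁻ p, ∑' v, ∫⁻ m, ENNReal.ofReal (q (p.1, m) (p.2, v)) ∂(mksM V) ∂ρ := by
  unfold tr
  rw [lintegral_envP ρ (measurable_inner hm)]
  refine lintegral_congr fun p => ?_
  exact lintegral_tsum fun v => (measurable_section (q := fun ω => q ω (p.2, v))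
    (hm (p.2, v)) p.1).aemeasurable

lemma tr_fiber_le [IsProbabilityMeasure ρ] {c : ENNReal} (hc : c ≠ ⊤)
    {q₁ q₂ : Env V → V × V → ℝ} (hm₁ : ∀ p, Measurable fun ω => q₁ ω p)
    (hm₂ : ∀ p, Measurable fun ω => q₂ ω p)
    (h : ∀ G u v, c * ∫⁻ m, ENNReal.ofReal (q₁ (G, m) (u, v)) ∂(mksM V)
      ≤ ∫⁻ m, ENNReal.ofReal (q₂ (G, m) (u, v)) ∂(mksM V)) :
    c * tr (envP ρ) q₁ ≤ tr (envP ρ) q₂ := by
  rw [tr_envP ρ hm₁, tr_envP ρ hm₂, ← lintegral_const_mul' _ _ hc]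
  refine lintegral_mono fun p => ?_
  rw [← ENNReal.tsum_mul_left]
  exact ENNReal.tsum_le_tsum fun v => h p.1 p.2 v

lemma tr_fiber_le' [IsProbabilityMeasure ρ] {c : ENNReal} (hc : c ≠ ⊤)
    {q₁ q₂ : Env V → V × V → ℝ} (hm₁ : ∀ p, Measurable fun ω => q₁ ω p)
    (hm₂ : ∀ p, Measurable fun ω => q₂ ω p)
    (h : ∀ G u v, ∫⁻ m, ENNReal.ofReal (q₁ (G, m) (u, v)) ∂(mksM V)
      ≤ c * ∫⁻ m, ENNReal.ofReal (q₂ (G, m) (u, v)) ∂(mksM V)) :
    tr (envP ρ) q₁ ≤ c * tr (envP ρ) q₂ := by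
  rw [tr_envP ρ hm₁, tr_envP ρ hm₂, ← lintegral_const_mul' _ _ hc]
  refine lintegral_mono fun p => ?_
  rw [← ENNReal.tsum_mul_left]
  exact ENNReal.tsum_le_tsum fun v => h p.1 p.2 v

lemma dens_mono {S T : Env V → Set (Sym2 V)} (h : ∀ ω, S ω ⊆ T ω) : dens ρ S ≤ dens ρ T := by
  refine tr_mono fun ω p => ?_
  by_cases hS : s(p.1, p.2) ∈ S ω
  · rw [ind_of_mem hS, ind_of_mem (h ω hS)]
  · rw [ind_of_notMem hS]; exact ind_nonneg _ _

lemma dens_union {S T U : Env V → Set (Sym2 V)} (hT : RS (actE (V := V)) T)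
    (h : ∀ ω, S ω ⊆ T ω ∪ U ω) : dens ρ S ≤ dens ρ T + dens ρ U := by
  unfold dens
  rw [← tr_add (fun _ _ => ind_nonneg _ _) (fun _ _ => ind_nonneg _ _)
    (fun p => meas_ind hT s(p.1, p.2))]
  refine tr_mono fun ω p => ?_
  by_cases hS : s(p.1, p.2) ∈ S ω
  · rw [ind_of_mem hS]
    rcases h ω hS with h1 | h1
    · rw [ind_of_mem h1]; linarith [ind_nonneg (U ω) s(p.1, p.2)]
    · rw [ind_of_mem h1]; linarith [ind_nonneg (T ω) s(p.1, p.2)]
  · rw [ind_of_notMem hS]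
    exact add_nonneg (ind_nonneg _ _) (ind_nonneg _ _)

/-- edges of class `j` -/
def Cls (j : ℕ) (ω : Env V) : Set (Sym2 V) := ω.1.edgeSet ∩ {f | cls ω.1 f = j}

/-- edges of class at most `j` -/
def ClsLe (j : ℕ) (ω : Env V) : Set (Sym2 V) := ω.1.edgeSet ∩ {f | cls ω.1 f ≤ j}

omit [MeasurableSpace V] [MeasurableSingletonClass V] in
lemma rs_Cls (j : ℕ) : RS (actE (V := V)) (Cls j) := rs_edge.inter (rs_cls (fun i => i = j))

omit [MeasurableSpace V] [MeasurableSingletonClass V] in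
lemma rs_ClsLe (j : ℕ) : RS (actE (V := V)) (ClsLe j) := rs_edge.inter (rs_cls (fun i => i ≤ j))

/-- bounded classes have finite density -/
lemma dens_ClsLe_le [IsProbabilityMeasure ρ] (hρ : ∀ᵐ p ∂ρ, LocFin p.1) (j : ℕ) :
    dens ρ (ClsLe j) ≤ j := by
  classical
  unfold dens
  rw [tr_envP ρ (fun p => meas_ind (rs_ClsLe j) s(p.1, p.2))]
  have h1 : ∀ᵐ p ∂ρ, ∑' v, ∫⁻ m, ENNReal.ofReal
      (ind (ClsLe j ((p.1, m) : Env V)) s(p.2, v)) ∂(mksM V) ≤ (j : ENNReal) := by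
    filter_upwards [hρ] with p hp
    have hfin := hp p.2
    have h2 : ∀ v, ∫⁻ m, ENNReal.ofReal
        (ind (ClsLe j ((p.1, m) : Env V)) s(p.2, v)) ∂(mksM V)
        ≤ if v ∈ hfin.toFinset ∧ cdeg p.1 p.2 ≤ j then 1 else 0 := by
      intro v
      refine le_trans (lintegral_mono (g := fun _ => if v ∈ hfin.toFinset ∧ cdeg p.1 p.2 ≤ j
        then (1 : ENNReal) else 0) fun m => ?_) ?_
      · by_cases h3 : s(p.2, v) ∈ ClsLe j ((p.1, m) : Env V)
        · have h4 : v ∈ hfin.toFinset ∧ cdeg p.1 p.2 ≤ j := by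
            refine ⟨hfin.mem_toFinset.2 h3.1, ?_⟩
            have h5 : max (cdeg p.1 p.2) (cdeg p.1 v) ≤ j := h3.2
            exact (le_max_left _ _).trans h5
          rw [ind_of_mem h3]
          simp only [h4, and_self, if_true, ENNReal.ofReal_one, le_refl]
        · rw [ind_of_notMem h3, ENNReal.ofReal_zero]
          exact zero_le
      · rw [lintegral_const, measure_univ, mul_one]
    refine (ENNReal.tsum_le_tsum h2).trans ?_
    by_cases hd : cdeg p.1 p.2 ≤ j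
    · simp only [hd, and_true]
      rw [tsum_eq_sum (s := hfin.toFinset) (fun v hv => by rw [if_neg hv])]
      rw [Finset.sum_ite_mem, Finset.inter_self, Finset.sum_const, nsmul_eq_mul, mul_one]
      have h6 : hfin.toFinset.card = cdeg p.1 p.2 := by
        unfold cdeg
        rw [Set.ncard_eq_toFinset_card _ hfin]
      rw [h6]
      exact_mod_cast hd
    · simp [hd]
  calc _ ≤ ∫⁻ _, (j : ENNReal) ∂ρ := lintegral_mono_ae h1
    _ = j := by rw [lintegral_const, measure_univ, mul_one]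

omit [MeasurableSpace V] [MeasurableSingletonClass V] [Countable V] in
lemma batch_div {G : SimpleGraph V} {e : Sym2 V} (he : e ∈ G.edgeSet) (n : ℕ) (m : Mk V) :
    batch G n m e / 2 ^ n = cls G e := by
  rw [batch_of_mem he, add_comm, Nat.add_mul_div_right _ _ (by positivity),
    Nat.div_eq_of_lt (fl_lt n _), zero_add]

omit [MeasurableSpace V] [MeasurableSingletonClass V] [Countable V] in
lemma div_le_of_lt {a n j i : ℕ} (hi : i < 2 ^ n) (h : a ≤ j * 2 ^ n + i) : a / 2 ^ n ≤ j := by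
  have h1 : (j * 2 ^ n + i) / 2 ^ n = j := by
    rw [add_comm, Nat.add_mul_div_right _ _ (by positivity), Nat.div_eq_of_lt hi, zero_add]
  calc a / 2 ^ n ≤ (j * 2 ^ n + i) / 2 ^ n := Nat.div_le_div_right h
    _ = j := h1

omit [MeasurableSpace V] [MeasurableSingletonClass V] [Countable V] in
lemma Sle_subset {n j i : ℕ} (hi : i < 2 ^ n) (ω : Env V) :
    ω.1.edgeSet ∩ Sle n (j * 2 ^ n + i) ω ⊆ ClsLe j ω := by
  rintro e ⟨h1, h2⟩
  refine ⟨h1, ?_⟩
  change cls ω.1 e ≤ j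
  rw [← batch_div h1 n ω.2]
  exact div_le_of_lt hi h2

/-- one step of the exploration -/
lemma step_le [IsProbabilityMeasure ρ] (hu : IsUnimodular ρ) (hρ : ∀ᵐ p ∂ρ, LocFin p.1)
    (n j i : ℕ) (hlt : i < 2 ^ n) :
    ENNReal.ofReal ((2 : ℝ) ^ n - 1 - i) * dens ρ (Nk n (j * 2 ^ n + i))
      ≤ dens ρ (Und n (j * 2 ^ n + i)) + dens ρ (Ck n (j * 2 ^ n + i)) := by
  set k := j * 2 ^ n + i with hk
  have h1 : ENNReal.ofReal ((2 : ℝ) ^ n - 1 - i) * dens ρ (Nk n k)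
      ≤ tr (envP ρ) (fun ω p => ind (ω.1.edgeSet \ Sle n k ω) s(p.1, p.2) *
        (highv n k ω s(p.1, p.2) - lowv n k ω s(p.1, p.2))) :=
    tr_fiber_le ENNReal.ofReal_ne_top (fun p => meas_ind (rs_Nk n k) s(p.1, p.2))
      (fun p => (meas_ind (rs_edge.diff (rs_Sle n k)) _).mul (measurable_highv_sub_lowv n k _))
      fun G u v => fiber_le n j i hlt G s(u, v)
  refine h1.trans ?_
  set A : Env V → Set (Sym2 V) := fun ω => (st n ω k).1 with hA
  set B : Env V → Set (Sym2 V) := fun ω => (st n ω k).2 with hB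
  set Q : Env V → Set (Sym2 V) := fun ω => (Sle n k ω \ A ω) \ B ω with hQ
  have hAr : RS (actE (V := V)) A := (rs_st n k).1
  have hBr : RS (actE (V := V)) B := (rs_st n k).2
  have hQr : RS (actE (V := V)) Q := ((rs_Sle n k).diff hAr).diff hBr
  have hAS : ∀ ω, A ω ⊆ Sle n k ω := fun ω f hf =>
    (show batch ω.1 n ω.2 f < k from (st_subset n k ω).1 hf).le
  have hBS : ∀ ω, B ω ⊆ Sle n k ω := fun ω f hf =>
    (show batch ω.1 n ω.2 f < k from (st_subset n k ω).2 hf).le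
  have hAB : ∀ ω, Disjoint (A ω) (B ω) := fun ω => st_disjoint n k ω
  have hunion : ∀ ω, A ω ∪ B ω ∪ Q ω = Sle n k ω := by
    intro ω
    ext f
    constructor
    · rintro ((h | h) | h)
      · exact hAS ω h
      · exact hBS ω h
      · exact h.1.1
    · intro h
      by_cases h2 : f ∈ A ω
      · exact Or.inl (Or.inl h2)
      · by_cases h3 : f ∈ B ω
        · exact Or.inl (Or.inr h3)
        · exact Or.inr ⟨⟨h, h2⟩, h3⟩
  have hAQ : ∀ ω, A ω ∪ Q ω = Sle n k ω \ B ω := by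
    intro ω
    ext f
    constructor
    · rintro (h | h)
      · exact ⟨hAS ω h, fun h' => (disjoint_left.1 (hAB ω)) h h'⟩
      · exact ⟨h.1.1, h.2⟩
    · rintro ⟨h1, h2⟩
      by_cases h3 : f ∈ A ω
      · exact Or.inl h3
      · exact Or.inr ⟨⟨h1, h3⟩, h2⟩
  have hBQ : ∀ ω, B ω ∪ Q ω = Sle n k ω \ A ω := by
    intro ω
    ext f
    constructor
    · rintro (h | h)
      · exact ⟨hBS ω h, fun h' => (disjoint_left.1 (hAB ω)) h' h⟩
      · exact ⟨h.1.1, h.1.2⟩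
    · rintro ⟨h1, h2⟩
      by_cases h3 : f ∈ B ω
      · exact Or.inl h3
      · exact Or.inr ⟨⟨h1, h2⟩, h3⟩
  have hfin : tr (envP ρ) (fun ω p => ind (ω.1.edgeSet ∩ (A ω ∪ B ω ∪ Q ω)) s(p.1, p.2)) ≠ ⊤ := by
    refine ne_top_of_le_ne_top (ENNReal.natCast_ne_top j) ((dens_mono (ρ := ρ)
      (S := fun ω => ω.1.edgeSet ∩ (A ω ∪ B ω ∪ Q ω)) (T := ClsLe j) fun ω => ?_).trans
      (dens_ClsLe_le hρ j))
    rw [hunion]
    exact Sle_subset hlt ω
  have h2 := gap_le (mtp_envP ρ hu) (rg_fst (V := V)) hAr hBr hQr hAB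
    (fun ω => disjoint_left.2 fun f h h' => h'.1.2 h)
    (fun ω => disjoint_left.2 fun f h h' => h'.2 h) hfin
  have h3 : tr (envP ρ) (fun ω p => ind (ω.1.edgeSet \ Sle n k ω) s(p.1, p.2) *
        (highv n k ω s(p.1, p.2) - lowv n k ω s(p.1, p.2)))
      = tr (envP ρ) (fun ω p => ind (ω.1.edgeSet \ (A ω ∪ B ω ∪ Q ω)) s(p.1, p.2) *
        (hi ω.1 (A ω) (B ω ∪ Q ω) s(p.1, p.2) - lo ω.1 (A ω ∪ Q ω) (B ω) s(p.1, p.2))) := by
    refine tr_congr fun ω p => ?_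
    rw [hunion, hAQ, hBQ]
    by_cases h4 : s(p.1, p.2) ∈ ω.1.edgeSet \ Sle n k ω
    · have h5 : ∀ S : Set (Sym2 V), (Sle n k ω \ S) \ {s(p.1, p.2)} = Sle n k ω \ S := by
        intro S
        refine sdiff_singleton_eq_self fun h6 => h4.2 h6.1
      unfold highv lowv
      rw [h5, h5]
    · rw [ind_of_notMem h4, zero_mul, zero_mul]
  rw [h3]
  refine h2.trans ?_
  have h6 : RS (actE (V := V)) (Und n k) := rs_Und n k
  refine dens_union (S := fun ω => ω.1.edgeSet ∩ Q ω) h6 fun ω => ?_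
  rintro f ⟨hf1, ⟨⟨hf2, hf3⟩, hf4⟩⟩
  have hf2' : batch ω.1 n ω.2 f ≤ k := hf2
  rcases lt_or_eq_of_le hf2' with h7 | h7
  · exact Or.inl ⟨⟨⟨hf1, h7⟩, hf3⟩, hf4⟩
  · exact Or.inr ⟨hf1, h7⟩

lemma dens_Ck_le [IsProbabilityMeasure ρ] (n j i : ℕ) (hlt : i < 2 ^ n) :
    dens ρ (Ck n (j * 2 ^ n + i)) ≤ ENNReal.ofReal (1 / 2 ^ n) * dens ρ (Cls j) := by
  refine tr_fiber_le' ENNReal.ofReal_ne_top (fun p => meas_ind (rs_Ck n _) s(p.1, p.2))
    (fun p => meas_ind (rs_Cls j) s(p.1, p.2)) fun G u v => ?_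
  have h := fiber_Ck n j i hlt G s(u, v)
  have h2 : ∫⁻ m, ENNReal.ofReal (ind (Cls j ((G, m) : Env V)) s((u, v).1, (u, v).2)) ∂(mksM V)
      = ENNReal.ofReal (ind (G.edgeSet ∩ {f | cls G f = j}) s(u, v)) := by
    change ∫⁻ _, ENNReal.ofReal (ind (G.edgeSet ∩ {f | cls G f = j}) s(u, v)) ∂(mksM V) = _
    rw [lintegral_const, measure_univ, mul_one]
  rw [h2]
  exact h

/-- the last edges of class `j` -/
def Fl (n I j : ℕ) (ω : Env V) : Set (Sym2 V) :=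
  ω.1.edgeSet ∩ {f | cls ω.1 f = j ∧ I ≤ fl n (ω.2 f).1}

lemma dens_Fl_le [IsProbabilityMeasure ρ] (n I j : ℕ) (hI : I ≤ 2 ^ n) :
    dens ρ (Fl n I j) ≤ ENNReal.ofReal (1 - (I : ℝ) / 2 ^ n) * dens ρ (Cls j) := by
  refine tr_fiber_le' ENNReal.ofReal_ne_top (fun p => meas_ind (rs_fl n I j) s(p.1, p.2))
    (fun p => meas_ind (rs_Cls j) s(p.1, p.2)) fun G u v => ?_
  have h := fiber_fl n I j hI G s(u, v)
  have h2 : ∫⁻ m, ENNReal.ofReal (ind (Cls j ((G, m) : Env V)) s((u, v).1, (u, v).2)) ∂(mksM V)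
      = ENNReal.ofReal (ind (G.edgeSet ∩ {f | cls G f = j}) s(u, v)) := by
    change ∫⁻ _, ENNReal.ofReal (ind (G.edgeSet ∩ {f | cls G f = j}) s(u, v)) ∂(mksM V) = _
    rw [lintegral_const, measure_univ, mul_one]
  rw [h2]
  exact h

lemma dens_Und_succ (n k : ℕ) : dens ρ (Und n (k + 1)) ≤ dens ρ (Und n k) + dens ρ (Nk n k) := by
  unfold dens
  rw [← tr_add (fun _ _ => ind_nonneg _ _) (fun _ _ => ind_nonneg _ _)
    (fun p => meas_ind (rs_Und n k) s(p.1, p.2))]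
  exact tr_mono fun ω p => Und_succ n k ω _

lemma dens_Und_class (n I j : ℕ) :
    dens ρ (Und n ((j + 1) * 2 ^ n)) ≤ dens ρ (Und n (j * 2 ^ n + I)) + dens ρ (Fl n I j) := by
  refine dens_union (rs_Und n _) fun ω => ?_
  rintro f ⟨⟨⟨h1, h2⟩, h3⟩, h4⟩
  have h2' : batch ω.1 n ω.2 f < (j + 1) * 2 ^ n := h2
  by_cases h5 : batch ω.1 n ω.2 f < j * 2 ^ n + I
  · refine Or.inl ⟨⟨⟨h1, h5⟩, fun h => h3 ?_⟩, fun h => h4 ?_⟩
    · unfold st at h ⊢
      rw [mem_stat_one] at h ⊢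
      exact ⟨h2', h.2⟩
    · unfold st at h ⊢
      rw [mem_stat_two] at h ⊢
      exact ⟨h2', h.2⟩
  · refine Or.inr ⟨h1, ?_⟩
    rw [batch_of_mem h1] at h2' h5
    have h6 := fl_lt n (ω.2 f).1
    have h7 : cls ω.1 f ≤ j := by
      by_contra hcon
      push Not at hcon
      have : (j + 1) * 2 ^ n ≤ cls ω.1 f * 2 ^ n := Nat.mul_le_mul_right _ hcon
      omega
    have h8 : j ≤ cls ω.1 f := by
      by_contra hcon
      push Not at hcon
      have h9 : (cls ω.1 f + 1) * 2 ^ n ≤ j * 2 ^ n := Nat.mul_le_mul_right _ hcon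
      rw [add_mul, one_mul] at h9
      omega
    have h9 : cls ω.1 f = j := le_antisymm h7 h8
    refine ⟨h9, ?_⟩
    rw [h9] at h5
    omega

lemma dens_Cls_ne_top [IsProbabilityMeasure ρ] (hρ : ∀ᵐ p ∂ρ, LocFin p.1) (j : ℕ) :
    dens ρ (Cls j) ≠ ⊤ :=
  ne_top_of_le_ne_top (ENNReal.natCast_ne_top j)
    ((dens_mono (S := Cls j) (T := ClsLe j) fun ω f hf => ⟨hf.1, le_of_eq hf.2⟩).trans
      (dens_ClsLe_le hρ j))

omit [MeasurableSpace V] [MeasurableSingletonClass V] [Countable V] in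
lemma Und_subset (n k j : ℕ) (hk : k ≤ (j + 1) * 2 ^ n) (ω : Env V) :
    Und n k ω ⊆ ClsLe j ω := by
  rintro e ⟨⟨⟨h1, h2⟩, -⟩, -⟩
  refine ⟨h1, ?_⟩
  change cls ω.1 e ≤ j
  rw [← batch_div h1 n ω.2]
  have h3 : batch ω.1 n ω.2 e < (j + 1) * 2 ^ n := lt_of_lt_of_le h2 hk
  exact Nat.lt_succ_iff.1 ((Nat.div_lt_iff_lt_mul (by positivity)).2 h3)

lemma dens_Und_ne_top [IsProbabilityMeasure ρ] (hρ : ∀ᵐ p ∂ρ, LocFin p.1) (n k j : ℕ)
    (hk : k ≤ (j + 1) * 2 ^ n) : dens ρ (Und n k) ≠ ⊤ :=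
  ne_top_of_le_ne_top (ENNReal.natCast_ne_top j)
    ((dens_mono fun ω => Und_subset n k j hk ω).trans (dens_ClsLe_le hρ j))

lemma dens_Nk_ne_top [IsProbabilityMeasure ρ] (hρ : ∀ᵐ p ∂ρ, LocFin p.1) (n j i : ℕ)
    (hlt : i < 2 ^ n) : dens ρ (Nk n (j * 2 ^ n + i)) ≠ ⊤ := by
  refine ne_top_of_le_ne_top (ENNReal.natCast_ne_top j)
    ((dens_mono fun ω => ?_).trans (dens_ClsLe_le hρ j))
  rintro e ⟨⟨⟨h1, h2⟩, -⟩, -⟩
  exact Sle_subset hlt ω ⟨h1, le_of_eq h2⟩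

/-- One class: the density of undetermined edges is controlled. -/
lemma class_bound [IsProbabilityMeasure ρ] (hu : IsUnimodular ρ) (hρ : ∀ᵐ p ∂ρ, LocFin p.1)
    (n j r : ℕ) (hr : r ≤ n) :
    (dens ρ (Und n ((j + 1) * 2 ^ n))).toReal
      ≤ 2 ^ r * ((dens ρ (Und n (j * 2 ^ n))).toReal + (dens ρ (Cls j)).toReal / 2 ^ n)
        + (dens ρ (Cls j)).toReal / 2 ^ r := by
  set μ : ℝ := (dens ρ (Cls j)).toReal with hμ
  set x : ℕ → ℝ := fun i => (dens ρ (Und n (j * 2 ^ n + i))).toReal with hx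
  set y : ℕ → ℝ := fun i => (dens ρ (Nk n (j * 2 ^ n + i))).toReal with hy
  have hμ0 : 0 ≤ μ := ENNReal.toReal_nonneg
  have hp : (0 : ℝ) < 2 ^ n := by positivity
  have hxfin : ∀ i ≤ 2 ^ n, dens ρ (Und n (j * 2 ^ n + i)) ≠ ⊤ := fun i hi =>
    dens_Und_ne_top hρ n _ j (by rw [add_mul, one_mul]; omega)
  have h1 : ∀ i < 2 ^ n, ((2 : ℝ) ^ n - 1 - i) * y i ≤ x i + μ / 2 ^ n := by
    intro i hi
    have hi' : (i : ℝ) + 1 ≤ 2 ^ n := by exact_mod_cast hi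
    have h2 := (step_le hu hρ n j i hi).trans (add_le_add_right (dens_Ck_le n j i hi) _)
    have h3 := ENNReal.toReal_mono (ENNReal.add_ne_top.2 ⟨hxfin i hi.le,
      ENNReal.mul_ne_top ENNReal.ofReal_ne_top (dens_Cls_ne_top hρ j)⟩) h2
    rw [ENNReal.toReal_mul, ENNReal.toReal_add (hxfin i hi.le)
      (ENNReal.mul_ne_top ENNReal.ofReal_ne_top (dens_Cls_ne_top hρ j)), ENNReal.toReal_mul,
      ENNReal.toReal_ofReal (by linarith), ENNReal.toReal_ofReal (by positivity)] at h3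
    calc _ ≤ _ := h3
      _ = x i + μ / 2 ^ n := by simp only [hx, hμ]; ring
  have h2 : ∀ i < 2 ^ n, x (i + 1) ≤ x i + y i := by
    intro i hi
    have h3 := ENNReal.toReal_mono (ENNReal.add_ne_top.2 ⟨hxfin i hi.le,
      dens_Nk_ne_top hρ n j i hi⟩) (dens_Und_succ (ρ := ρ) n (j * 2 ^ n + i))
    rwa [ENNReal.toReal_add (hxfin i hi.le) (dens_Nk_ne_top hρ n j i hi)] at h3
  have h3 : ∀ i ≤ 2 ^ n, ((2 : ℝ) ^ n - i) * (x i + μ / 2 ^ n) ≤ 2 ^ n * (x 0 + μ / 2 ^ n) := by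
    intro i
    induction i with
    | zero => intro _; simp
    | succ i ih =>
      intro hi
      have hi1 : i < 2 ^ n := hi
      have hi' : (i : ℝ) + 1 ≤ 2 ^ n := by exact_mod_cast hi1
      refine le_trans ?_ (ih hi1.le)
      have h4 := h1 i hi1
      have h5 := h2 i hi1
      have h6 : ((2 : ℝ) ^ n - 1 - i) * (x (i + 1) - x i) ≤ ((2 : ℝ) ^ n - 1 - i) * y i :=
        mul_le_mul_of_nonneg_left (by linarith) (by linarith)
      push_cast
      nlinarith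
  set I : ℕ := 2 ^ n - 2 ^ (n - r) with hI
  have hIle : I ≤ 2 ^ n := Nat.sub_le _ _
  have hIr : (I : ℝ) = 2 ^ n - 2 ^ (n - r) := by
    rw [hI, Nat.cast_sub (Nat.pow_le_pow_right (by norm_num) (Nat.sub_le _ _))]
    push_cast
    ring
  have hpow : (2 : ℝ) ^ n = 2 ^ r * 2 ^ (n - r) := by
    rw [← pow_add]; congr 1; omega
  have hq : (0 : ℝ) < 2 ^ (n - r) := by positivity
  have hr0 : (0 : ℝ) < 2 ^ r := by positivity
  have h4 := h3 I hIle
  rw [hIr, sub_sub_cancel] at h4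
  have h5 : x I + μ / 2 ^ n ≤ 2 ^ r * (x 0 + μ / 2 ^ n) := by
    have h6 : 2 ^ (n - r) * (x I + μ / 2 ^ n) ≤ 2 ^ (n - r) * (2 ^ r * (x 0 + μ / 2 ^ n)) := by
      calc _ ≤ 2 ^ n * (x 0 + μ / 2 ^ n) := h4
        _ = 2 ^ (n - r) * (2 ^ r * (x 0 + μ / 2 ^ n)) := by rw [hpow]; ring
    exact le_of_mul_le_mul_left h6 hq
  have h7 : (dens ρ (Und n ((j + 1) * 2 ^ n))).toReal ≤ x I + (1 - (I : ℝ) / 2 ^ n) * μ := by
    have h8 := (dens_Und_class (ρ := ρ) n I j).trans (add_le_add_right (dens_Fl_le n I j hIle) _)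
    have h9 := ENNReal.toReal_mono (ENNReal.add_ne_top.2 ⟨hxfin I hIle,
      ENNReal.mul_ne_top ENNReal.ofReal_ne_top (dens_Cls_ne_top hρ j)⟩) h8
    have hI1 : (0 : ℝ) ≤ 1 - (I : ℝ) / 2 ^ n := by
      rw [sub_nonneg, div_le_one hp]
      exact_mod_cast hIle
    rwa [ENNReal.toReal_add (hxfin I hIle)
      (ENNReal.mul_ne_top ENNReal.ofReal_ne_top (dens_Cls_ne_top hρ j)), ENNReal.toReal_mul,
      ENNReal.toReal_ofReal hI1] at h9
  have h10 : (1 - (I : ℝ) / 2 ^ n) = 1 / 2 ^ r := by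
    rw [hIr, hpow]
    field_simp
    ring
  rw [h10] at h7
  have h11 : 0 ≤ μ / 2 ^ n := by positivity
  have h12 : x 0 = (dens ρ (Und n (j * 2 ^ n))).toReal := by simp only [hx, add_zero]
  rw [h12] at h5
  calc _ ≤ x I + 1 / 2 ^ r * μ := h7
    _ ≤ _ := by
      have : 1 / 2 ^ r * μ = μ / 2 ^ r := by ring
      linarith

/-- The density of undetermined edges of bounded class tends to zero. -/
theorem tendsto_dens [IsProbabilityMeasure ρ] (hu : IsUnimodular ρ) (hρ : ∀ᵐ p ∂ρ, LocFin p.1)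
    (j : ℕ) : Tendsto (fun n => (dens ρ (Und n (j * 2 ^ n))).toReal) atTop (𝓝 0) := by
  induction j with
  | zero =>
    have h : ∀ n, (dens ρ (Und n (0 * 2 ^ n))).toReal = 0 := by
      intro n
      have h1 : dens ρ (Und n (0 * 2 ^ n)) = 0 := by
        unfold dens tr
        have h2 : ∀ p : Env V × V, ∑' v, ENNReal.ofReal (ind (Und n (0 * 2 ^ n) p.1)
            s((p.2, v).1, (p.2, v).2)) = 0 := by
          intro p
          rw [ENNReal.tsum_eq_zero]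
          intro v
          rw [ind_of_notMem, ENNReal.ofReal_zero]
          rintro ⟨⟨⟨-, h3⟩, -⟩, -⟩
          rw [zero_mul] at h3
          exact absurd h3 (Nat.not_lt_zero _)
        rw [lintegral_congr h2, lintegral_zero]
      rw [h1]; rfl
    simp only [h]
    exact tendsto_const_nhds
  | succ j ih =>
    set μ : ℝ := (dens ρ (Cls j)).toReal with hμ
    have hμ0 : 0 ≤ μ := ENNReal.toReal_nonneg
    rw [Metric.tendsto_atTop]
    intro ε hε
    have hpow : Tendsto (fun r : ℕ => μ / 2 ^ r) atTop (𝓝 0) := by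
      have h := (tendsto_pow_atTop_nhds_zero_of_lt_one (r := (1 / 2 : ℝ)) (by norm_num)
        (by norm_num)).const_mul μ
      rw [mul_zero] at h
      refine h.congr fun r => ?_
      rw [one_div, inv_pow]
      rfl
    obtain ⟨r, hr⟩ := (Metric.tendsto_atTop.1 hpow) (ε / 2) (by positivity)
    have hr1 := hr r le_rfl
    have hlim : Tendsto (fun n => 2 ^ r * ((dens ρ (Und n (j * 2 ^ n))).toReal + μ / 2 ^ n))
        atTop (𝓝 0) := by
      have h := (ih.add hpow).const_mul ((2 : ℝ) ^ r)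
      rwa [add_zero, mul_zero] at h
    obtain ⟨N, hN⟩ := (Metric.tendsto_atTop.1 hlim) (ε / 2) (by positivity)
    refine ⟨max N r, fun n hn => ?_⟩
    have h1 := hN n ((le_max_left _ _).trans hn)
    have h2 := class_bound hu hρ n j r ((le_max_right _ _).trans hn)
    rw [Real.dist_eq, sub_zero] at h1 hr1 ⊢
    rw [abs_of_nonneg ENNReal.toReal_nonneg]
    have h3 := (abs_lt.1 h1).2
    have h4 := (abs_lt.1 hr1).2
    linarith

end Vale.Agent.P143
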