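import Vale.Agent.P143.DimLe

set_option autoImplicit false
set_option linter.unusedSectionVars false

namespace Vale.Agent.P143

open Filter Topology Set MeasureTheory
open scoped InnerProductSpace

universe u w

variable {V : Type u}

/-- Ordered pairs whose unordered pair lies in `A`. -/
def dset (A : Set (Sym2 V)) : Set (V × V) := {p | s(p.1, p.2) ∈ A}

/-- Functions vanishing off `A`. -/
def suppS (A : Set (Sym2 V)) : Submodule ℝ (Hd V) where
  carrier := {x | ∀ u v, s(u, v) ∉ A → x (u, v) = 0}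
  add_mem' := by
    intro x y hx hy u v h
    simp [hx u v h, hy u v h]
  zero_mem' := by intro u v _; rfl
  smul_mem' := by
    intro c x hx u v h
    simp [hx u v h]

lemma mem_suppS {A : Set (Sym2 V)} {x : Hd V} :
    x ∈ suppS A ↔ ∀ u v, s(u, v) ∉ A → x (u, v) = 0 := Iff.rfl

lemma suppS_mono {A B : Set (Sym2 V)} (h : A ⊆ B) : suppS A ≤ suppS B :=
  fun _ hx u v huv => hx u v fun hA => huv (h hA)

lemma restr_eq_self {A : Set (Sym2 V)} {x : Hd V} (hx : x ∈ suppS A) :
    restr (dset A) x = x := by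
  refine hd_ext fun u v => ?_
  by_cases h : s(u, v) ∈ A
  · exact restr_apply_mem h x
  · rw [restr_apply_notMem (S := dset A) h x, hx u v h]

lemma restr_mem (A : Set (Sym2 V)) (x : Hd V) : restr (dset A) x ∈ suppS A :=
  fun _ _ h => restr_apply_notMem (S := dset A) h x

lemma restr_add_compl (A : Set (Sym2 V)) (x : Hd V) :
    restr (dset A) x + restr (dset Aᶜ) x = x := by
  refine hd_ext fun u v => ?_
  change restr (dset A) x (u, v) + restr (dset Aᶜ) x (u, v) = _
  by_cases h : s(u, v) ∈ A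
  · rw [restr_apply_mem (S := dset A) h x, restr_apply_notMem (S := dset Aᶜ) (fun h' => h' h) x,
      add_zero]
  · rw [restr_apply_notMem (S := dset A) h x, restr_apply_mem (S := dset Aᶜ) h x, zero_add]

lemma mem_suppS_compl_iff {A : Set (Sym2 V)} {x : Hd V} :
    x ∈ suppS Aᶜ ↔ restr (dset A) x = 0 := by
  constructor
  · intro h
    have h1 := restr_add_compl A x
    rw [restr_eq_self h] at h1
    simpa using h1
  · intro h
    have h1 := restr_add_compl A x
    rw [h, zero_add] at h1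
    rw [← h1]
    exact restr_mem _ _

lemma mem_suppS_iff {A : Set (Sym2 V)} {x : Hd V} :
    x ∈ suppS A ↔ restr (dset Aᶜ) x = 0 := by
  have := mem_suppS_compl_iff (A := Aᶜ) (x := x)
  rwa [compl_compl] at this

lemma isClosed_ker (T : Hd V →L[ℝ] Hd V) {K : Submodule ℝ (Hd V)} (h : ∀ x, x ∈ K ↔ T x = 0) :
    IsClosed (K : Set (Hd V)) := by
  have : (K : Set (Hd V)) = T ⁻¹' {0} := by
    ext x
    exact h x
  rw [this]
  exact isClosed_singleton.preimage T.continuous

lemma isClosed_suppS (A : Set (Sym2 V)) : IsClosed (suppS A : Set (Hd V)) :=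
  isClosed_ker _ fun _ => mem_suppS_iff

/-- The flip of the two coordinates. -/
noncomputable def flipL : Hd V →L[ℝ] Hd V :=
  ((reidx (Equiv.prodComm V V)).toContinuousLinearEquiv : Hd V →L[ℝ] Hd V)

@[simp] lemma flipL_apply (x : Hd V) (u v : V) : flipL x (u, v) = x (v, u) := rfl

/-- Antisymmetric functions on the edges of `G`. -/
def EE (G : SimpleGraph V) : Submodule ℝ (Hd V) where
  carrier := {x | (∀ u v, x (u, v) = - x (v, u)) ∧ ∀ u v, ¬ G.Adj u v → x (u, v) = 0}
  add_mem' := by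
    intro x y hx hy
    refine ⟨fun u v => ?_, fun u v h => ?_⟩
    · change x (u, v) + y (u, v) = -(x (v, u) + y (v, u))
      rw [hx.1 u v, hy.1 u v]; ring
    · change x (u, v) + y (u, v) = 0
      rw [hx.2 u v h, hy.2 u v h, add_zero]
  zero_mem' := ⟨fun u v => by simp, fun u v _ => rfl⟩
  smul_mem' := by
    intro c x hx
    refine ⟨fun u v => ?_, fun u v h => ?_⟩
    · change c * x (u, v) = -(c * x (v, u))
      rw [hx.1 u v]; ring
    · change c * x (u, v) = 0
      rw [hx.2 u v h, mul_zero]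

lemma mem_EE {G : SimpleGraph V} {x : Hd V} :
    x ∈ EE G ↔ (∀ u v, x (u, v) = - x (v, u)) ∧ ∀ u v, ¬ G.Adj u v → x (u, v) = 0 := Iff.rfl

/-- non-adjacent ordered pairs -/
def nonadj (G : SimpleGraph V) : Set (Sym2 V) := G.edgeSetᶜ

lemma mem_EE_iff {G : SimpleGraph V} {x : Hd V} :
    x ∈ EE G ↔ (x + flipL x = 0 ∧ restr (dset G.edgeSetᶜ) x = 0) := by
  rw [mem_EE]
  refine and_congr ?_ ?_
  · constructor
    · intro h
      refine hd_ext fun u v => ?_
      change x (u, v) + x (v, u) = 0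
      rw [h u v]; ring
    · intro h u v
      have h1 := congrArg (fun y : Hd V => y (u, v)) h
      change x (u, v) + x (v, u) = 0 at h1
      linarith
  · rw [← mem_suppS_iff, mem_suppS]
    rfl

lemma isClosed_EE (G : SimpleGraph V) : IsClosed (EE G : Set (Hd V)) := by
  have h : (EE G : Set (Hd V)) = (fun x => x + flipL x) ⁻¹' {0} ∩
      (restr (dset G.edgeSetᶜ)) ⁻¹' {0} := by
    ext x
    exact mem_EE_iff
  rw [h]
  refine (isClosed_singleton.preimage ?_).inter (isClosed_singleton.preimage ?_)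
  · exact continuous_id.add flipL.continuous
  · exact (restr _).continuous

/-- restriction preserves antisymmetric functions -/
lemma restr_mem_EE {G : SimpleGraph V} {x : Hd V} (hx : x ∈ EE G) (A : Set (Sym2 V)) :
    restr (dset A) x ∈ EE G := by
  refine ⟨fun u v => ?_, fun u v h => ?_⟩
  · by_cases h : s(u, v) ∈ A
    · rw [restr_apply_mem (S := dset A) h x,
        restr_apply_mem (S := dset A) (by rwa [dset, mem_ofPred_eq, Sym2.eq_swap]) x]
      exact hx.1 u v
    · rw [restr_apply_notMem (S := dset A) h x,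
        restr_apply_notMem (S := dset A) (by rwa [dset, mem_ofPred_eq, Sym2.eq_swap]) x]
      simp
  · by_cases h' : s(u, v) ∈ A
    · rw [restr_apply_mem (S := dset A) h' x]
      exact hx.2 u v h
    · exact restr_apply_notMem (S := dset A) h' x

/-! ### loops -/

/-- Finite vertex sequences. -/
abbrev Seqs (V : Type u) := Σ n : ℕ, (Fin (n + 1) → V)

/-- `l` is a closed walk of `G`. -/
def IsLoop (G : SimpleGraph V) (l : Seqs V) : Prop :=
  (∀ i : Fin l.1, G.Adj (l.2 i.castSucc) (l.2 i.succ)) ∧ l.2 0 = l.2 (Fin.last l.1)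

/-- The antisymmetric chain of a vertex sequence. -/
noncomputable def chainV (l : Seqs V) : Hd V :=
  ∑ i : Fin l.1, (dl (l.2 i.castSucc, l.2 i.succ) - dl (l.2 i.succ, l.2 i.castSucc))

/-- Span of the closed walks. -/
noncomputable def ZZ (G : SimpleGraph V) : Submodule ℝ (Hd V) :=
  Submodule.span ℝ {x | ∃ l, IsLoop G l ∧ x = chainV l}

/-- Closed span of the closed walks. -/
noncomputable def WP (G : SimpleGraph V) : Submodule ℝ (Hd V) := (ZZ G).topologicalClosure

/-- Antisymmetric functions of finite energy orthogonal to all closed walks. -/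
noncomputable def WW (G : SimpleGraph V) : Submodule ℝ (Hd V) := EE G ⊓ (ZZ G)ᗮ

lemma dl_sub_mem_EE {G : SimpleGraph V} {u v : V} (h : G.Adj u v) :
    (dl (u, v) - dl (v, u) : Hd V) ∈ EE G := by
  classical
  refine ⟨fun a b => ?_, fun a b hab => ?_⟩
  · change dl (u, v) (a, b) - dl (v, u) (a, b) = -(dl (u, v) (b, a) - dl (v, u) (b, a))
    simp only [dl_apply, Prod.mk.injEq]
    have e1 : (b = v ∧ a = u) = (a = u ∧ b = v) := by rw [and_comm]
    have e2 : (b = u ∧ a = v) = (a = v ∧ b = u) := by rw [and_comm]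
    simp only [e1, e2]
    ring
  · change dl (u, v) (a, b) - dl (v, u) (a, b) = 0
    have h1 : (a, b) ≠ (u, v) := by
      rintro h'
      rw [Prod.mk.injEq] at h'
      rw [h'.1, h'.2] at hab
      exact hab h
    have h2 : (a, b) ≠ (v, u) := by
      rintro h'
      rw [Prod.mk.injEq] at h'
      rw [h'.1, h'.2] at hab
      exact hab h.symm
    rw [dl_apply_ne h1, dl_apply_ne h2, sub_zero]

lemma ZZ_le_EE (G : SimpleGraph V) : ZZ G ≤ EE G := by
  refine Submodule.span_le.2 ?_
  rintro x ⟨l, hl, rfl⟩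
  exact Submodule.sum_mem _ fun i _ => dl_sub_mem_EE (hl.1 i)

lemma WP_le_EE (G : SimpleGraph V) : WP G ≤ EE G :=
  Submodule.topologicalClosure_minimal _ (ZZ_le_EE G) (isClosed_EE G)

lemma isClosed_WP (G : SimpleGraph V) : IsClosed (WP G : Set (Hd V)) :=
  Submodule.isClosed_topologicalClosure _

lemma isClosed_WW (G : SimpleGraph V) : IsClosed (WW G : Set (Hd V)) :=
  (isClosed_EE G).inter (Submodule.isClosed_orthogonal _)

lemma WW_perp_WP {G : SimpleGraph V} {x y : Hd V} (hx : x ∈ WW G) (hy : y ∈ WP G) :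
    ⟪x, y⟫_ℝ = 0 := inner_eq_zero_of_mem_closure hy hx.2

lemma WP_le_WW_orth (G : SimpleGraph V) : WP G ≤ (WW G)ᗮ := by
  intro y hy
  rw [Submodule.mem_orthogonal]
  exact fun x hx => WW_perp_WP hx hy

lemma WW_le_WP_orth (G : SimpleGraph V) : WW G ≤ (WP G)ᗮ := by
  intro x hx
  rw [Submodule.mem_orthogonal']
  exact fun y hy => WW_perp_WP hx hy

lemma proj_WP_eq (G : SimpleGraph V) : proj (WP G) = proj (ZZ G) := by
  unfold proj WP
  congr 1
  exact closure_eq_of_isClosed (Submodule.isClosed_topologicalClosure _)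

/-- orthogonal decomposition of the edge space -/
lemma EE_decomp {G : SimpleGraph V} {x : Hd V} (hx : x ∈ EE G) :
    proj (WW G) x + proj (WP G) x = x := by
  have h : proj (WW G) x = x - proj (WP G) x := by
    refine proj_unique ?_ ?_
    · refine Submodule.le_topologicalClosure _ ⟨?_, ?_⟩
      · exact Submodule.sub_mem _ hx (WP_le_EE G (proj_mem (isClosed_WP G) x))
      · rw [proj_WP_eq]
        exact sub_proj_mem_orthogonal (ZZ G) x
    · rw [sub_sub_cancel]
      exact WP_le_WW_orth G (proj_mem (isClosed_WP G) x)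
  rw [h, sub_add_cancel]

/-- Orthogonal decomposition, key injectivity. -/
theorem key_inj {G : SimpleGraph V} {A B Q : Set (Sym2 V)} {x : Hd V} (hx : x ∈ EE G)
    (hL : ∀ y ∈ WW G ⊓ suppS (A ∪ Q)ᶜ, ⟪x, restr (dset Bᶜ) y⟫_ℝ = 0)
    (hL' : ∀ y ∈ WP G ⊓ suppS (B ∪ Q)ᶜ, ⟪x, restr (dset Aᶜ) y⟫_ℝ = 0)
    (h1 : restr (dset (A ∪ Q)) (proj (WW G) x) + proj (WP G ⊓ suppS A) x = 0)
    (h2 : restr (dset (B ∪ Q)) (proj (WP G) x) + proj (WW G ⊓ suppS B) x = 0) : x = 0 := by
  have hclA : IsClosed ((WP G ⊓ suppS A : Submodule ℝ (Hd V)) : Set (Hd V)) :=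
    (isClosed_WP G).inter (isClosed_suppS A)
  have hclB : IsClosed ((WW G ⊓ suppS B : Submodule ℝ (Hd V)) : Set (Hd V)) :=
    (isClosed_WW G).inter (isClosed_suppS B)
  set w := proj (WW G) x with hw
  set w' := proj (WP G) x with hw'
  have hwm : w ∈ WW G := proj_mem (isClosed_WW G) x
  have hwm' : w' ∈ WP G := proj_mem (isClosed_WP G) x
  have hxw : w + w' = x := EE_decomp hx
  -- first orthogonality
  have ha : restr (dset (A ∪ Q)) w = 0 ∧ proj (WP G ⊓ suppS A) x = 0 := by
    have hm := proj_mem hclA x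
    have h3 : ⟪restr (dset (A ∪ Q)) w, proj (WP G ⊓ suppS A) x⟫_ℝ = 0 := by
      rw [restr_inner, restr_eq_self (suppS_mono subset_union_left hm.2)]
      exact WW_perp_WP hwm hm.1
    have h4 : restr (dset (A ∪ Q)) w = - proj (WP G ⊓ suppS A) x := eq_neg_of_add_eq_zero_left h1
    rw [h4, inner_neg_left, neg_eq_zero, real_inner_self_eq_norm_sq] at h3
    have h5 : proj (WP G ⊓ suppS A) x = 0 := by simpa using h3
    exact ⟨by rw [h4, h5, neg_zero], h5⟩
  have hb : restr (dset (B ∪ Q)) w' = 0 ∧ proj (WW G ⊓ suppS B) x = 0 := by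
    have hm := proj_mem hclB x
    have h3 : ⟪restr (dset (B ∪ Q)) w', proj (WW G ⊓ suppS B) x⟫_ℝ = 0 := by
      rw [restr_inner, restr_eq_self (suppS_mono subset_union_left hm.2), real_inner_comm]
      exact WW_perp_WP hm.1 hwm'
    have h4 : restr (dset (B ∪ Q)) w' = - proj (WW G ⊓ suppS B) x :=
      eq_neg_of_add_eq_zero_left h2
    rw [h4, inner_neg_left, neg_eq_zero, real_inner_self_eq_norm_sq] at h3
    have h5 : proj (WW G ⊓ suppS B) x = 0 := by simpa using h3
    exact ⟨by rw [h4, h5, neg_zero], h5⟩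
  have hwA : w ∈ suppS (A ∪ Q)ᶜ := mem_suppS_compl_iff.2 ha.1
  have hwB' : w' ∈ suppS (B ∪ Q)ᶜ := mem_suppS_compl_iff.2 hb.1
  have hww' : ⟪w, w'⟫_ℝ = 0 := WW_perp_WP hwm hwm'
  have hw'B : restr (dset B) w' = 0 := by
    rw [← mem_suppS_compl_iff]
    exact suppS_mono (compl_subset_compl.2 subset_union_left) hwB'
  have hwA0 : restr (dset A) w = 0 := by
    rw [← mem_suppS_compl_iff]
    exact suppS_mono (compl_subset_compl.2 subset_union_left) hwA
  have hwsupp : restr (dset Bᶜ) w = 0 := by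
    have h5 := hL w ⟨hwm, hwA⟩
    rw [← hxw, inner_add_left] at h5
    have h6 : ⟪w', restr (dset Bᶜ) w⟫_ℝ = 0 := by
      have h7 : ⟪w', w⟫_ℝ = ⟪w', restr (dset B) w⟫_ℝ + ⟪w', restr (dset Bᶜ) w⟫_ℝ := by
        rw [← inner_add_right, restr_add_compl]
      rw [real_inner_comm, hww', ← restr_inner, hw'B, inner_zero_left, zero_add] at h7
      exact h7.symm
    have h8 : ⟪w, restr (dset Bᶜ) w⟫_ℝ = ‖restr (dset Bᶜ) w‖ ^ 2 := by
      rw [← real_inner_self_eq_norm_sq, restr_inner,
        restr_eq_self (restr_mem Bᶜ w)]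
    rw [h6, h8, add_zero] at h5
    simpa using h5
  have hwsupp' : restr (dset Aᶜ) w' = 0 := by
    have h5 := hL' w' ⟨hwm', hwB'⟩
    rw [← hxw, inner_add_left] at h5
    have h6 : ⟪w, restr (dset Aᶜ) w'⟫_ℝ = 0 := by
      have h7 : ⟪w, w'⟫_ℝ = ⟪w, restr (dset A) w'⟫_ℝ + ⟪w, restr (dset Aᶜ) w'⟫_ℝ := by
        rw [← inner_add_right, restr_add_compl]
      rw [hww', ← restr_inner, hwA0, inner_zero_left, zero_add] at h7
      exact h7.symm
    have h8 : ⟪w', restr (dset Aᶜ) w'⟫_ℝ = ‖restr (dset Aᶜ) w'‖ ^ 2 := by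
      rw [← real_inner_self_eq_norm_sq, restr_inner,
        restr_eq_self (restr_mem Aᶜ w')]
    rw [h6, h8, zero_add] at h5
    simpa using h5
  have hwz : w = 0 := by
    have h9 : proj (WW G ⊓ suppS B) x = w := by
      rw [← hxw, map_add, proj_eq_self (K := WW G ⊓ suppS B) ⟨hwm, mem_suppS_iff.2 hwsupp⟩,
        proj_eq_zero, add_zero]
      exact Submodule.orthogonal_le inf_le_left (WP_le_WW_orth G hwm')
    rw [← h9, hb.2]
  have hwz' : w' = 0 := by
    have h9 : proj (WP G ⊓ suppS A) x = w' := by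
      rw [← hxw, map_add, proj_eq_self (K := WP G ⊓ suppS A) ⟨hwm', mem_suppS_iff.2 hwsupp'⟩,
        proj_eq_zero, zero_add]
      exact Submodule.orthogonal_le inf_le_left (WW_le_WP_orth G hwm)
    rw [← h9, ha.2]
  rw [← hxw, hwz, hwz', add_zero]

end Vale.Agent.P143
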