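import Mathlib

set_option autoImplicit false

namespace Vale.Agent.P143

open MeasureTheory Set Filter Topology

universe u

/-- One step of the status recursion. -/
def statStep {E : Type u} (lo hi : Set E → Set E → E → ℝ) (b : E → ℕ) (θ : E → ℝ) (k : ℕ)
    (s : Set E × Set E) : Set E × Set E :=
  (s.1 ∪ {e | b e = k ∧ θ e < lo (({f | b f ≤ k} \ s.2) \ {e}) s.2 e},
    s.2 ∪ {e | b e = k ∧ hi s.1 (({f | b f ≤ k} \ s.1) \ {e}) e ≤ θ e})

/-- The status recursion: `(stat lo hi b θ k).1` (resp. `.2`) is the set of the elements of the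
batches `< k` which are determined to be present (resp. absent). -/
def stat {E : Type u} (lo hi : Set E → Set E → E → ℝ) (b : E → ℕ) (θ : E → ℝ) (k : ℕ) :
    Set E × Set E :=
  Nat.rec (∅, ∅) (fun k s => statStep lo hi b θ k s) k

lemma stat_zero {E : Type u} (lo hi : Set E → Set E → E → ℝ) (b : E → ℕ) (θ : E → ℝ) :
    stat lo hi b θ 0 = (∅, ∅) := rfl

lemma stat_succ {E : Type u} (lo hi : Set E → Set E → E → ℝ) (b : E → ℕ) (θ : E → ℝ) (k : ℕ) :
    stat lo hi b θ (k + 1) =
    ((stat lo hi b θ k).1 ∪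
        {e | b e = k ∧ θ e < lo (({f | b f ≤ k} \ (stat lo hi b θ k).2) \ {e})
          (stat lo hi b θ k).2 e},
      (stat lo hi b θ k).2 ∪
        {e | b e = k ∧ hi (stat lo hi b θ k).1
          (({f | b f ≤ k} \ (stat lo hi b θ k).1) \ {e}) e ≤ θ e}) := rfl

end Vale.Agent.P143
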