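import Vale.Agent.P143.Adm

set_option autoImplicit false

namespace Vale.Agent.P143

open Filter Topology Set MeasureTheory
open scoped InnerProductSpace

universe u w

variable {V : Type u} {Ω : Type w} [MeasurableSpace Ω] [MeasurableSpace V]

/-- The mass transport principle for the law `P` of a rooted environment. -/
def MTP (act : Equiv.Perm V → Ω → Ω) (P : Measure (Ω × V)) : Prop :=
  ∀ f : Ω → V → V → ENNReal, (∀ u v, Measurable fun ω => f ω u v) →
    (∀ σ ω u v, f (act σ ω) (σ u) (σ v) = f ω u v) →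
    ∫⁻ p, ∑' v, f p.1 p.2 v ∂P = ∫⁻ p, ∑' v, f p.1 v p.2 ∂P

/-- Expected sum of `q` over the ordered pairs starting at the root. -/
noncomputable def tr (P : Measure (Ω × V)) (q : Ω → V × V → ℝ) : ENNReal :=
  ∫⁻ p, ∑' v, ENNReal.ofReal (q p.1 (p.2, v)) ∂P

/-- Hilbert-Schmidt norm (squared) of a random operator. -/
noncomputable def hs (P : Measure (Ω × V)) (T : Ω → Hd V →L[ℝ] Hd V) : ENNReal :=
  tr P (fun ω p => ‖T ω (dl p)‖ ^ 2)

variable {act : Equiv.Perm V → Ω → Ω} {P : Measure (Ω × V)}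

lemma tr_mono {q r : Ω → V × V → ℝ} (h : ∀ ω p, q ω p ≤ r ω p) : tr P q ≤ tr P r :=
  lintegral_mono fun _ => ENNReal.tsum_le_tsum fun _ => ENNReal.ofReal_le_ofReal (h _ _)

lemma tr_congr {q r : Ω → V × V → ℝ} (h : ∀ ω p, q ω p = r ω p) : tr P q = tr P r :=
  le_antisymm (tr_mono fun ω p => (h ω p).le) (tr_mono fun ω p => (h ω p).ge)

lemma measurable_inner [Countable V] [MeasurableSingletonClass V] {q : Ω → V × V → ℝ}
    (h : ∀ p, Measurable fun ω => q ω p) :
    Measurable fun p : Ω × V => ∑' v, ENNReal.ofReal (q p.1 (p.2, v)) := by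
  refine Measurable.ennreal_tsum fun v => ?_
  refine ENNReal.measurable_ofReal.comp ?_
  refine measurable_from_prod_countable_left fun o => ?_
  exact h (o, v)

lemma tr_add [Countable V] [MeasurableSingletonClass V] {q r : Ω → V × V → ℝ}
    (hq : ∀ ω p, 0 ≤ q ω p) (hr : ∀ ω p, 0 ≤ r ω p) (hm : ∀ p, Measurable fun ω => q ω p) :
    tr P (fun ω p => q ω p + r ω p) = tr P q + tr P r := by
  unfold tr
  rw [← lintegral_add_left (measurable_inner hm)]
  refine lintegral_congr fun p => ?_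
  rw [← ENNReal.tsum_add]
  exact tsum_congr fun v => ENNReal.ofReal_add (hq _ _) (hr _ _)

lemma tr_const_mul [Countable V] [MeasurableSingletonClass V] {q : Ω → V × V → ℝ} {c : ℝ}
    (hc : 0 ≤ c) (hm : ∀ p, Measurable fun ω => q ω p) :
    tr P (fun ω p => c * q ω p) = ENNReal.ofReal c * tr P q := by
  unfold tr
  rw [← lintegral_const_mul _ (measurable_inner hm)]
  refine lintegral_congr fun p => ?_
  rw [← ENNReal.tsum_mul_left]
  exact tsum_congr fun v => ENNReal.ofReal_mul hc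

omit [MeasurableSpace V] in
lemma ofReal_norm_sq (x : Hd V) :
    ENNReal.ofReal (‖x‖ ^ 2) = ∑' p, ENNReal.ofReal ((x p) ^ 2) := by
  rw [norm_sq_eq_tsum, ENNReal.ofReal_tsum_of_nonneg (fun _ => sq_nonneg _) (summable_sq x)]

lemma hs_adjoint [Countable V] (hP : MTP act P) {T : Ω → Hd V →L[ℝ] Hd V} (hT : Adm act T) :
    hs P T = hs P (fun ω => ContinuousLinearMap.adjoint (T ω)) := by
  have key := hP (fun ω o a => ∑' v, ∑' b, ENNReal.ofReal ((T ω (dl (o, v)) (a, b)) ^ 2))
    (fun u v => Measurable.ennreal_tsum fun i => Measurable.ennreal_tsum fun j =>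
      ENNReal.measurable_ofReal.comp ((hT.coef _ _).pow_const 2))
    (by
      intro σ ω u v
      rw [← σ.tsum_eq]
      refine tsum_congr fun i => ?_
      rw [← σ.tsum_eq]
      refine tsum_congr fun j => ?_
      rw [← permL_dl, hT.equi, permL_apply]
      simp)
  unfold hs tr
  have e1 : ∀ p : Ω × V, ∑' v, ENNReal.ofReal (‖T p.1 (dl (p.2, v))‖ ^ 2)
      = ∑' a, ∑' v, ∑' b, ENNReal.ofReal ((T p.1 (dl (p.2, v)) (a, b)) ^ 2) := by
    intro p
    rw [ENNReal.tsum_comm]
    refine tsum_congr fun v => ?_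
    rw [ofReal_norm_sq, ENNReal.tsum_prod']
  have e2 : ∀ p : Ω × V,
      ∑' v, ENNReal.ofReal (‖ContinuousLinearMap.adjoint (T p.1) (dl (p.2, v))‖ ^ 2)
      = ∑' a, ∑' v, ∑' b, ENNReal.ofReal ((T p.1 (dl (a, v)) (p.2, b)) ^ 2) := by
    intro p
    have h : ∀ v, ENNReal.ofReal (‖ContinuousLinearMap.adjoint (T p.1) (dl (p.2, v))‖ ^ 2)
        = ∑' a, ∑' b, ENNReal.ofReal ((T p.1 (dl (a, b)) (p.2, v)) ^ 2) := by
      intro v
      rw [ofReal_norm_sq, ENNReal.tsum_prod']
      refine tsum_congr fun a => tsum_congr fun b => ?_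
      congr 2
      rw [← inner_dl_right, ContinuousLinearMap.adjoint_inner_left, inner_dl_left]
    rw [tsum_congr h, ENNReal.tsum_comm]
    refine tsum_congr fun a => ?_
    rw [ENNReal.tsum_comm]
  rw [lintegral_congr e1, lintegral_congr e2]
  exact key

omit [MeasurableSpace V] in
lemma meas_norm_sq [Countable V] {T : Ω → Hd V →L[ℝ] Hd V} (hT : Adm act T) (p : V × V) :
    Measurable fun ω => ‖T ω (dl p)‖ ^ 2 := by
  refine measurable_of_hasSum (f := fun q ω => (T ω (dl p) q) ^ 2)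
    (fun q => (hT.coef p q).pow_const 2) fun ω => ?_
  rw [norm_sq_eq_tsum]
  exact (summable_sq _).hasSum

end Vale.Agent.P143
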